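import Vale.Agent.P335.Defs

/-!
# P335 — M1: averages over the classes of an equivalence relation
-/

namespace Vale.P335

open Finset

section M1
variable {X : Type*} [Fintype X] {r s : X → X → Prop}

/-! ### classes -/

theorem cls_eq (hr : Equivalence r) {x y : X} (h : r x y) : cls r x = cls r y := by
  ext z
  rw [mem_cls, mem_cls]
  exact ⟨fun hz => hr.trans (hr.symm h) hz, fun hz => hr.trans h hz⟩

theorem self_mem_cls (hr : Equivalence r) (x : X) : x ∈ cls r x := mem_cls.2 (hr.refl x)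

theorem cls_card_pos (hr : Equivalence r) (x : X) : 0 < (cls r x).card :=
  card_pos.2 ⟨x, self_mem_cls hr x⟩

theorem cls_card_ne (hr : Equivalence r) (x : X) : ((cls r x).card : ℝ) ≠ 0 :=
  Nat.cast_ne_zero.2 (cls_card_pos hr x).ne'

/-! ### linearity (no hypothesis on `r` needed) -/

theorem Ex_add (f g : X → ℝ) : Ex r (f + g) = Ex r f + Ex r g := by
  funext x
  simp only [Ex, Pi.add_apply, sum_add_distrib, add_div]

theorem Ex_sub (f g : X → ℝ) : Ex r (f - g) = Ex r f - Ex r g := by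
  funext x
  simp only [Ex, Pi.sub_apply, sum_sub_distrib, sub_div]

theorem Ex_neg (f : X → ℝ) : Ex r (-f) = -Ex r f := by
  funext x
  simp only [Ex, Pi.neg_apply, sum_neg_distrib, neg_div]

theorem Ex_smul (c : ℝ) (f : X → ℝ) : Ex r (c • f) = c • Ex r f := by
  funext x
  simp only [Ex, Pi.smul_apply, smul_eq_mul, ← mul_sum, mul_div_assoc]

theorem Ex_zero : Ex r (0 : X → ℝ) = 0 := by
  funext x
  simp [Ex]

theorem Ex_sum {ι : Type*} (t : Finset ι) (f : ι → X → ℝ) :
    Ex r (∑ i ∈ t, f i) = ∑ i ∈ t, Ex r (f i) := by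
  funext x
  simp only [Ex, Finset.sum_apply]
  rw [sum_comm, sum_div]

theorem Pj_eq (f : X → ℝ) : Pj r f = f - Ex r f := rfl

theorem Pj_add (f g : X → ℝ) : Pj r (f + g) = Pj r f + Pj r g := by
  rw [Pj_eq, Pj_eq, Pj_eq, Ex_add]; abel

theorem Pj_sub (f g : X → ℝ) : Pj r (f - g) = Pj r f - Pj r g := by
  rw [Pj_eq, Pj_eq, Pj_eq, Ex_sub]; abel

theorem Pj_smul (c : ℝ) (f : X → ℝ) : Pj r (c • f) = c • Pj r f := by
  rw [Pj_eq, Pj_eq, Ex_smul, smul_sub]

/-! ### basic properties of the average -/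

theorem Ex_congr (hr : Equivalence r) (f : X → ℝ) {x y : X} (h : r x y) : Ex r f x = Ex r f y := by
  unfold Ex
  rw [cls_eq hr h]

/-- the average depends only on the values of `f` on the class -/
theorem Ex_congr_fun {f g : X → ℝ} {x : X} (h : ∀ y, r x y → f y = g y) :
    Ex r f x = Ex r g x := by
  unfold Ex
  rw [sum_congr rfl fun y hy => h y (mem_cls.1 hy)]

/-- the average depends only on the class -/
theorem Ex_congr_rel {f : X → ℝ} {x : X} (h : ∀ y, r x y ↔ s x y) :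
    Ex r f x = Ex s f x := by
  have : cls r x = cls s x := by
    ext y; rw [mem_cls, mem_cls, h]
  unfold Ex
  rw [this]

theorem card_mul_Ex (hr : Equivalence r) (f : X → ℝ) (x : X) :
    ((cls r x).card : ℝ) * Ex r f x = ∑ y ∈ cls r x, f y := by
  unfold Ex
  rw [mul_div_cancel₀ _ (cls_card_ne hr x)]

theorem Ex_eq_of_const (hr : Equivalence r) {f : X → ℝ} {x : X} {c : ℝ}
    (h : ∀ y, r x y → f y = c) : Ex r f x = c := by
  unfold Ex
  rw [sum_congr rfl fun y hy => h y (mem_cls.1 hy), sum_const, nsmul_eq_mul,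
    mul_div_cancel_left₀ _ (cls_card_ne hr x)]

theorem Ex_of_inv (hr : Equivalence r) {f : X → ℝ} (h : ∀ x y, r x y → f x = f y) :
    Ex r f = f := by
  funext x
  exact Ex_eq_of_const hr fun y hy => (h x y hy).symm

theorem Ex_const (hr : Equivalence r) (c : ℝ) : Ex r (fun _ : X => c) = fun _ => c :=
  Ex_of_inv hr fun _ _ _ => rfl

theorem Ex_idem (hr : Equivalence r) (f : X → ℝ) : Ex r (Ex r f) = Ex r f :=
  Ex_of_inv hr fun _ _ h => Ex_congr hr f h

theorem Ex_mul_of_inv (hr : Equivalence r) {φ : X → ℝ} (h : ∀ x y, r x y → φ x = φ y)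
    (f : X → ℝ) : Ex r (fun x => φ x * f x) = fun x => φ x * Ex r f x := by
  funext x
  have e : ∀ y ∈ cls r x, φ y * f y = φ x * f y := fun y hy => by rw [h x y (mem_cls.1 hy)]
  unfold Ex
  rw [sum_congr rfl e, ← mul_sum, mul_div_assoc]

theorem Ex_nonneg {f : X → ℝ} (h : ∀ x, 0 ≤ f x) (x : X) : 0 ≤ Ex r f x := by
  unfold Ex
  exact div_nonneg (sum_nonneg fun y _ => h y) (Nat.cast_nonneg _)

theorem Ex_mono {f g : X → ℝ} (h : ∀ x, f x ≤ g x) (x : X) : Ex r f x ≤ Ex r g x := by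
  unfold Ex
  exact div_le_div_of_nonneg_right (sum_le_sum fun y _ => h y) (Nat.cast_nonneg _)

theorem abs_Ex_le (f : X → ℝ) (x : X) : |Ex r f x| ≤ Ex r (fun y => |f y|) x := by
  unfold Ex
  rw [abs_div, abs_of_nonneg (Nat.cast_nonneg (α := ℝ) _)]
  exact div_le_div_of_nonneg_right (abs_sum_le_sum_abs _ _) (Nat.cast_nonneg _)

/-! ### the inner product -/

theorem ip_comm (f g : X → ℝ) : ip f g = ip g f :=
  sum_congr rfl fun _ _ => mul_comm _ _

theorem ip_add_left (f g h : X → ℝ) : ip (f + g) h = ip f h + ip g h := by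
  simp only [ip, Pi.add_apply, add_mul, sum_add_distrib]

theorem ip_add_right (f g h : X → ℝ) : ip f (g + h) = ip f g + ip f h := by
  simp only [ip, Pi.add_apply, mul_add, sum_add_distrib]

theorem ip_sub_left (f g h : X → ℝ) : ip (f - g) h = ip f h - ip g h := by
  simp only [ip, Pi.sub_apply, sub_mul, sum_sub_distrib]

theorem ip_sub_right (f g h : X → ℝ) : ip f (g - h) = ip f g - ip f h := by
  simp only [ip, Pi.sub_apply, mul_sub, sum_sub_distrib]

theorem ip_neg_left (f g : X → ℝ) : ip (-f) g = -ip f g := by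
  simp only [ip, Pi.neg_apply, neg_mul, sum_neg_distrib]

theorem ip_neg_right (f g : X → ℝ) : ip f (-g) = -ip f g := by
  simp only [ip, Pi.neg_apply, mul_neg, sum_neg_distrib]

theorem ip_smul_left (c : ℝ) (f g : X → ℝ) : ip (c • f) g = c * ip f g := by
  simp only [ip, Pi.smul_apply, smul_eq_mul, mul_sum, mul_assoc]

theorem ip_smul_right (c : ℝ) (f g : X → ℝ) : ip f (c • g) = c * ip f g := by
  rw [ip_comm, ip_smul_left, ip_comm]

theorem ip_self_eq (f : X → ℝ) : ip f f = ∑ x, f x ^ 2 :=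
  sum_congr rfl fun _ _ => (sq _).symm

theorem ip_self_nonneg (f : X → ℝ) : 0 ≤ ip f f :=
  sum_nonneg fun _ _ => mul_self_nonneg _

theorem ip_self_eq_zero {f : X → ℝ} : ip f f = 0 ↔ f = 0 := by
  constructor
  · intro h
    have h' := (sum_eq_zero_iff_of_nonneg (fun x _ => mul_self_nonneg (f x))).1 h
    funext x
    exact mul_self_eq_zero.1 (h' x (mem_univ x))
  · rintro rfl
    simp [ip]

/-- `2 <f, g> ≤ |f|² + |g|²` -/
theorem two_ip_le (f g : X → ℝ) : 2 * ip f g ≤ ip f f + ip g g := by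
  have h := ip_self_nonneg (f - g)
  rw [ip_sub_left, ip_sub_right, ip_sub_right, ip_comm g f] at h
  linarith

/-- `-2 <f, g> ≤ |f|² + |g|²` -/
theorem neg_two_ip_le (f g : X → ℝ) : -(2 * ip f g) ≤ ip f f + ip g g := by
  have h := ip_self_nonneg (f + g)
  rw [ip_add_left, ip_add_right, ip_add_right, ip_comm g f] at h
  linarith

/-! ### self-adjointness -/

open Classical in
theorem Ex_eq_sum_ite (f : X → ℝ) (x : X) :
    Ex r f x = ∑ y, if r x y then f y / ((cls r x).card : ℝ) else 0 := by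
  unfold Ex
  rw [sum_div, ← sum_filter]
  refine sum_congr ?_ fun _ _ => rfl
  ext y
  simp [mem_cls]

theorem ip_Ex_left (hr : Equivalence r) (f g : X → ℝ) : ip (Ex r f) g = ip f (Ex r g) := by
  classical
  unfold ip
  simp only [Ex_eq_sum_ite, sum_mul, mul_sum]
  rw [sum_comm]
  refine sum_congr rfl fun y _ => sum_congr rfl fun x _ => ?_
  by_cases h : r x y
  · rw [if_pos h, if_pos (hr.symm h), cls_eq hr h]
    ring
  · rw [if_neg h, if_neg (fun h' => h (hr.symm h'))]
    ring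

theorem ip_Ex_self (hr : Equivalence r) (f : X → ℝ) :
    ip (Ex r f) (Ex r f) = ip f (Ex r f) := by
  rw [ip_Ex_left hr, Ex_idem hr]

theorem ip_Pj_left (hr : Equivalence r) (f g : X → ℝ) : ip (Pj r f) g = ip f (Pj r g) := by
  rw [Pj_eq, Pj_eq, ip_sub_left, ip_sub_right, ip_Ex_left hr]

theorem Ex_Pj (hr : Equivalence r) (f : X → ℝ) : Ex r (Pj r f) = 0 := by
  rw [Pj_eq, Ex_sub, Ex_idem hr, sub_self]

theorem Pj_Ex (hr : Equivalence r) (f : X → ℝ) : Pj r (Ex r f) = 0 := by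
  rw [Pj_eq, Ex_idem hr, sub_self]

theorem Pj_idem (hr : Equivalence r) (f : X → ℝ) : Pj r (Pj r f) = Pj r f := by
  rw [Pj_eq (Pj r f), Ex_Pj hr, sub_zero]

theorem ip_Pj_self (hr : Equivalence r) (f : X → ℝ) :
    ip (Pj r f) (Pj r f) = ip f (Pj r f) := by
  rw [ip_Pj_left hr, Pj_idem hr]

/-- Pythagoras -/
theorem ip_self_eq_Ex_add_Pj (hr : Equivalence r) (f : X → ℝ) :
    ip f f = ip (Ex r f) (Ex r f) + ip (Pj r f) (Pj r f) := by
  rw [ip_Ex_self hr, ip_Pj_self hr, ← ip_add_right, Pj_eq, add_sub_cancel]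

theorem ip_Ex_self_le (hr : Equivalence r) (f : X → ℝ) : ip (Ex r f) (Ex r f) ≤ ip f f := by
  rw [ip_self_eq_Ex_add_Pj hr f]
  linarith [ip_self_nonneg (Pj r f)]

theorem ip_Pj_self_le (hr : Equivalence r) (f : X → ℝ) : ip (Pj r f) (Pj r f) ≤ ip f f := by
  rw [ip_self_eq_Ex_add_Pj hr f]
  linarith [ip_self_nonneg (Ex r f)]

theorem sum_Ex (hr : Equivalence r) (f : X → ℝ) : ∑ x, Ex r f x = ∑ x, f x := by
  have h := ip_Ex_left hr f (fun _ => (1 : ℝ))
  rw [Ex_const hr] at h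
  simpa [ip] using h

theorem sum_Pj (hr : Equivalence r) (f : X → ℝ) : ∑ x, Pj r f x = 0 := by
  simp only [Pj, sum_sub_distrib, sum_Ex hr, sub_self]

/-! ### towers and commutation -/

/-- averages over different relations: `r` finer than `s` -/
theorem Ex_tower_right (hr : Equivalence r) (hs : Equivalence s) (h : ∀ x y, r x y → s x y)
    (f : X → ℝ) : Ex r (Ex s f) = Ex s f :=
  Ex_of_inv hr fun x y hxy => Ex_congr hs f (h x y hxy)

/-- nondegeneracy of the inner product -/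
theorem eq_of_ip_eq {f g : X → ℝ} (h : ∀ u, ip f u = ip g u) : f = g := by
  have : f - g = 0 := by
    rw [← ip_self_eq_zero, ip_sub_left, h, sub_self]
  exact sub_eq_zero.1 this

/-- `r` finer than `s` -/
theorem Ex_tower_left (hr : Equivalence r) (hs : Equivalence s) (h : ∀ x y, r x y → s x y)
    (f : X → ℝ) : Ex s (Ex r f) = Ex s f := by
  refine eq_of_ip_eq fun u => ?_
  rw [ip_Ex_left hs, ip_Ex_left hr, Ex_tower_right hr hs h, ip_Ex_left hs]

private theorem comm_card (hr : Equivalence r)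
    (h1 : ∀ x y z, r x y → s y z → ∃! w, s x w ∧ r w z) {x y : X} (hxy : r x y) :
    (cls s y).card = (cls s x).card := by
  classical
  refine card_bij' (fun z hz => (h1 x y z hxy (mem_cls.1 hz)).choose)
    (fun w hw => (h1 y x w (hr.symm hxy) (mem_cls.1 hw)).choose) ?_ ?_ ?_ ?_
  · intro z hz
    exact mem_cls.2 (h1 x y z hxy (mem_cls.1 hz)).choose_spec.1.1
  · intro w hw
    exact mem_cls.2 (h1 y x w (hr.symm hxy) (mem_cls.1 hw)).choose_spec.1.1
  · intro z hz
    have hw := (h1 x y z hxy (mem_cls.1 hz)).choose_spec.1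
    exact ((h1 y x _ (hr.symm hxy) hw.1).choose_spec.2 z ⟨mem_cls.1 hz, hr.symm hw.2⟩).symm
  · intro w hw
    have hz := (h1 y x w (hr.symm hxy) (mem_cls.1 hw)).choose_spec.1
    exact ((h1 x y _ hxy hz.1).choose_spec.2 w ⟨mem_cls.1 hw, hr.symm hz.2⟩).symm

open Classical in
private theorem comm_sum
    (h1 : ∀ x y z, r x y → s y z → ∃! w, s x w ∧ r w z)
    (h2 : ∀ x w z, s x w → r w z → ∃! y, r x y ∧ s y z) (f : X → ℝ) (x : X) :
    ∑ y ∈ cls r x, ∑ z ∈ cls s y, f z = ∑ w ∈ cls s x, ∑ z ∈ cls r w, f z := by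
  have e : ∀ (r s : X → X → Prop), ∑ y ∈ cls r x, ∑ z ∈ cls s y, f z
      = ∑ z, ((univ.filter fun y => r x y ∧ s y z).card : ℝ) * f z := by
    intro r s
    have : ∀ y ∈ cls r x, ∑ z ∈ cls s y, f z = ∑ z, if s y z then f z else 0 := by
      intro y _
      rw [← sum_filter]
      refine sum_congr ?_ fun _ _ => rfl
      ext z; simp [mem_cls]
    rw [sum_congr rfl this, sum_comm]
    refine sum_congr rfl fun z _ => ?_
    rw [← sum_filter, sum_const, nsmul_eq_mul]
    congr 3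
    ext y; simp [mem_cls]
  rw [e r s, e s r]
  refine sum_congr rfl fun z _ => ?_
  congr 2
  by_cases hy : ∃ y, r x y ∧ s y z
  · obtain ⟨y, hy1, hy2⟩ := hy
    obtain ⟨w, hw, hwu⟩ := h1 x y z hy1 hy2
    obtain ⟨y', hy', hyu⟩ := h2 x w z hw.1 hw.2
    have e1 : (univ.filter fun y => r x y ∧ s y z) = {y'} := by
      ext u
      simp only [mem_filter, mem_univ, true_and, mem_singleton]
      exact ⟨fun hu => hyu u hu, fun hu => hu ▸ hy'⟩
    have e2 : (univ.filter fun w => s x w ∧ r w z) = {w} := by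
      ext u
      simp only [mem_filter, mem_univ, true_and, mem_singleton]
      exact ⟨fun hu => hwu u hu, fun hu => hu ▸ hw⟩
    rw [e1, e2, card_singleton, card_singleton]
  · have hw : ¬ ∃ w, s x w ∧ r w z := by
      rintro ⟨w, hw1, hw2⟩
      obtain ⟨y', hy', _⟩ := h2 x w z hw1 hw2
      exact hy ⟨y', hy'⟩
    have e1 : (univ.filter fun y => r x y ∧ s y z) = ∅ := by
      ext u
      simp only [mem_filter, mem_univ, true_and, notMem_empty, iff_false]
      exact fun hu => hy ⟨u, hu⟩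
    have e2 : (univ.filter fun w => s x w ∧ r w z) = ∅ := by
      ext u
      simp only [mem_filter, mem_univ, true_and, notMem_empty, iff_false]
      exact fun hu => hw ⟨u, hu⟩
    rw [e1, e2]

/-- the commutation lemma -/
theorem Ex_comm (hr : Equivalence r) (hs : Equivalence s)
    (h1 : ∀ x y z, r x y → s y z → ∃! w, s x w ∧ r w z)
    (h2 : ∀ x w z, s x w → r w z → ∃! y, r x y ∧ s y z) (f : X → ℝ) :
    Ex r (Ex s f) = Ex s (Ex r f) := by
  funext x
  have e : ∀ (r s : X → X → Prop), Equivalence r →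
      (∀ x y z, r x y → s y z → ∃! w, s x w ∧ r w z) →
      Ex r (Ex s f) x = (∑ y ∈ cls r x, ∑ z ∈ cls s y, f z) /
        (((cls s x).card : ℝ) * ((cls r x).card : ℝ)) := by
    intro r s hr h1
    have : ∑ y ∈ cls r x, Ex s f y
        = ∑ y ∈ cls r x, (∑ z ∈ cls s y, f z) / ((cls s x).card : ℝ) :=
      sum_congr rfl fun y hy => by
        unfold Ex
        rw [comm_card hr h1 (mem_cls.1 hy)]
    rw [Ex, this, ← sum_div, div_div]
  rw [e r s hr h1, e s r hs h2, comm_sum h1 h2, mul_comm]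

theorem Pj_comm (h : ∀ f, Ex r (Ex s f) = Ex s (Ex r f)) (f : X → ℝ) :
    Pj r (Pj s f) = Pj s (Pj r f) := by
  simp only [Pj_eq, Ex_sub, h]
  abel

/-- for commuting averages the product `<P_r f, P_s f>` is `|P_r P_s f|²` -/
theorem ip_Pj_eq_of_comm (hr : Equivalence r) (hs : Equivalence s)
    (h : ∀ f, Ex r (Ex s f) = Ex s (Ex r f)) (f : X → ℝ) :
    ip (Pj r f) (Pj s f) = ip (Pj r (Pj s f)) (Pj r (Pj s f)) := by
  calc ip (Pj r f) (Pj s f) = ip f (Pj r (Pj s f)) := ip_Pj_left hr _ _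
    _ = ip f (Pj r (Pj s (Pj s f))) := by rw [Pj_idem hs]
    _ = ip f (Pj s (Pj r (Pj s f))) := by rw [Pj_comm h (Pj s f)]
    _ = ip (Pj s f) (Pj r (Pj s f)) := (ip_Pj_left hs _ _).symm
    _ = ip (Pj s f) (Pj r (Pj r (Pj s f))) := by rw [Pj_idem hr]
    _ = ip (Pj r (Pj s f)) (Pj r (Pj s f)) := (ip_Pj_left hr _ _).symm

/-- commuting averages give a nonnegative product -/
theorem ip_Pj_nonneg_of_comm (hr : Equivalence r) (hs : Equivalence s)
    (h : ∀ f, Ex r (Ex s f) = Ex s (Ex r f)) (f : X → ℝ) : 0 ≤ ip (Pj r f) (Pj s f) := by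
  rw [ip_Pj_eq_of_comm hr hs h]
  exact ip_self_nonneg _

end M1

section Graphs

variable {V : Type*} [Fintype V] [DecidableEq V] {d : V → ℕ}

omit [DecidableEq V] in
theorem Gr.symm' (x : Gr V d) (u v : V) : x.1 u v = x.1 v u := x.2.1 u v

omit [DecidableEq V] in
theorem Gr.diag (x : Gr V d) (u : V) : x.1 u u = false := x.2.2.1 u

omit [DecidableEq V] in
theorem Gr.deg (x : Gr V d) (u : V) : ∑ v, (x.1 u v).toNat = d u := x.2.2.2 u

omit [DecidableEq V] in
theorem Gr.ext' {x y : Gr V d} (h : ∀ u v, x.1 u v = y.1 u v) : x = y :=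
  Subtype.ext (funext fun u => funext fun v => h u v)

theorem rel_equivalence (i j : V) : Equivalence (rel (d := d) i j) where
  refl _ := ⟨rfl, fun _ _ _ _ _ _ => rfl⟩
  symm h := ⟨h.1.symm, fun u v h1 h2 h3 h4 => (h.2 u v h1 h2 h3 h4).symm⟩
  trans h h' := ⟨h.1.trans h'.1, fun u v h1 h2 h3 h4 =>
    (h.2 u v h1 h2 h3 h4).trans (h'.2 u v h1 h2 h3 h4)⟩

theorem rel_symm (i j : V) : (rel (d := d) i j) = rel j i := by
  funext x y
  refine propext ⟨?_, ?_⟩
  · rintro ⟨h1, h2⟩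
    exact ⟨by rw [x.symm' j i, y.symm' j i, h1], fun u v a b c e => h2 u v b a e c⟩
  · rintro ⟨h1, h2⟩
    exact ⟨by rw [x.symm' i j, y.symm' i j, h1], fun u v a b c e => h2 u v b a e c⟩

theorem ralt_equivalence (i j k l : V) : Equivalence (ralt (d := d) i j k l) where
  refl x := ⟨(rel_equivalence i j).refl x, Iff.rfl⟩
  symm h := ⟨(rel_equivalence i j).symm h.1, h.2.symm⟩
  trans h h' := ⟨(rel_equivalence i j).trans h.1 h'.1, h.2.trans h'.2⟩

end Graphs

section ThreeRow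

variable {Γ : Type*} [Fintype Γ] [DecidableEq Γ] {r : Fin 3 → ℕ} {s : Γ → ℕ}

theorem rowRel_equivalence (a : Fin 3) : Equivalence (rowRel (r := r) (s := s) a) where
  refl _ := rfl
  symm h := Eq.symm h
  trans h h' := Eq.trans h h'

end ThreeRow

end Vale.P335
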