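import Vale.Agent.P335.ChainD

/-!
# P335 — M9: mixing time of the switch chain
-/

namespace Vale.P335

open Finset

variable {n : ℕ} {d : Fin n → ℕ}

theorem card_OmegaD_le (n : ℕ) (d : Fin n → ℕ) : Fintype.card (OmegaD n d) ≤ 2 ^ (n * n) := by
  have h1 : Fintype.card (OmegaD n d) ≤ Fintype.card (Fin n → Fin n → Bool) := by
    refine Fintype.card_le_of_injective (fun G => (toGr G).1) ?_
    intro G G' h
    have h2 : toGr G = toGr G' := Subtype.ext h
    exact eGr.injective h2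
  refine h1.trans (le_of_eq ?_)
  rw [Fintype.card_fun, Fintype.card_fun, Fintype.card_fin, Fintype.card_bool, ← pow_mul]

theorem choose_four_le (n : ℕ) : (n.choose 4 : ℝ) * 24 ≤ (n : ℝ) ^ 4 := by
  have h : n.choose 4 * 24 ≤ n ^ 4 := by
    have h1 := Nat.choose_le_pow_div 4 n (α := ℝ)
    have h2 : (n.choose 4 : ℝ) * 24 ≤ (n : ℝ) ^ 4 := by
      have : ((4 : ℕ).factorial : ℝ) = 24 := by norm_num [Nat.factorial]
      rw [this] at h1
      linarith
    exact_mod_cast h2
  exact_mod_cast h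

theorem tv_le (hn : 4 ≤ n) (t : ℕ) (ht : n ^ 6 ≤ t) (G : OmegaD n d) :
    tvDist n d t G ≤ 1 / 4 := by
  have hCN : 0 < n.choose 4 := Nat.choose_pos hn
  have hC : (0 : ℝ) < (n.choose 4 : ℝ) := by exact_mod_cast hCN
  have hC1 : (1 : ℝ) ≤ (n.choose 4 : ℝ) := by exact_mod_cast hCN
  have hnR : (4 : ℝ) ≤ (n : ℝ) := by exact_mod_cast hn
  set γ : ℝ := 1 / (36 * (n.choose 4 : ℝ)) with hγ
  have hγ0 : 0 < γ := by positivity
  have hγ1 : γ ≤ 1 := by
    rw [hγ, div_le_one (by positivity)]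
    linarith
  have h1 := mixing (chain n d) chain_symm chain_nonneg (chain_row hn) chain_lazy γ hγ1
    (fun f hf => chain_gap hn f hf) t G
  have h2 : tvDist n d t G ≤ 1 / 2 * (Real.sqrt (Fintype.card (OmegaD n d)) * (1 - γ) ^ t) := h1
  refine h2.trans ?_
  have h3 : Real.sqrt (Fintype.card (OmegaD n d)) * (1 - γ) ^ t ≤ 1 / 2 := by
    have h4 : (Real.sqrt (Fintype.card (OmegaD n d)) * (1 - γ) ^ t) ^ 2 ≤ (1 / 2) ^ 2 := by
      rw [mul_pow, Real.sq_sqrt (Nat.cast_nonneg _)]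
      have h5 : (Fintype.card (OmegaD n d) : ℝ) ≤ Real.exp ((n : ℝ) ^ 2) := by
        have h6 : (Fintype.card (OmegaD n d) : ℝ) ≤ (2 : ℝ) ^ (n * n) := by
          exact_mod_cast card_OmegaD_le n d
        refine h6.trans ?_
        have h7 : (2 : ℝ) ≤ Real.exp 1 := by
          have := Real.add_one_le_exp (1 : ℝ)
          linarith
        calc (2 : ℝ) ^ (n * n) ≤ (Real.exp 1) ^ (n * n) :=
              pow_le_pow_left₀ (by norm_num) h7 _
          _ = Real.exp ((n : ℝ) ^ 2) := by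
              rw [← Real.exp_nat_mul]
              congr 1
              push_cast
              ring
      have h8 : ((1 - γ) ^ t) ^ 2 ≤ Real.exp (-(4 / 3 * (n : ℝ) ^ 2)) := by
        have h9 : (1 - γ) ≤ Real.exp (-γ) := by
          have := Real.add_one_le_exp (-γ)
          linarith
        have h10 : (1 - γ) ^ t ≤ Real.exp (-γ) ^ t :=
          pow_le_pow_left₀ (by linarith) h9 t
        have h11 : ((1 - γ) ^ t) ^ 2 ≤ (Real.exp (-γ) ^ t) ^ 2 :=
          pow_le_pow_left₀ (pow_nonneg (by linarith) _) h10 2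
        refine h11.trans ?_
        rw [← Real.exp_nat_mul, ← Real.exp_nat_mul, Real.exp_le_exp]
        push_cast
        have h12 : (n : ℝ) ^ 6 ≤ (t : ℝ) := by exact_mod_cast ht
        have h13 := choose_four_le n
        have h14 : 2 / 3 * (n : ℝ) ^ 2 ≤ (t : ℝ) * γ := by
          rw [hγ, mul_one_div, le_div_iff₀ (by positivity)]
          have h15 : 2 / 3 * (n : ℝ) ^ 2 * (36 * (n.choose 4 : ℝ)) =
              (n : ℝ) ^ 2 * ((n.choose 4 : ℝ) * 24) := by ring
          rw [h15]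
          calc (n : ℝ) ^ 2 * ((n.choose 4 : ℝ) * 24) ≤ (n : ℝ) ^ 2 * (n : ℝ) ^ 4 :=
                mul_le_mul_of_nonneg_left h13 (by positivity)
            _ = (n : ℝ) ^ 6 := by ring
            _ ≤ t := h12
        linarith
      calc (Fintype.card (OmegaD n d) : ℝ) * ((1 - γ) ^ t) ^ 2
          ≤ Real.exp ((n : ℝ) ^ 2) * Real.exp (-(4 / 3 * (n : ℝ) ^ 2)) :=
            mul_le_mul h5 h8 (sq_nonneg _) (Real.exp_pos _).le
        _ = Real.exp (-((n : ℝ) ^ 2 / 3)) := by
            rw [← Real.exp_add]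
            congr 1
            ring
        _ ≤ (1 / 2) ^ 2 := by
            rw [Real.exp_neg]
            have h16 : (4 : ℝ) ≤ Real.exp ((n : ℝ) ^ 2 / 3) := by
              have h17 := Real.add_one_le_exp ((n : ℝ) ^ 2 / 3)
              nlinarith
            have h18 : (Real.exp ((n : ℝ) ^ 2 / 3))⁻¹ ≤ (4 : ℝ)⁻¹ :=
              inv_anti₀ (by norm_num) h16
            refine h18.trans ?_
            norm_num
    exact le_of_sq_le_sq h4 (by norm_num)
  linarith

/-- The Kannan–Tetali–Vempala conjecture for simple graphs, with the explicit polynomial `n ^ 6`. -/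
theorem ktv (n : ℕ) (hn : 4 ≤ n) (d : Fin n → ℕ) :
    {t : ℕ | ∀ G, tvDist n d t G ≤ 1 / 4}.Nonempty ∧ tmix n d ≤ n ^ 6 ∧
      ∀ t : ℕ, n ^ 6 ≤ t → ∀ G, tvDist n d t G ≤ 1 / 4 := by
  refine ⟨⟨n ^ 6, fun G => tv_le hn _ le_rfl G⟩, ?_, fun t ht G => tv_le hn t ht G⟩
  exact Nat.sInf_le (fun G => tv_le hn _ le_rfl G)

end Vale.P335
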