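import Mathlib

/-!
# P335 — basic definitions (shared by all modules)

Averages over classes of a relation on a finite type, graphs with a prescribed degree vector as
symmetric Boolean matrices, the pair relation `rel i j`, alternating 4-cycles and the flip.
-/

namespace Vale.P335

open Finset

section Avg

variable {X : Type*} [Fintype X]

open Classical in
/-- the `r`-class of `x` -/
noncomputable def cls (r : X → X → Prop) (x : X) : Finset X := univ.filter (fun y => r x y)

theorem mem_cls {r : X → X → Prop} {x y : X} : y ∈ cls r x ↔ r x y := by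
  simp [cls]

/-- the average of `f` over the `r`-class of `x` -/
noncomputable def Ex (r : X → X → Prop) (f : X → ℝ) (x : X) : ℝ :=
  (∑ y ∈ cls r x, f y) / ((cls r x).card : ℝ)

/-- `f` minus its average over the `r`-class -/
noncomputable def Pj (r : X → X → Prop) (f : X → ℝ) (x : X) : ℝ := f x - Ex r f x

/-- the (unnormalised) inner product -/
def ip (f g : X → ℝ) : ℝ := ∑ x, f x * g x

end Avg

section Graphs

variable {V : Type*} [Fintype V] [DecidableEq V]

/-- simple graphs on `V` with degree vector `d`, as symmetric Boolean matrices with zero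
diagonal -/
def Gr (V : Type*) [Fintype V] (d : V → ℕ) : Type _ :=
  {x : V → V → Bool // (∀ u v, x u v = x v u) ∧ (∀ u, x u u = false) ∧
    ∀ u, ∑ v, (x u v).toNat = d u}

variable {d : V → ℕ}

instance : Fintype (Gr V d) := by unfold Gr; infer_instance

instance : DecidableEq (Gr V d) := by unfold Gr; infer_instance

/-- the class relation of the pair `{i, j}`: `x i j` and all entries outside the rows and columns
`i, j` are frozen -/
def rel (i j : V) (x y : Gr V d) : Prop :=
  x.1 i j = y.1 i j ∧ ∀ u v, u ≠ i → u ≠ j → v ≠ i → v ≠ j → x.1 u v = y.1 u v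

/-- the 4-cycle `i - k - j - l` is alternating in `x` -/
def alt (i j k l : V) (x : Gr V d) : Prop :=
  x.1 i k = x.1 j l ∧ x.1 i l = x.1 j k ∧ x.1 i k ≠ x.1 i l

instance (i j k l : V) (x : Gr V d) : Decidable (alt i j k l x) := by
  unfold alt; infer_instance

/-- `i, j, k, l` pairwise distinct -/
def D4 (i j k l : V) : Prop := i ≠ j ∧ i ≠ k ∧ i ≠ l ∧ j ≠ k ∧ j ≠ l ∧ k ≠ l

instance (i j k l : V) : Decidable (D4 i j k l) := by unfold D4; infer_instance

/-- negate the four entries `ik, jl, il, jk` -/
def flipM (i j k l : V) (x : V → V → Bool) (u v : V) : Bool :=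
  if ((u = i ∨ u = j) ∧ (v = k ∨ v = l)) ∨ ((u = k ∨ u = l) ∧ (v = i ∨ v = j)) then !(x u v)
  else x u v

theorem flipM_mem {i j k l : V} (h : D4 i j k l) (x : Gr V d) (hx : alt i j k l x) :
    (∀ u v, flipM i j k l x.1 u v = flipM i j k l x.1 v u) ∧
    (∀ u, flipM i j k l x.1 u u = false) ∧
    ∀ u, ∑ v, (flipM i j k l x.1 u v).toNat = d u := by
  obtain ⟨hij, hik, hil, hjk, hjl, hkl⟩ := h
  obtain ⟨h1, h2, h3⟩ := hx
  obtain ⟨x, hs, hz, hd⟩ := x
  simp only at h1 h2 h3 ⊢
  refine ⟨?_, ?_, ?_⟩
  · intro u v
    unfold flipM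
    rw [hs u v]
    by_cases hc : ((u = i ∨ u = j) ∧ (v = k ∨ v = l)) ∨ ((u = k ∨ u = l) ∧ (v = i ∨ v = j))
    · rw [if_pos hc, if_pos (by tauto)]
    · rw [if_neg hc, if_neg (by tauto)]
  · intro u
    unfold flipM
    rw [if_neg, hz]
    rintro (⟨e1 | e1, e2 | e2⟩ | ⟨e1 | e1, e2 | e2⟩) <;>
      first
      | exact hik (e1.symm.trans e2)
      | exact hil (e1.symm.trans e2)
      | exact hjk (e1.symm.trans e2)
      | exact hjl (e1.symm.trans e2)
      | exact hik (e2.symm.trans e1)
      | exact hil (e2.symm.trans e1)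
      | exact hjk (e2.symm.trans e1)
      | exact hjl (e2.symm.trans e1)
  · -- a row in which two entries `p, q` with different values are negated
    have key : ∀ (u p q : V), p ≠ q → x u p ≠ x u q →
        (∀ v, flipM i j k l x u v = if v = p ∨ v = q then !(x u v) else x u v) →
        ∑ v, (flipM i j k l x u v).toNat = d u := by
      intro u p q hpq hne hf
      rw [← hd u, ← Finset.add_sum_erase _ _ (mem_univ p),
        ← Finset.add_sum_erase (univ.erase p) _ (mem_erase.2 ⟨hpq.symm, mem_univ q⟩),
        ← Finset.add_sum_erase univ (fun v => (x u v).toNat) (mem_univ p),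
        ← Finset.add_sum_erase (univ.erase p) (fun v => (x u v).toNat)
          (mem_erase.2 ⟨hpq.symm, mem_univ q⟩)]
      have hrest : ∑ v ∈ (univ.erase p).erase q, (flipM i j k l x u v).toNat
          = ∑ v ∈ (univ.erase p).erase q, (x u v).toNat := by
        refine sum_congr rfl fun v hv => ?_
        have hvq := (mem_erase.1 hv).1
        have hvp := (mem_erase.1 (mem_erase.1 hv).2).1
        rw [hf, if_neg (by tauto)]
      rw [hrest, hf p, hf q, if_pos (Or.inl rfl), if_pos (Or.inr rfl)]
      cases hp : x u p <;> cases hq : x u q <;> simp_all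
    intro u
    by_cases hui : u = i
    · subst hui
      exact key u k l hkl h3 (fun v => by
        unfold flipM
        by_cases hv : v = k ∨ v = l
        · rw [if_pos (Or.inl ⟨Or.inl rfl, hv⟩), if_pos hv]
        · rw [if_neg (by tauto), if_neg hv])
    by_cases huj : u = j
    · subst huj
      exact key u k l hkl (by rw [← h2, ← h1]; exact h3.symm) (fun v => by
        unfold flipM
        by_cases hv : v = k ∨ v = l
        · rw [if_pos (Or.inl ⟨Or.inr rfl, hv⟩), if_pos hv]
        · rw [if_neg (by tauto), if_neg hv])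
    by_cases huk : u = k
    · subst huk
      exact key u i j hij (by rw [hs u i, hs u j, ← h2]; exact h3) (fun v => by
        unfold flipM
        by_cases hv : v = i ∨ v = j
        · rw [if_pos (Or.inr ⟨Or.inl rfl, hv⟩), if_pos hv]
        · rw [if_neg (by tauto), if_neg hv])
    by_cases hul : u = l
    · subst hul
      exact key u i j hij (by rw [hs u i, hs u j, ← h1]; exact h3.symm) (fun v => by
        unfold flipM
        by_cases hv : v = i ∨ v = j
        · rw [if_pos (Or.inr ⟨Or.inr rfl, hv⟩), if_pos hv]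
        · rw [if_neg (by tauto), if_neg hv])
    rw [← hd u]
    refine sum_congr rfl fun v _ => ?_
    unfold flipM
    rw [if_neg (by tauto)]

/-- flip the 4-cycle `i - k - j - l` when it is alternating; otherwise do nothing -/
def flip (i j k l : V) (x : Gr V d) : Gr V d :=
  if h : D4 i j k l ∧ alt i j k l x then ⟨flipM i j k l x.1, flipM_mem h.1 x h.2⟩ else x

/-- same `{i,j}`-class and same alternation status of the cycle `i - k - j - l` -/
def ralt (i j k l : V) (x y : Gr V d) : Prop :=
  rel i j x y ∧ (alt i j k l x ↔ alt i j k l y)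

/-- `T i j k l f = ‖1_C P_p Â_p f‖²`: over alternating `x`, the square of (average of `f` over the
alternating elements of the `{i,j}`-class of `x`) - (average of `f` over the `{i,j}`-class) -/
noncomputable def T (i j k l : V) (f : Gr V d → ℝ) : ℝ :=
  ∑ x : Gr V d with alt i j k l x, (Ex (ralt i j k l) f x - Ex (rel i j) f x) ^ 2

/-- `F i j k l f = ‖L_C f‖²` -/
noncomputable def F (i j k l : V) (f : Gr V d → ℝ) : ℝ :=
  ∑ x : Gr V d, ((f x - f (flip i j k l x)) / 2) ^ 2

end Graphs

section ThreeRow

/-- `3 × Γ` Boolean matrices with row sums `r` and column sums `s` -/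
def M3 (Γ : Type*) [Fintype Γ] (r : Fin 3 → ℕ) (s : Γ → ℕ) : Type _ :=
  {x : Fin 3 → Γ → Bool // (∀ a, ∑ c, (x a c).toNat = r a) ∧ ∀ c, ∑ a, (x a c).toNat = s c}

variable {Γ : Type*} [Fintype Γ] [DecidableEq Γ] {r : Fin 3 → ℕ} {s : Γ → ℕ}

instance : Fintype (M3 Γ r s) := by unfold M3; infer_instance

instance : DecidableEq (M3 Γ r s) := by unfold M3; infer_instance

/-- same row `a` -/
def rowRel (a : Fin 3) (x y : M3 Γ r s) : Prop := x.1 a = y.1 a

end ThreeRow

/-- exchange `k` and `l` in the set `U` -/
def tw {V : Type*} [DecidableEq V] (k l : V) (U : Finset V) : Finset V :=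
  U.image (Equiv.swap k l)

end Vale.P335
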