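import Vale.Agent.P335.ChainDefs
import Vale.Agent.P335.Defs

/-!
# P335 — M9a: perfect matchings of a 4-element set; graphs versus Boolean matrices
-/

namespace Vale.P335

open Finset

variable {n : ℕ} {d : Fin n → ℕ}

theorem mem_matchings {S : Finset (Fin n)} {F : Finset (Sym2 (Fin n))} :
    F ∈ matchings S ↔ (∀ e ∈ F, ¬ e.IsDiag ∧ ∀ v ∈ e, v ∈ S) ∧ ∀ v ∈ S, ∃! e, e ∈ F ∧ v ∈ e := by
  simp [matchings]

theorem pair_mem {a b c e : Fin n} (h : D4 a b c e) :
    ({s(a, b), s(c, e)} : Finset (Sym2 (Fin n))) ∈ matchings ({a, b, c, e} : Finset (Fin n)) := by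
  obtain ⟨hab, hac, hae, hbc, hbe, hce⟩ := h
  rw [mem_matchings]
  refine ⟨?_, ?_⟩
  · intro f hf
    rw [mem_insert, mem_singleton] at hf
    rcases hf with rfl | rfl
    · refine ⟨by simpa using hab, fun v hv => ?_⟩
      rw [Sym2.mem_iff] at hv
      rcases hv with rfl | rfl <;> simp
    · refine ⟨by simpa using hce, fun v hv => ?_⟩
      rw [Sym2.mem_iff] at hv
      rcases hv with rfl | rfl <;> simp
  · intro v hv
    simp only [mem_insert, mem_singleton] at hv
    rcases hv with rfl | rfl | rfl | rfl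
    · refine ⟨s(v, b), ⟨by simp, by simp⟩, ?_⟩
      rintro f ⟨hf, hvf⟩
      rw [mem_insert, mem_singleton] at hf
      rcases hf with rfl | rfl
      · rfl
      · rw [Sym2.mem_iff] at hvf
        rcases hvf with h | h
        · exact absurd h hac
        · exact absurd h hae
    · refine ⟨s(a, v), ⟨by simp, by simp⟩, ?_⟩
      rintro f ⟨hf, hvf⟩
      rw [mem_insert, mem_singleton] at hf
      rcases hf with rfl | rfl
      · rfl
      · rw [Sym2.mem_iff] at hvf
        rcases hvf with h | h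
        · exact absurd h hbc
        · exact absurd h hbe
    · refine ⟨s(v, e), ⟨by simp, by simp⟩, ?_⟩
      rintro f ⟨hf, hvf⟩
      rw [mem_insert, mem_singleton] at hf
      rcases hf with rfl | rfl
      · rw [Sym2.mem_iff] at hvf
        rcases hvf with h | h
        · exact absurd h.symm hac
        · exact absurd h.symm hbc
      · rfl
    · refine ⟨s(c, v), ⟨by simp, by simp⟩, ?_⟩
      rintro f ⟨hf, hvf⟩
      rw [mem_insert, mem_singleton] at hf
      rcases hf with rfl | rfl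
      · rw [Sym2.mem_iff] at hvf
        rcases hvf with h | h
        · exact absurd h.symm hae
        · exact absurd h.symm hbe
      · rfl

theorem eq_pair_of_mem {a b c e : Fin n} {S : Finset (Fin n)}
    (hS : ∀ v, v ∈ S ↔ v = a ∨ v = b ∨ v = c ∨ v = e) (h : D4 a b c e)
    {F : Finset (Sym2 (Fin n))} (hF : F ∈ matchings S) (hab' : s(a, b) ∈ F) :
    F = {s(a, b), s(c, e)} := by
  obtain ⟨hab, hac, hae, hbc, hbe, hce⟩ := h
  rw [mem_matchings] at hF
  obtain ⟨h1, h2⟩ := hF
  have key : ∀ f ∈ F, f = s(a, b) ∨ f = s(c, e) := by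
    intro f hf
    by_cases haf : a ∈ f
    · exact Or.inl ((h2 a ((hS a).2 (Or.inl rfl))).unique ⟨hf, haf⟩ ⟨hab', by simp⟩)
    by_cases hbf : b ∈ f
    · exact Or.inl ((h2 b ((hS b).2 (Or.inr (Or.inl rfl)))).unique ⟨hf, hbf⟩ ⟨hab', by simp⟩)
    right
    obtain ⟨hd, hv⟩ := h1 f hf
    induction f using Sym2.ind with
    | _ u v =>
      have hu := (hS u).1 (hv u (by simp))
      have hw := (hS v).1 (hv v (by simp))
      rw [Sym2.mem_iff, not_or] at haf hbf
      rw [Sym2.mk_isDiag_iff] at hd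
      rcases hu with hu | hu | hu | hu
      · exact absurd hu.symm haf.1
      · exact absurd hu.symm hbf.1
      · rcases hw with hw | hw | hw | hw
        · exact absurd hw.symm haf.2
        · exact absurd hw.symm hbf.2
        · exact absurd (hu.trans hw.symm) hd
        · rw [hu, hw]
      · rcases hw with hw | hw | hw | hw
        · exact absurd hw.symm haf.2
        · exact absurd hw.symm hbf.2
        · rw [hu, hw, Sym2.eq_swap]
        · exact absurd (hu.trans hw.symm) hd
  ext f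
  rw [mem_insert, mem_singleton]
  refine ⟨key f, ?_⟩
  rintro (rfl | rfl)
  · exact hab'
  · obtain ⟨g, ⟨hg, hcg⟩, -⟩ := h2 c ((hS c).2 (Or.inr (Or.inr (Or.inl rfl))))
    rcases key g hg with rfl | rfl
    · rw [Sym2.mem_iff] at hcg
      rcases hcg with h | h
      · exact absurd h.symm hac
      · exact absurd h.symm hbc
    · exact hg

theorem matchings_eq {a b c e : Fin n} (h : D4 a b c e) :
    matchings ({a, b, c, e} : Finset (Fin n)) =
      {{s(a, b), s(c, e)}, {s(a, c), s(b, e)}, {s(a, e), s(b, c)}} := by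
  have hh := h
  obtain ⟨hab, hac, hae, hbc, hbe, hce⟩ := h
  ext F
  simp only [mem_insert, mem_singleton]
  constructor
  · intro hF
    have hF' := hF
    rw [mem_matchings] at hF
    obtain ⟨h1, h2⟩ := hF
    obtain ⟨g, ⟨hg, hag⟩, -⟩ := h2 a (by simp)
    obtain ⟨x, rfl⟩ := Sym2.mem_iff_exists.1 hag
    obtain ⟨hd, hv⟩ := h1 _ hg
    have hx := hv x (by simp)
    rw [Sym2.mk_isDiag_iff] at hd
    simp only [mem_insert, mem_singleton] at hx
    rcases hx with rfl | rfl | rfl | rfl
    · exact absurd rfl hd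
    · left
      exact eq_pair_of_mem (fun v => by simp) hh hF' hg
    · right; left
      exact eq_pair_of_mem (fun v => by simp; tauto) ⟨hac, hab, hae, hbc.symm, hce, hbe⟩ hF' hg
    · right; right
      exact eq_pair_of_mem (fun v => by simp; tauto) ⟨hae, hab, hac, hbe.symm, hce.symm, hbc⟩ hF' hg
  · rintro (rfl | rfl | rfl)
    · exact pair_mem hh
    · have : ({a, b, c, e} : Finset (Fin n)) = {a, c, b, e} := by
        ext v; simp; tauto
      rw [this]
      exact pair_mem ⟨hac, hab, hae, hbc.symm, hce, hbe⟩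
    · have : ({a, b, c, e} : Finset (Fin n)) = {a, e, b, c} := by
        ext v; simp; tauto
      rw [this]
      exact pair_mem ⟨hae, hab, hac, hbe.symm, hce.symm, hbc⟩

/-- the pairings are determined by the partner of `a` -/
theorem pair_ne {a b c e c' b' e' : Fin n} (h : D4 a b c e) (hne : b ≠ b') :
    ({s(a, b), s(c, e)} : Finset (Sym2 (Fin n))) ≠ {s(a, b'), s(c', e')} := by
  obtain ⟨hab, hac, hae, hbc, hbe, hce⟩ := h
  intro heq
  have h1 : s(a, b') ∈ ({s(a, b), s(c, e)} : Finset (Sym2 (Fin n))) := by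
    rw [heq]; simp
  rw [mem_insert, mem_singleton] at h1
  rcases h1 with h1 | h1
  · rw [Sym2.eq_iff] at h1
    rcases h1 with ⟨-, h1⟩ | ⟨h1, h2⟩
    · exact hne h1.symm
    · exact hab h1
  · rw [Sym2.eq_iff] at h1
    rcases h1 with ⟨h1, -⟩ | ⟨h1, -⟩
    · exact hac h1
    · exact hae h1

theorem card_matchings {a b c e : Fin n} (h : D4 a b c e) :
    (matchings ({a, b, c, e} : Finset (Fin n))).card = 3 := by
  rw [matchings_eq h]
  have hh := h
  obtain ⟨hab, hac, hae, hbc, hbe, hce⟩ := h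
  rw [card_eq_three]
  refine ⟨_, _, _, ?_, ?_, ?_, rfl⟩
  · exact pair_ne hh hbc
  · exact pair_ne hh hbe
  · exact pair_ne (a := a) (b := c) (c := b) (e := e) ⟨hac, hab, hae, hbc.symm, hce, hbe⟩ hce

theorem exists_four {S : Finset (Fin n)} (hS : S ∈ powersetCard 4 (univ : Finset (Fin n))) :
    ∃ a b c e : Fin n, D4 a b c e ∧ S = {a, b, c, e} := by
  have h4 : S.card = 4 := (mem_powersetCard.1 hS).2
  obtain ⟨a, T, ha, rfl, hT⟩ := card_eq_succ.1 h4
  obtain ⟨b, c, e, hbc, hbe, hce, rfl⟩ := card_eq_three.1 hT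
  simp only [mem_insert, mem_singleton, not_or] at ha
  exact ⟨a, b, c, e, ⟨ha.1, ha.2.1, ha.2.2, hbc, hbe, hce⟩, rfl⟩

theorem card_offDiag_matchings {S : Finset (Fin n)}
    (hS : S ∈ powersetCard 4 (univ : Finset (Fin n))) : (matchings S).offDiag.card = 6 := by
  obtain ⟨a, b, c, e, h, rfl⟩ := exists_four hS
  rw [offDiag_card, card_matchings h]

/-- every ordered pair of distinct perfect matchings comes from a labelling of `S` -/
theorem offDiag_cases {S : Finset (Fin n)} (hS : S ∈ powersetCard 4 (univ : Finset (Fin n)))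
    {p : Finset (Sym2 (Fin n)) × Finset (Sym2 (Fin n))} (hp : p ∈ (matchings S).offDiag) :
    ∃ i j k l : Fin n, D4 i j k l ∧ p.1 = {s(i, k), s(j, l)} ∧ p.2 = {s(i, l), s(j, k)} := by
  obtain ⟨a, b, c, e, h, rfl⟩ := exists_four hS
  rw [matchings_eq h, mem_offDiag] at hp
  obtain ⟨hab, hac, hae, hbc, hbe, hce⟩ := h
  obtain ⟨F, F'⟩ := p
  simp only [mem_insert, mem_singleton] at hp
  obtain ⟨h1, h2, h3⟩ := hp
  rcases h1 with rfl | rfl | rfl
  · rcases h2 with rfl | rfl | rfl
    · exact absurd rfl h3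
    · exact ⟨a, e, b, c, ⟨hae, hab, hac, hbe.symm, hce.symm, hbc⟩, by rw [Sym2.eq_swap (a := c)],
        by rw [Sym2.eq_swap (a := b)]⟩
    · exact ⟨a, c, b, e, ⟨hac, hab, hae, hbc.symm, hce, hbe⟩, rfl, by rw [Sym2.eq_swap (a := b)]⟩
  · rcases h2 with rfl | rfl | rfl
    · exact ⟨a, e, c, b, ⟨hae, hac, hab, hce.symm, hbe.symm, hbc.symm⟩,
        by rw [Sym2.eq_swap (a := b)], by rw [Sym2.eq_swap (a := c)]⟩
    · exact absurd rfl h3
    · exact ⟨a, b, c, e, ⟨hab, hac, hae, hbc, hbe, hce⟩, rfl, rfl⟩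
  · rcases h2 with rfl | rfl | rfl
    · exact ⟨a, c, e, b, ⟨hac, hae, hab, hce, hbc.symm, hbe.symm⟩,
        by rw [Sym2.eq_swap (a := b)], rfl⟩
    · exact ⟨a, b, e, c, ⟨hab, hae, hac, hbe, hbc, hce.symm⟩, rfl, rfl⟩
    · exact absurd rfl h3

end Vale.P335
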