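import Vale.Agent.P335.ChainA

/-!
# P335 — M9b: graphs versus Boolean matrices, and the move as a flip
-/

namespace Vale.P335

open Finset

variable {n : ℕ} {d : Fin n → ℕ}

open Classical in
theorem sum_adj (G : SimpleGraph (Fin n)) (u : Fin n) :
    ∑ v, (decide (G.Adj u v)).toNat = (G.neighborSet u).ncard := by
  have h1 : (G.neighborSet u).ncard = (univ.filter fun v => G.Adj u v).card := by
    rw [← Set.ncard_coe_finset]
    congr 1
    ext v
    simp
  rw [h1, card_filter]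
  refine sum_congr rfl fun v _ => ?_
  by_cases h : G.Adj u v <;> simp [h]

open Classical in
/-- the Boolean adjacency matrix -/
noncomputable def toGr (G : OmegaD n d) : Gr (Fin n) d :=
  ⟨fun u v => decide (G.1.Adj u v), fun u v => by simp only [G.1.adj_comm], fun u => by simp,
    fun u => by rw [sum_adj]; exact G.2 u⟩

/-- the graph of a Boolean matrix -/
noncomputable def ofGr (x : Gr (Fin n) d) : OmegaD n d :=
  ⟨{ Adj := fun u v => x.1 u v = true
     symm := ⟨fun u v h => by rw [x.2.1 v u]; exact h⟩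
     loopless := ⟨fun u h => by rw [x.2.2.1 u] at h; exact Bool.false_ne_true h⟩ }, fun u => by
    classical
    rw [← sum_adj, ← x.2.2.2 u]
    refine sum_congr rfl fun v _ => ?_
    simp⟩

theorem ofGr_adj (x : Gr (Fin n) d) (u v : Fin n) : (ofGr x).1.Adj u v ↔ x.1 u v = true :=
  Iff.rfl

theorem toGr_val (G : OmegaD n d) (u v : Fin n) : (toGr G).1 u v = true ↔ G.1.Adj u v := by
  simp [toGr]

/-- the equivalence -/
noncomputable def eGr : OmegaD n d ≃ Gr (Fin n) d where
  toFun := toGr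
  invFun := ofGr
  left_inv G := by
    apply Subtype.ext
    ext u v
    rw [ofGr_adj, toGr_val]
  right_inv x := by
    apply Subtype.ext
    funext u v
    rw [Bool.eq_iff_iff, toGr_val, ofGr_adj]

set_option linter.unusedSimpArgs false in
theorem move_eq_flip {i j k l : Fin n} (h : D4 i j k l) (G : OmegaD n d)
    (h1 : G.1.Adj i k) (h2 : G.1.Adj j l) (h3 : ¬ G.1.Adj i l) (h4 : ¬ G.1.Adj j k) :
    move {s(i, k), s(j, l)} {s(i, l), s(j, k)} G.1 = (ofGr (flip i j k l (toGr G))).1 := by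
  have hh := h
  obtain ⟨hij, hik, hil, hjk, hjl, hkl⟩ := h
  have b1 : (toGr G).1 i k = true := (toGr_val G i k).2 h1
  have b2 : (toGr G).1 j l = true := (toGr_val G j l).2 h2
  have b3 : (toGr G).1 i l = false := by
    rw [← Bool.not_eq_true, toGr_val]; exact h3
  have b4 : (toGr G).1 j k = false := by
    rw [← Bool.not_eq_true, toGr_val]; exact h4
  have halt : alt i j k l (toGr G) := by
    unfold alt
    rw [b1, b2, b3, b4]
    simp
  have hc : (∀ e ∈ ({s(i, k), s(j, l)} : Finset (Sym2 (Fin n))), e ∈ G.1.edgeSet) ∧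
      (∀ e ∈ ({s(i, l), s(j, k)} : Finset (Sym2 (Fin n))), e ∉ G.1.edgeSet) := by
    constructor
    · intro e he
      rw [mem_insert, mem_singleton] at he
      rcases he with rfl | rfl
      · exact h1
      · exact h2
    · intro e he
      rw [mem_insert, mem_singleton] at he
      rcases he with rfl | rfl
      · exact h3
      · exact h4
  unfold move
  rw [if_pos hc]
  ext u v
  rw [ofGr_adj, SimpleGraph.fromEdgeSet_adj]
  have hflip : (flip i j k l (toGr G)).1 u v = flipM i j k l (toGr G).1 u v := by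
    have e : flip i j k l (toGr G) = ⟨_, flipM_mem hh (toGr G) halt⟩ := dif_pos ⟨hh, halt⟩
    rw [e]
  rw [hflip]
  unfold flipM
  by_cases hb : ((u = i ∨ u = j) ∧ (v = k ∨ v = l)) ∨ ((u = k ∨ u = l) ∧ (v = i ∨ v = j))
  · rw [if_pos hb]
    have hs : ∀ a b, (toGr G).1 a b = (toGr G).1 b a := (toGr G).2.1
    rcases hb with ⟨hu, hv⟩ | ⟨hu, hv⟩ <;> rcases hu with rfl | rfl <;> rcases hv with rfl | rfl
    · rw [b1]
      simp [hik, hij, hil, hjk, hkl, hjl, h1, h2, h3, h4, hik.symm, hij.symm, hil.symm, hjk.symm,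
        hkl.symm, hjl.symm]
    · rw [b3]
      simp [hik, hij, hil, hjk, hkl, hjl, h1, h2, h3, h4, hik.symm, hij.symm, hil.symm, hjk.symm,
        hkl.symm, hjl.symm]
    · rw [b4]
      simp [hik, hij, hil, hjk, hkl, hjl, h1, h2, h3, h4, hik.symm, hij.symm, hil.symm, hjk.symm,
        hkl.symm, hjl.symm]
    · rw [b2]
      simp [hik, hij, hil, hjk, hkl, hjl, h1, h2, h3, h4, hik.symm, hij.symm, hil.symm, hjk.symm,
        hkl.symm, hjl.symm]
    · rw [hs, b1]
      simp [hik, hij, hil, hjk, hkl, hjl, h1, h2, h3, h4, hik.symm, hij.symm, hil.symm, hjk.symm,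
        hkl.symm, hjl.symm]
    · rw [hs, b4]
      simp [hik, hij, hil, hjk, hkl, hjl, h1, h2, h3, h4, hik.symm, hij.symm, hil.symm, hjk.symm,
        hkl.symm, hjl.symm]
    · rw [hs, b3]
      simp [hik, hij, hil, hjk, hkl, hjl, h1, h2, h3, h4, hik.symm, hij.symm, hil.symm, hjk.symm,
        hkl.symm, hjl.symm]
    · rw [hs, b2]
      simp [hik, hij, hil, hjk, hkl, hjl, h1, h2, h3, h4, hik.symm, hij.symm, hil.symm, hjk.symm,
        hkl.symm, hjl.symm]
  · rw [if_neg hb, toGr_val]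
    have e1 : s(u, v) ∉ ({s(i, k), s(j, l)} : Finset (Sym2 (Fin n))) := by
      intro he
      rw [mem_insert, mem_singleton, Sym2.eq_iff, Sym2.eq_iff] at he
      tauto
    have e2 : s(u, v) ∉ ({s(i, l), s(j, k)} : Finset (Sym2 (Fin n))) := by
      intro he
      rw [mem_insert, mem_singleton, Sym2.eq_iff, Sym2.eq_iff] at he
      tauto
    constructor
    · rintro ⟨⟨h5, -⟩ | h5, h6⟩
      · exact h5
      · exact absurd (mem_coe.1 h5) e2
    · intro h5
      exact ⟨Or.inl ⟨h5, fun h6 => e1 (mem_coe.1 h6)⟩, h5.ne⟩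

/-- every move leads to a graph with the same degrees -/
theorem move_mem {S : Finset (Fin n)} (hS : S ∈ powersetCard 4 (univ : Finset (Fin n)))
    {p : Finset (Sym2 (Fin n)) × Finset (Sym2 (Fin n))} (hp : p ∈ (matchings S).offDiag)
    (G : OmegaD n d) : ∃ G' : OmegaD n d, G'.1 = move p.1 p.2 G.1 := by
  by_cases hc : (∀ e ∈ p.1, e ∈ G.1.edgeSet) ∧ (∀ e ∈ p.2, e ∉ G.1.edgeSet)
  · obtain ⟨i, j, k, l, h, h1, h2⟩ := offDiag_cases hS hp
    rw [h1, h2] at hc ⊢
    obtain ⟨c1, c2⟩ := hc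
    refine ⟨_, (move_eq_flip h G ?_ ?_ ?_ ?_).symm⟩
    · exact c1 s(i, k) (by simp)
    · exact c1 s(j, l) (by simp)
    · exact c2 s(i, l) (by simp)
    · exact c2 s(j, k) (by simp)
  · refine ⟨G, ?_⟩
    unfold move
    rw [if_neg hc]

/-- moves are reversible -/
theorem move_symm {F F' : Finset (Sym2 (Fin n))} (hF' : ∀ e ∈ F', ¬ e.IsDiag)
    {G G' : SimpleGraph (Fin n)} (hne : G' ≠ G) (h : G' = move F F' G) : G = move F' F G' := by
  unfold move at h
  by_cases hc : (∀ e ∈ F, e ∈ G.edgeSet) ∧ (∀ e ∈ F', e ∉ G.edgeSet)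
  · rw [if_pos hc] at h
    obtain ⟨c1, c2⟩ := hc
    have hE : G'.edgeSet = (G.edgeSet \ F) ∪ F' := by
      rw [h, SimpleGraph.edgeSet_fromEdgeSet]
      rw [sdiff_eq_left, Set.disjoint_left]
      rintro e (he | he) hd
      · exact G.not_isDiag_of_mem_edgeSet he.1 hd
      · exact hF' e (mem_coe.1 he) hd
    have hc' : (∀ e ∈ F', e ∈ G'.edgeSet) ∧ (∀ e ∈ F, e ∉ G'.edgeSet) := by
      rw [hE]
      refine ⟨fun e he => Or.inr (mem_coe.2 he), ?_⟩
      rintro e he (h1 | h1)
      · exact h1.2 (mem_coe.2 he)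
      · exact c2 e (mem_coe.1 h1) (c1 e he)
    unfold move
    rw [if_pos hc', hE]
    have h2 : (((G.edgeSet \ F) ∪ F') \ F') ∪ F = G.edgeSet := by
      ext e
      constructor
      · rintro (⟨h1 | h1, h3⟩ | h1)
        · exact h1.1
        · exact absurd h1 h3
        · exact c1 e (mem_coe.1 h1)
      · intro he
        by_cases hf : e ∈ (F : Set (Sym2 (Fin n)))
        · exact Or.inr hf
        · exact Or.inl ⟨Or.inl ⟨he, hf⟩, fun h3 => c2 e (mem_coe.1 h3) he⟩
    rw [h2, SimpleGraph.fromEdgeSet_edgeSet]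
  · rw [if_neg hc] at h
    exact absurd h hne

theorem move_symm_iff {F F' : Finset (Sym2 (Fin n))} (hF : ∀ e ∈ F, ¬ e.IsDiag)
    (hF' : ∀ e ∈ F', ¬ e.IsDiag) {G G' : SimpleGraph (Fin n)} (hne : G' ≠ G) :
    G' = move F F' G ↔ G = move F' F G' :=
  ⟨move_symm hF' hne, move_symm hF hne.symm⟩

end Vale.P335
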