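import Vale.Agent.P335.Defs

/-!
# P335 — M2: the slice inequalities
-/

namespace Vale.P335

open Finset

section Slice

variable {V : Type*} [DecidableEq V]

/-! ### up and down operators -/

theorem sl_sum_swap (D : Finset V) (b : ℕ) (φ : Finset V → V → ℝ) :
    ∑ U ∈ powersetCard (b + 1) D, ∑ k ∈ U, φ U k =
      ∑ W ∈ powersetCard b D, ∑ k ∈ D \ W, φ (insert k W) k := by
  rw [sum_sigma', sum_sigma']
  refine sum_nbij' (fun p => ⟨p.1.erase p.2, p.2⟩) (fun p => ⟨insert p.2 p.1, p.2⟩)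
    ?_ ?_ ?_ ?_ ?_
  · rintro ⟨U, k⟩ h
    simp only [mem_sigma, mem_powersetCard, mem_sdiff, mem_erase] at h ⊢
    obtain ⟨⟨h1, h2⟩, h3⟩ := h
    refine ⟨⟨(erase_subset _ _).trans h1, ?_⟩, h1 h3, fun h => h.1 rfl⟩
    rw [card_erase_of_mem h3, h2]; rfl
  · rintro ⟨W, k⟩ h
    simp only [mem_sigma, mem_powersetCard, mem_sdiff] at h ⊢
    obtain ⟨⟨h1, h2⟩, h3, h4⟩ := h
    refine ⟨⟨insert_subset h3 h1, ?_⟩, mem_insert_self _ _⟩
    rw [card_insert_of_notMem h4, h2]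
  · rintro ⟨U, k⟩ h
    simp only [mem_sigma, mem_powersetCard] at h ⊢
    rw [insert_erase h.2]
  · rintro ⟨W, k⟩ h
    simp only [mem_sigma, mem_powersetCard, mem_sdiff] at h ⊢
    rw [erase_insert h.2.2]
  · rintro ⟨U, k⟩ h
    simp only [mem_sigma, mem_powersetCard] at h ⊢
    rw [insert_erase h.2]

/-- sum over the slice of the squares -/
def slSq (D : Finset V) (a : ℕ) (g : Finset V → ℝ) : ℝ := ∑ U ∈ powersetCard a D, g U ^ 2

/-- the adjacency form of the Johnson graph -/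
def slQ (D : Finset V) (a : ℕ) (g : Finset V → ℝ) : ℝ :=
  ∑ U ∈ powersetCard a D, ∑ l ∈ U, ∑ k ∈ D \ U, g U * g (insert k (U.erase l))

/-- down operator -/
def slDn (D : Finset V) (g : Finset V → ℝ) (W : Finset V) : ℝ := ∑ k ∈ D \ W, g (insert k W)

/-- up operator -/
def slUp (h : Finset V → ℝ) (U : Finset V) : ℝ := ∑ k ∈ U, h (U.erase k)

theorem slSq_nonneg (D : Finset V) (a : ℕ) (g : Finset V → ℝ) : 0 ≤ slSq D a g :=
  sum_nonneg fun _ _ => sq_nonneg _

theorem sl_up_sq (D : Finset V) (b : ℕ) (h : Finset V → ℝ) :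
    slSq D (b + 1) (slUp h) = ((D.card : ℝ) - b) * slSq D b h + slQ D b h := by
  have e1 : slSq D (b + 1) (slUp h) =
      ∑ U ∈ powersetCard (b + 1) D, ∑ k ∈ U, h (U.erase k) * slUp h U := by
    unfold slSq
    refine sum_congr rfl fun U _ => ?_
    rw [← sum_mul, sq]; rfl
  rw [e1, sl_sum_swap]
  unfold slSq slQ
  rw [mul_sum, ← sum_add_distrib]
  refine sum_congr rfl fun W hW => ?_
  obtain ⟨hW1, hW2⟩ := mem_powersetCard.1 hW
  have hcard : ((D \ W).card : ℝ) = (D.card : ℝ) - b := by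
    rw [card_sdiff_of_subset hW1, hW2, Nat.cast_sub (hW2 ▸ card_le_card hW1)]
  have e2 : ∀ k ∈ D \ W, h ((insert k W).erase k) * slUp h (insert k W)
      = h W ^ 2 + ∑ l ∈ W, h W * h (insert k (W.erase l)) := by
    intro k hk
    have hkW := (mem_sdiff.1 hk).2
    rw [erase_insert hkW]
    unfold slUp
    rw [sum_insert hkW, erase_insert hkW, mul_add, mul_sum, ← sq]
    congr 1
    refine sum_congr rfl fun l hl => ?_
    rw [erase_insert_of_ne (by rintro rfl; exact hkW hl)]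
  rw [sum_congr rfl e2, sum_add_distrib, sum_const, nsmul_eq_mul, hcard, sum_comm]

theorem sl_dn_sq (D : Finset V) (b : ℕ) (g : Finset V → ℝ) :
    slSq D b (slDn D g) = ((b : ℝ) + 1) * slSq D (b + 1) g + slQ D (b + 1) g := by
  have e1 : slSq D b (slDn D g) =
      ∑ W ∈ powersetCard b D, ∑ l ∈ D \ W,
        (fun (U : Finset V) (l : V) => g U * slDn D g (U.erase l)) (insert l W) l := by
    unfold slSq
    refine sum_congr rfl fun W _ => ?_
    have : ∀ l ∈ D \ W, (fun (U : Finset V) (l : V) => g U * slDn D g (U.erase l)) (insert l W) l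
        = g (insert l W) * slDn D g W := by
      intro l hl
      show g (insert l W) * slDn D g ((insert l W).erase l) = _
      rw [erase_insert (mem_sdiff.1 hl).2]
    rw [sum_congr rfl this, ← sum_mul, sq]; rfl
  rw [e1, ← sl_sum_swap D b (fun U l => g U * slDn D g (U.erase l))]
  unfold slSq slQ
  rw [mul_sum, ← sum_add_distrib]
  refine sum_congr rfl fun U hU => ?_
  obtain ⟨hU1, hU2⟩ := mem_powersetCard.1 hU
  have e2 : ∀ l ∈ U, g U * slDn D g (U.erase l)
      = g U ^ 2 + ∑ k ∈ D \ U, g U * g (insert k (U.erase l)) := by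
    intro l hl
    unfold slDn
    have hD : D \ (U.erase l) = insert l (D \ U) := by
      ext c
      simp only [mem_sdiff, mem_erase, mem_insert]
      constructor
      · rintro ⟨h1, h2⟩
        by_cases hc : c = l
        · exact Or.inl hc
        · exact Or.inr ⟨h1, fun h => h2 ⟨hc, h⟩⟩
      · rintro (rfl | ⟨h1, h2⟩)
        · exact ⟨hU1 hl, fun h => h.1 rfl⟩
        · exact ⟨h1, fun h => h2 h.2⟩
    rw [hD, sum_insert (fun h => (mem_sdiff.1 h).2 hl), insert_erase hl, mul_add, mul_sum, ← sq]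
  rw [sum_congr rfl e2, sum_add_distrib, sum_const, nsmul_eq_mul, hU2]
  push_cast
  rfl

theorem sl_adj (D : Finset V) (b : ℕ) (g h : Finset V → ℝ) :
    ∑ W ∈ powersetCard b D, slDn D g W * h W = ∑ U ∈ powersetCard (b + 1) D, g U * slUp h U := by
  have e1 : ∑ U ∈ powersetCard (b + 1) D, g U * slUp h U =
      ∑ U ∈ powersetCard (b + 1) D, ∑ k ∈ U, g U * h (U.erase k) := by
    refine sum_congr rfl fun U _ => ?_
    unfold slUp
    rw [mul_sum]
  rw [e1, sl_sum_swap]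
  refine sum_congr rfl fun W _ => ?_
  unfold slDn
  rw [sum_mul]
  refine sum_congr rfl fun k hk => ?_
  rw [erase_insert (mem_sdiff.1 hk).2]

theorem sl_dn_sum (D : Finset V) (b : ℕ) (g : Finset V → ℝ) :
    ∑ W ∈ powersetCard b D, slDn D g W = ((b : ℝ) + 1) * ∑ U ∈ powersetCard (b + 1) D, g U := by
  unfold slDn
  rw [← sl_sum_swap D b (fun U _ => g U), mul_sum]
  refine sum_congr rfl fun U hU => ?_
  rw [sum_const, nsmul_eq_mul, (mem_powersetCard.1 hU).2]
  push_cast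
  rfl

theorem sl_dn_le (D : Finset V) (b : ℕ) : ∀ g : Finset V → ℝ,
    ∑ U ∈ powersetCard (b + 1) D, g U = 0 →
    slSq D b (slDn D g) ≤ (b : ℝ) * ((D.card : ℝ) - b - 1) * slSq D (b + 1) g := by
  induction b with
  | zero =>
    intro g hg
    have h1 : slSq D 0 (slDn D g) = 0 := by
      have h2 := sl_dn_sum D 0 g
      rw [hg, mul_zero, powersetCard_zero, sum_singleton] at h2
      unfold slSq
      rw [powersetCard_zero, sum_singleton, h2]
      ring
    rw [h1]; simp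
  | succ b ih =>
    intro g hg
    have hz : ∑ W ∈ powersetCard (b + 1) D, slDn D g W = 0 := by
      rw [sl_dn_sum, hg, mul_zero]
    have h1 := ih (slDn D g) hz
    have h2 := sl_up_sq D (b + 1) (slDn D g)
    have h3 := sl_dn_sq D b (slDn D g)
    have h4 := sl_adj D (b + 1) g (slDn D g)
    set S := slSq D (b + 1) (slDn D g) with hS
    have h5 : ∑ W ∈ powersetCard (b + 1) D, slDn D g W * slDn D g W = S := by
      rw [hS]; unfold slSq
      exact sum_congr rfl fun W _ => (sq _).symm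
    rw [h5] at h4
    have h6 : S ^ 2 ≤ slSq D (b + 1 + 1) g * slSq D (b + 1 + 1) (slUp (slDn D g)) := by
      rw [h4]
      exact sum_mul_sq_le_sq_mul_sq _ _ _
    have hS0 : 0 ≤ S := slSq_nonneg _ _ _
    have hg0 : 0 ≤ slSq D (b + 1 + 1) g := slSq_nonneg _ _ _
    have h7 : slSq D (b + 1 + 1) (slUp (slDn D g))
        ≤ ((b : ℝ) + 1) * ((D.card : ℝ) - b - 2) * S := by
      rw [h2]
      push_cast
      have : slQ D (b + 1) (slDn D g) = slSq D b (slDn D (slDn D g)) - ((b : ℝ) + 1) * S := by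
        rw [h3]; ring
      rw [this]
      nlinarith [h1]
    have h8 : S ^ 2 ≤ slSq D (b + 1 + 1) g * (((b : ℝ) + 1) * ((D.card : ℝ) - b - 2) * S) :=
      h6.trans (mul_le_mul_of_nonneg_left h7 hg0)
    rcases hS0.lt_or_eq with hpos | hzero
    · have : S ≤ ((b : ℝ) + 1) * ((D.card : ℝ) - b - 2) * slSq D (b + 1 + 1) g := by
        have h9 : S * S ≤ (((b : ℝ) + 1) * ((D.card : ℝ) - b - 2) * slSq D (b + 1 + 1) g) * S := by
          nlinarith [h8]
        exact le_of_mul_le_mul_right h9 hpos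
      refine this.trans (le_of_eq ?_)
      push_cast; ring
    · rw [← hzero]
      by_cases hb : b + 1 + 1 ≤ D.card
      · have : (0 : ℝ) ≤ (D.card : ℝ) - b - 2 := by
          have : ((b + 1 + 1 : ℕ) : ℝ) ≤ (D.card : ℝ) := by exact_mod_cast hb
          push_cast at this; linarith
        have h9 : 0 ≤ ((b : ℝ) + 1) * ((D.card : ℝ) - b - 2) * slSq D (b + 1 + 1) g := by
          positivity
        refine h9.trans (le_of_eq ?_)
        push_cast; ring
      · have : slSq D (b + 1 + 1) g = 0 := by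
          unfold slSq
          rw [powersetCard_eq_empty.2 (by omega)]
          simp
        rw [this, mul_zero]

/-! ### the Dirichlet form -/

theorem sl_mem_tw {k l c : V} {U : Finset V} : c ∈ tw k l U ↔ Equiv.swap k l c ∈ U := by
  unfold tw
  rw [mem_image]
  constructor
  · rintro ⟨a, ha, rfl⟩
    rwa [Equiv.swap_apply_self]
  · intro h
    exact ⟨_, h, Equiv.swap_apply_self _ _ _⟩

theorem tw_tw (k l : V) (U : Finset V) : tw k l (tw k l U) = U := by
  ext c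
  rw [sl_mem_tw, sl_mem_tw, Equiv.swap_apply_self]

theorem tw_symm (k l : V) (U : Finset V) : tw k l U = tw l k U := by
  unfold tw
  rw [Equiv.swap_comm]

theorem tw_same {k l : V} {U : Finset V} (h : k ∈ U ↔ l ∈ U) : tw k l U = U := by
  ext c
  rw [sl_mem_tw]
  by_cases hck : c = k
  · subst hck; rw [Equiv.swap_apply_left]; exact h.symm
  by_cases hcl : c = l
  · subst hcl; rw [Equiv.swap_apply_right]; exact h
  rw [Equiv.swap_apply_of_ne_of_ne hck hcl]

theorem tw_sep {k l : V} {U : Finset V} (hk : k ∈ U) (hl : l ∉ U) :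
    tw k l U = insert l (U.erase k) := by
  ext c
  rw [sl_mem_tw, mem_insert, mem_erase]
  by_cases hck : c = k
  · subst hck
    rw [Equiv.swap_apply_left]
    constructor
    · intro h; exact absurd h hl
    · rintro (h | h)
      · exact absurd (h ▸ hk) hl
      · exact absurd rfl h.1
  by_cases hcl : c = l
  · subst hcl
    rw [Equiv.swap_apply_right]
    exact ⟨fun _ => Or.inl rfl, fun _ => hk⟩
  rw [Equiv.swap_apply_of_ne_of_ne hck hcl]
  exact ⟨fun h => Or.inr ⟨hck, h⟩, fun h => h.elim (fun h => absurd h hcl) (fun h => h.2)⟩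

theorem card_tw (k l : V) (U : Finset V) : (tw k l U).card = U.card :=
  card_image_of_injective _ (Equiv.swap k l).injective

theorem tw_mem {D : Finset V} {a : ℕ} {k l : V} (hk : k ∈ D) (hl : l ∈ D) {U : Finset V}
    (hU : U ∈ powersetCard a D) : tw k l U ∈ powersetCard a D := by
  obtain ⟨h1, h2⟩ := mem_powersetCard.1 hU
  refine mem_powersetCard.2 ⟨fun c hc => ?_, (card_tw k l U).trans h2⟩
  rw [sl_mem_tw] at hc
  by_cases hck : c = k
  · rw [hck]; exact hk
  by_cases hcl : c = l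
  · rw [hcl]; exact hl
  rw [Equiv.swap_apply_of_ne_of_ne hck hcl] at hc
  exact h1 hc

theorem sl_sum_tw {D : Finset V} {a : ℕ} {k l : V} (hk : k ∈ D) (hl : l ∈ D)
    (φ : Finset V → ℝ) :
    ∑ U ∈ powersetCard a D, φ (tw k l U) = ∑ U ∈ powersetCard a D, φ U := by
  refine sum_nbij' (tw k l) (tw k l) (fun U hU => tw_mem hk hl hU) (fun U hU => tw_mem hk hl hU)
    (fun U _ => tw_tw k l U) (fun U _ => tw_tw k l U) (fun U _ => rfl)

/-- the sum of `g` over all transpositions of `U` -/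
theorem sl_sum_pairs {D U : Finset V} (hU : U ⊆ D) (g : Finset V → ℝ) :
    ∑ k ∈ D, ∑ l ∈ D.erase k, g (tw k l U) =
      ((U.card : ℝ) ^ 2 + ((D.card : ℝ) - U.card) ^ 2 - D.card) * g U +
        2 * ∑ l ∈ U, ∑ k ∈ D \ U, g (insert k (U.erase l)) := by
  have hcard : ((D \ U).card : ℝ) = (D.card : ℝ) - U.card := by
    rw [card_sdiff_of_subset hU, Nat.cast_sub (card_le_card hU)]
  have e1 : ∀ k ∈ D, ∑ l ∈ D.erase k, g (tw k l U) = ∑ l ∈ D, g (tw k l U) - g U := by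
    intro k hk
    rw [← add_sum_erase D _ hk, tw_same Iff.rfl]; ring
  rw [sum_congr rfl e1, sum_sub_distrib, sum_const, nsmul_eq_mul]
  have hsplit : ∀ ψ : V → ℝ, ∑ k ∈ D, ψ k = ∑ k ∈ U, ψ k + ∑ k ∈ D \ U, ψ k := by
    intro ψ
    rw [add_comm, sum_sdiff hU]
  rw [hsplit]
  have e2 : ∀ k ∈ U, ∑ l ∈ D, g (tw k l U)
      = (U.card : ℝ) * g U + ∑ l ∈ D \ U, g (insert l (U.erase k)) := by
    intro k hk
    rw [hsplit]
    congr 1
    · rw [sum_congr rfl fun l hl => by rw [tw_same ⟨fun _ => hl, fun _ => hk⟩], sum_const,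
        nsmul_eq_mul]
    · exact sum_congr rfl fun l hl => by rw [tw_sep hk (mem_sdiff.1 hl).2]
  have e3 : ∀ k ∈ D \ U, ∑ l ∈ D, g (tw k l U)
      = ∑ l ∈ U, g (insert k (U.erase l)) + ((D.card : ℝ) - U.card) * g U := by
    intro k hk
    have hk' := (mem_sdiff.1 hk).2
    rw [hsplit]
    congr 1
    · exact sum_congr rfl fun l hl => by rw [tw_symm, tw_sep hl hk']
    · rw [sum_congr rfl fun l hl => by
        rw [tw_same ⟨fun h => absurd h hk', fun h => absurd h (mem_sdiff.1 hl).2⟩], sum_const,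
        nsmul_eq_mul, hcard]
  rw [sum_congr rfl e2, sum_congr rfl e3, sum_add_distrib, sum_add_distrib, sum_const, sum_const,
    nsmul_eq_mul, nsmul_eq_mul, hcard, sum_comm (s := D \ U) (t := U)]
  ring

theorem sl_dirichlet (D : Finset V) (a : ℕ) (g : Finset V → ℝ) :
    ∑ k ∈ D, ∑ l ∈ D.erase k, (1 / 4) * ∑ U ∈ powersetCard a D, (g U - g (tw k l U)) ^ 2
      = (a : ℝ) * ((D.card : ℝ) - a) * slSq D a g - slQ D a g := by
  have e1 : ∀ k ∈ D, ∀ l ∈ D.erase k,
      (1 / 4) * ∑ U ∈ powersetCard a D, (g U - g (tw k l U)) ^ 2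
      = (1 / 2) * slSq D a g - (1 / 2) * ∑ U ∈ powersetCard a D, g U * g (tw k l U) := by
    intro k hk l hl
    have h1 : ∑ U ∈ powersetCard a D, (g U - g (tw k l U)) ^ 2
        = ∑ U ∈ powersetCard a D, g U ^ 2 + ∑ U ∈ powersetCard a D, g (tw k l U) ^ 2
          - 2 * ∑ U ∈ powersetCard a D, g U * g (tw k l U) := by
      rw [mul_sum, ← sum_add_distrib, ← sum_sub_distrib]
      exact sum_congr rfl fun U _ => by ring
    rw [h1, sl_sum_tw hk (mem_erase.1 hl).2 (fun U => g U ^ 2)]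
    unfold slSq
    ring
  rw [sum_congr rfl fun k hk => sum_congr rfl fun l hl => e1 k hk l hl]
  have e2 : ∑ k ∈ D, ∑ l ∈ D.erase k,
      ((1 / 2) * slSq D a g - (1 / 2) * ∑ U ∈ powersetCard a D, g U * g (tw k l U))
      = (1 / 2) * ((D.card : ℝ) * ((D.card : ℝ) - 1)) * slSq D a g
        - (1 / 2) * ∑ U ∈ powersetCard a D, g U * ∑ k ∈ D, ∑ l ∈ D.erase k, g (tw k l U) := by
    simp only [sum_sub_distrib]
    congr 1
    · have : ∀ k ∈ D, ∑ l ∈ D.erase k, (1 / 2) * slSq D a g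
          = ((D.card : ℝ) - 1) * ((1 / 2) * slSq D a g) := by
        intro k hk
        have hpos : 1 ≤ D.card := card_pos.2 ⟨k, hk⟩
        rw [sum_const, nsmul_eq_mul, card_erase_of_mem hk, Nat.cast_sub hpos, Nat.cast_one]
      rw [sum_congr rfl this, sum_const, nsmul_eq_mul]
      ring
    · simp only [mul_sum]
      rw [sum_congr rfl fun k _ => sum_comm, sum_comm]
  rw [e2]
  have e3 : ∑ U ∈ powersetCard a D, g U * ∑ k ∈ D, ∑ l ∈ D.erase k, g (tw k l U)
      = ((a : ℝ) ^ 2 + ((D.card : ℝ) - a) ^ 2 - D.card) * slSq D a g + 2 * slQ D a g := by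
    unfold slSq slQ
    rw [mul_sum, mul_sum, ← sum_add_distrib]
    refine sum_congr rfl fun U hU => ?_
    obtain ⟨h1, h2⟩ := mem_powersetCard.1 hU
    rw [sl_sum_pairs h1, h2]
    have : ∑ l ∈ U, ∑ k ∈ D \ U, g U * g (insert k (U.erase l))
        = g U * ∑ l ∈ U, ∑ k ∈ D \ U, g (insert k (U.erase l)) := by
      rw [mul_sum]
      exact sum_congr rfl fun l _ => (mul_sum _ _ _).symm
    rw [this]
    ring
  rw [e3]
  ring

theorem slice_poincare (D : Finset V) (a : ℕ) (g : Finset V → ℝ)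
    (hg : ∑ U ∈ powersetCard a D, g U = 0) :
    (D.card : ℝ) * ∑ U ∈ powersetCard a D, g U ^ 2 ≤
      ∑ k ∈ D, ∑ l ∈ D.erase k, (1 / 4) * ∑ U ∈ powersetCard a D, (g U - g (tw k l U)) ^ 2 := by
  rw [sl_dirichlet]
  change (D.card : ℝ) * slSq D a g ≤ _
  rcases a with _ | b
  · have h0 : g ∅ = 0 := by simpa using hg
    have h1 : slSq D 0 g = 0 := by
      unfold slSq; rw [powersetCard_zero, sum_singleton, h0]; ring
    have h2 : slQ D 0 g = 0 := by
      unfold slQ; rw [powersetCard_zero, sum_singleton]; simp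
    rw [h1, h2]; simp
  · have h1 := sl_dn_le D b g hg
    have h2 := sl_dn_sq D b g
    push_cast
    nlinarith [h1, h2]

/-! ### spectral independence -/

theorem sl_bessel {Ω : Type*} (S : Finset Ω) (L : Finset V) (v : V → Ω → ℝ) (g : Ω → ℝ)
    (C β : ℝ) (hC : 0 ≤ C) (hd : ∀ l ∈ L, ∑ U ∈ S, v l U * v l U = C + β)
    (ho : ∀ l ∈ L, ∀ l' ∈ L, l ≠ l' → ∑ U ∈ S, v l U * v l' U = β) :
    ∑ l ∈ L, (∑ U ∈ S, g U * v l U) ^ 2 ≤
      C * ∑ U ∈ S, g U ^ 2 + (∑ l ∈ L, ∑ U ∈ S, g U * v l U) ^ 2 / (L.card : ℝ) := by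
  have hg0 : 0 ≤ ∑ U ∈ S, g U ^ 2 := sum_nonneg fun _ _ => sq_nonneg _
  rcases L.eq_empty_or_nonempty with rfl | hL
  · simp; positivity
  have hn : (0 : ℝ) < (L.card : ℝ) := Nat.cast_pos.2 (card_pos.2 hL)
  set x : V → ℝ := fun l => ∑ U ∈ S, g U * v l U with hx
  set xb : ℝ := (∑ l ∈ L, x l) / (L.card : ℝ) with hxb
  set c : V → ℝ := fun l => x l - xb with hcdef
  have hxbn : (L.card : ℝ) * xb = ∑ l ∈ L, x l := by
    rw [hxb]; field_simp
  have hc : ∑ l ∈ L, c l = 0 := by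
    simp only [hcdef, sum_sub_distrib, sum_const, nsmul_eq_mul, hxbn, sub_self]
  have h1 : ∑ U ∈ S, g U * ∑ l ∈ L, c l * v l U = ∑ l ∈ L, c l ^ 2 := by
    have e1 : ∑ U ∈ S, g U * ∑ l ∈ L, c l * v l U = ∑ l ∈ L, c l * x l := by
      simp only [hx, mul_sum]
      rw [sum_comm]
      exact sum_congr rfl fun l _ => sum_congr rfl fun U _ => by ring
    have e2 : ∑ l ∈ L, c l * x l = ∑ l ∈ L, c l ^ 2 + xb * ∑ l ∈ L, c l := by
      rw [mul_sum, ← sum_add_distrib]
      refine sum_congr rfl fun l _ => ?_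
      simp only [hcdef]; ring
    rw [e1, e2, hc]; ring
  have h2 : ∑ U ∈ S, (∑ l ∈ L, c l * v l U) ^ 2 = C * ∑ l ∈ L, c l ^ 2 := by
    have e1 : ∑ U ∈ S, (∑ l ∈ L, c l * v l U) ^ 2
        = ∑ l ∈ L, ∑ l' ∈ L, c l * c l' * ∑ U ∈ S, v l U * v l' U := by
      have e0 : ∀ U ∈ S, (∑ l ∈ L, c l * v l U) ^ 2
          = ∑ l ∈ L, ∑ l' ∈ L, c l * c l' * (v l U * v l' U) := by
        intro U _
        rw [sq, sum_mul_sum]
        exact sum_congr rfl fun l _ => sum_congr rfl fun l' _ => by ring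
      rw [sum_congr rfl e0, sum_comm]
      refine sum_congr rfl fun l _ => ?_
      rw [sum_comm]
      exact sum_congr rfl fun l' _ => (mul_sum _ _ _).symm
    have e2 : ∀ l ∈ L, ∀ l' ∈ L, c l * c l' * ∑ U ∈ S, v l U * v l' U
        = β * (c l * c l') + (if l = l' then C * c l ^ 2 else 0) := by
      intro l hl l' hl'
      by_cases h : l = l'
      · subst h
        rw [hd l hl, if_pos rfl]; ring
      · rw [ho l hl l' hl' h, if_neg h]; ring
    rw [e1, sum_congr rfl fun l hl => sum_congr rfl fun l' hl' => e2 l hl l' hl']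
    simp only [sum_add_distrib, ← mul_sum, sum_ite_eq]
    have e3 : ∑ l ∈ L, c l * ∑ l' ∈ L, c l' = 0 := by rw [hc]; simp
    have e4 : ∑ l ∈ L, (if l ∈ L then C * c l ^ 2 else 0) = C * ∑ l ∈ L, c l ^ 2 := by
      rw [mul_sum]
      exact sum_congr rfl fun l hl => if_pos hl
    rw [e3, e4]; ring
  have h3 : (∑ l ∈ L, c l ^ 2) ^ 2 ≤ (∑ U ∈ S, g U ^ 2) * (C * ∑ l ∈ L, c l ^ 2) := by
    rw [← h2, ← h1]
    exact sum_mul_sq_le_sq_mul_sq _ _ _
  have hc0 : 0 ≤ ∑ l ∈ L, c l ^ 2 := sum_nonneg fun _ _ => sq_nonneg _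
  have h4 : ∑ l ∈ L, c l ^ 2 ≤ C * ∑ U ∈ S, g U ^ 2 := by
    rcases hc0.lt_or_eq with h | h
    · refine le_of_mul_le_mul_right ?_ h
      nlinarith [h3]
    · rw [← h]; positivity
  have h5 : ∑ l ∈ L, x l ^ 2 = ∑ l ∈ L, c l ^ 2 + (∑ l ∈ L, x l) ^ 2 / (L.card : ℝ) := by
    have e1 : ∑ l ∈ L, x l ^ 2 = ∑ l ∈ L, c l ^ 2 + 2 * xb * ∑ l ∈ L, c l + (L.card : ℝ) * xb ^ 2 := by
      rw [mul_sum, ← sum_add_distrib, ← nsmul_eq_mul, ← sum_const, ← sum_add_distrib]
      refine sum_congr rfl fun l _ => ?_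
      simp only [hcdef]; ring
    rw [e1, hc, ← hxbn]
    field_simp
    ring
  change ∑ l ∈ L, x l ^ 2 ≤ _
  rw [h5]
  linarith

/-- number of sets in the slice containing `k` and not `l` -/
def slA (D : Finset V) (a : ℕ) (k l : V) : ℝ :=
  ∑ U ∈ powersetCard a D, if k ∈ U ∧ l ∉ U then 1 else 0

theorem slA_nonneg (D : Finset V) (a : ℕ) (k l : V) : 0 ≤ slA D a k l :=
  sum_nonneg fun _ _ => by split_ifs <;> norm_num

theorem slA_swap {D : Finset V} {a : ℕ} {k l : V} (hk : k ∈ D) (hl : l ∈ D) :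
    slA D a k l = slA D a l k := by
  unfold slA
  rw [← sl_sum_tw hk hl]
  refine sum_congr rfl fun U _ => ?_
  simp only [sl_mem_tw, Equiv.swap_apply_left, Equiv.swap_apply_right]

theorem slA_snd {D : Finset V} {a : ℕ} {k l l' : V} (hl : l ∈ D) (hl' : l' ∈ D)
    (h : k ≠ l) (h' : k ≠ l') : slA D a k l = slA D a k l' := by
  unfold slA
  rw [← sl_sum_tw hl hl']
  refine sum_congr rfl fun U _ => ?_
  simp only [sl_mem_tw, Equiv.swap_apply_left, Equiv.swap_apply_of_ne_of_ne h h']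

theorem slA_const {D : Finset V} {a : ℕ} {k l k' l' : V} (hk : k ∈ D) (hl : l ∈ D)
    (hk' : k' ∈ D) (hl' : l' ∈ D) (h : k ≠ l) (h' : k' ≠ l') :
    slA D a k l = slA D a k' l' := by
  by_cases e : k' = k
  · subst e; exact slA_snd hl hl' h h'
  · rw [slA_snd hl hk' h (Ne.symm e), slA_swap hk hk', slA_snd hk hl' e h']

/-- number of sets in the slice containing `k` -/
def slR (D : Finset V) (a : ℕ) (k : V) : ℝ :=
  ∑ U ∈ powersetCard a D, if k ∈ U then 1 else 0

theorem slR_const {D : Finset V} {a : ℕ} {k l : V} (hk : k ∈ D) (hl : l ∈ D) :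
    slR D a k = slR D a l := by
  unfold slR
  rw [← sl_sum_tw hk hl]
  refine sum_congr rfl fun U _ => ?_
  simp only [sl_mem_tw, Equiv.swap_apply_left]

theorem sl_theta {D : Finset V} {a : ℕ} {g : Finset V → ℝ}
    (hg : ∑ U ∈ powersetCard a D, g U = 0) {C : ℝ} (hC0 : 0 ≤ C)
    (hC : ∀ k ∈ D, ∀ l ∈ D, k ≠ l → slA D a k l = C) :
    ∑ k ∈ D, (∑ U ∈ powersetCard a D, g U * (if k ∈ U then 1 else 0)) ^ 2 ≤ C * slSq D a g := by
  rcases D.eq_empty_or_nonempty with rfl | ⟨k0, hk0⟩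
  · simp only [sum_empty]
    exact mul_nonneg hC0 (slSq_nonneg _ _ _)
  have hsum : ∑ k ∈ D, ∑ U ∈ powersetCard a D, g U * (if k ∈ U then (1 : ℝ) else 0) = 0 := by
    rw [sum_comm]
    have : ∀ U ∈ powersetCard a D, ∑ k ∈ D, g U * (if k ∈ U then (1 : ℝ) else 0) = a * g U := by
      intro U hU
      obtain ⟨h1, h2⟩ := mem_powersetCard.1 hU
      rw [← mul_sum, sum_ite_mem, inter_eq_right.2 h1, sum_const, nsmul_eq_mul, h2]
      ring
    rw [sum_congr rfl this, ← mul_sum, hg, mul_zero]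
  have key := sl_bessel (powersetCard a D) D (fun k U => if k ∈ U then (1 : ℝ) else 0) g C
    (slR D a k0 - C) hC0 ?_ ?_
  · rw [hsum] at key
    refine key.trans (le_of_eq ?_)
    unfold slSq
    ring
  · intro k hk
    rw [add_sub_cancel, slR_const hk0 hk]
    unfold slR
    refine sum_congr rfl fun U _ => ?_
    by_cases h : k ∈ U <;> simp [h]
  · intro k hk l hl hkl
    rw [slR_const hk0 hk, ← hC k hk l hl hkl]
    unfold slR slA
    rw [← sum_sub_distrib]
    refine sum_congr rfl fun U _ => ?_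
    by_cases h : k ∈ U <;> by_cases h' : l ∈ U <;> simp [h, h']

/-- the separated pairs -/
theorem sl_sep_bessel {D : Finset V} {a : ℕ} {g : Finset V → ℝ}
    (hg : ∑ U ∈ powersetCard a D, g U = 0) {C : ℝ} (hC0 : 0 ≤ C)
    (hC : ∀ k ∈ D, ∀ l ∈ D, k ≠ l → slA D a k l = C) {k : V} (hk : k ∈ D) :
    ∑ l ∈ D.erase k, (∑ U ∈ powersetCard a D, g U * (if ¬ (k ∈ U ↔ l ∈ U) then 1 else 0)) ^ 2 ≤
      C * slSq D a g + (((D.card : ℝ) - 2 * a) *
        ∑ U ∈ powersetCard a D, g U * (if k ∈ U then 1 else 0)) ^ 2 / ((D.card : ℝ) - 1) := by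
  have hpos : 1 ≤ D.card := card_pos.2 ⟨k, hk⟩
  have hsum : ∑ l ∈ D.erase k, ∑ U ∈ powersetCard a D,
      g U * (if ¬ (k ∈ U ↔ l ∈ U) then (1 : ℝ) else 0)
      = ((D.card : ℝ) - 2 * a) * ∑ U ∈ powersetCard a D, g U * (if k ∈ U then 1 else 0) := by
    rw [sum_comm]
    have e1 : ∀ U ∈ powersetCard a D, ∑ l ∈ D.erase k,
        g U * (if ¬ (k ∈ U ↔ l ∈ U) then (1 : ℝ) else 0)
        = a * g U + ((D.card : ℝ) - 2 * a) * (g U * (if k ∈ U then 1 else 0)) := by
      intro U hU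
      obtain ⟨h1, h2⟩ := mem_powersetCard.1 hU
      have hle : U.card ≤ D.card := card_le_card h1
      have e2 : ∑ l ∈ D.erase k, (if ¬ (k ∈ U ↔ l ∈ U) then (1 : ℝ) else 0)
          = ∑ l ∈ D, (if ¬ (k ∈ U ↔ l ∈ U) then (1 : ℝ) else 0) := by
        rw [← add_sum_erase D _ hk]; simp
      rw [← mul_sum, e2]
      by_cases h : k ∈ U
      · have : ∑ l ∈ D, (if ¬ (k ∈ U ↔ l ∈ U) then (1 : ℝ) else 0) = (D.card : ℝ) - a := by
          have e3 : ∀ l ∈ D, (if ¬ (k ∈ U ↔ l ∈ U) then (1 : ℝ) else 0)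
              = 1 - (if l ∈ U then 1 else 0) := by
            intro l _
            by_cases h' : l ∈ U <;> simp [h, h']
          rw [sum_congr rfl e3, sum_sub_distrib, sum_const, nsmul_eq_mul, sum_ite_mem,
            inter_eq_right.2 h1, sum_const, nsmul_eq_mul, h2]
          ring
        rw [this, if_pos h]; ring
      · have : ∑ l ∈ D, (if ¬ (k ∈ U ↔ l ∈ U) then (1 : ℝ) else 0) = (a : ℝ) := by
          have e3 : ∀ l ∈ D, (if ¬ (k ∈ U ↔ l ∈ U) then (1 : ℝ) else 0)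
              = (if l ∈ U then 1 else 0) := by
            intro l _
            by_cases h' : l ∈ U <;> simp [h, h']
          rw [sum_congr rfl e3, sum_ite_mem, inter_eq_right.2 h1, sum_const, nsmul_eq_mul, h2]
          ring
        rw [this, if_neg h]; ring
    rw [sum_congr rfl e1, sum_add_distrib, ← mul_sum, hg, ← mul_sum]
    ring
  have key := sl_bessel (powersetCard a D) (D.erase k)
    (fun l U => if ¬ (k ∈ U ↔ l ∈ U) then (1 : ℝ) else 0) g C C hC0 ?_ ?_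
  · rw [hsum, card_erase_of_mem hk, Nat.cast_sub hpos, Nat.cast_one] at key
    exact key
  · intro l hl
    obtain ⟨h1, h2⟩ := mem_erase.1 hl
    rw [← hC k hk l h2 h1.symm]
    nth_rewrite 2 [slA_swap hk h2]
    unfold slA
    rw [← sum_add_distrib]
    refine sum_congr rfl fun U _ => ?_
    by_cases h : k ∈ U <;> by_cases h' : l ∈ U <;> simp [h, h']
  · intro l hl l' hl' hll
    obtain ⟨h1, h2⟩ := mem_erase.1 hl
    obtain ⟨h1', h2'⟩ := mem_erase.1 hl'
    rw [← hC l h2 l' h2' hll]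
    -- three-element counts
    have e1 : ∑ U ∈ powersetCard a D, (if k ∈ U ∧ l ∉ U ∧ l' ∉ U then (1 : ℝ) else 0)
        = ∑ U ∈ powersetCard a D, (if l ∈ U ∧ k ∉ U ∧ l' ∉ U then (1 : ℝ) else 0) := by
      rw [← sl_sum_tw hk h2]
      refine sum_congr rfl fun U _ => ?_
      simp only [sl_mem_tw, Equiv.swap_apply_left, Equiv.swap_apply_right,
        Equiv.swap_apply_of_ne_of_ne h1' (Ne.symm hll)]
    have e2 : ∑ U ∈ powersetCard a D, (if k ∉ U ∧ l ∈ U ∧ l' ∈ U then (1 : ℝ) else 0)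
        = ∑ U ∈ powersetCard a D, (if l' ∉ U ∧ l ∈ U ∧ k ∈ U then (1 : ℝ) else 0) := by
      rw [← sl_sum_tw hk h2']
      refine sum_congr rfl fun U _ => ?_
      simp only [sl_mem_tw, Equiv.swap_apply_left, Equiv.swap_apply_right,
        Equiv.swap_apply_of_ne_of_ne h1 hll]
    have e3 : ∑ U ∈ powersetCard a D, (if ¬ (k ∈ U ↔ l ∈ U) then (1 : ℝ) else 0)
          * (if ¬ (k ∈ U ↔ l' ∈ U) then (1 : ℝ) else 0)
        = ∑ U ∈ powersetCard a D, (if k ∈ U ∧ l ∉ U ∧ l' ∉ U then (1 : ℝ) else 0)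
          + ∑ U ∈ powersetCard a D, (if k ∉ U ∧ l ∈ U ∧ l' ∈ U then (1 : ℝ) else 0) := by
      rw [← sum_add_distrib]
      refine sum_congr rfl fun U _ => ?_
      by_cases h : k ∈ U <;> by_cases h' : l ∈ U <;> by_cases h'' : l' ∈ U <;> simp [h, h', h'']
    rw [e3, e1, e2]
    unfold slA
    rw [← sum_add_distrib]
    refine sum_congr rfl fun U _ => ?_
    by_cases h : k ∈ U <;> by_cases h' : l ∈ U <;> by_cases h'' : l' ∈ U <;> simp [h, h', h'']

theorem sl_card_bound {D : Finset V} {a : ℕ} {g : Finset V → ℝ}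
    (hg : ∑ U ∈ powersetCard a D, g U = 0) :
    ((D.card : ℝ) - 2 * a) ^ 2 * slSq D a g ≤ ((D.card : ℝ) - 1) ^ 2 * slSq D a g := by
  by_cases h : 1 ≤ a ∧ a + 1 ≤ D.card
  · refine mul_le_mul_of_nonneg_right ?_ (slSq_nonneg _ _ _)
    have h1 : (1 : ℝ) ≤ (a : ℝ) := by exact_mod_cast h.1
    have h2 : (a : ℝ) + 1 ≤ (D.card : ℝ) := by exact_mod_cast h.2
    nlinarith
  · have h0 : slSq D a g = 0 := by
      have hc : (powersetCard a D).card ≤ 1 := by
        rw [card_powersetCard]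
        rcases Nat.lt_or_ge D.card a with h1 | h1
        · rw [Nat.choose_eq_zero_of_lt h1]; exact Nat.zero_le _
        · have : a = 0 ∨ a = D.card := by omega
          rcases this with rfl | rfl
          · simp
          · simp
      rcases card_le_one_iff_subset_singleton.1 hc with ⟨W, hW⟩
      unfold slSq
      rcases subset_singleton_iff.1 hW with h | h
      · rw [h]; simp
      · rw [h] at hg ⊢
        rw [sum_singleton] at hg ⊢
        rw [hg]; ring
    rw [h0]; simp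

theorem slice_SI (D : Finset V) (a : ℕ) (g : Finset V → ℝ)
    (hg : ∑ U ∈ powersetCard a D, g U = 0) :
    ∑ k ∈ D, ∑ l ∈ D.erase k,
      (∑ U ∈ (powersetCard a D).filter (fun U => ¬ (k ∈ U ↔ l ∈ U)), g U) ^ 2 /
        (((powersetCard a D).filter (fun U => ¬ (k ∈ U ↔ l ∈ U))).card : ℝ) ≤
      ∑ k ∈ D, ∑ l ∈ D.erase k, (1 / 4) * ∑ U ∈ powersetCard a D, (g U - g (tw k l U)) ^ 2 := by
  refine le_trans ?_ (slice_poincare D a g hg)
  change _ ≤ (D.card : ℝ) * slSq D a g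
  have hS0 := slSq_nonneg D a g
  by_cases hD : ∃ k ∈ D, ∃ l ∈ D, k ≠ l
  swap
  · have : ∑ k ∈ D, ∑ l ∈ D.erase k,
      (∑ U ∈ (powersetCard a D).filter (fun U => ¬ (k ∈ U ↔ l ∈ U)), g U) ^ 2 /
        (((powersetCard a D).filter (fun U => ¬ (k ∈ U ↔ l ∈ U))).card : ℝ) = 0 := by
      refine sum_eq_zero fun k hk => ?_
      refine sum_eq_zero fun l hl => ?_
      exact absurd ⟨k, hk, l, (mem_erase.1 hl).2, (mem_erase.1 hl).1.symm⟩ hD
    rw [this]; positivity
  obtain ⟨k0, hk0, l0, hl0, hkl0⟩ := hD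
  set C := slA D a k0 l0 with hCdef
  have hC0 : 0 ≤ C := slA_nonneg _ _ _ _
  have hC : ∀ k ∈ D, ∀ l ∈ D, k ≠ l → slA D a k l = C := fun k hk l hl h =>
    slA_const hk hl hk0 hl0 h hkl0
  have hcard2 : 2 ≤ D.card := one_lt_card.2 ⟨k0, hk0, l0, hl0, hkl0⟩
  have hm2 : (2 : ℝ) ≤ (D.card : ℝ) := by exact_mod_cast hcard2
  have hN : ∀ k ∈ D, ∀ l ∈ D.erase k,
      (((powersetCard a D).filter (fun U => ¬ (k ∈ U ↔ l ∈ U))).card : ℝ) = 2 * C := by
    intro k hk l hl
    obtain ⟨h1, h2⟩ := mem_erase.1 hl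
    rw [two_mul, ← hC k hk l h2 h1.symm]
    nth_rewrite 2 [slA_swap hk h2]
    unfold slA
    rw [← sum_add_distrib, card_filter, Nat.cast_sum]
    refine sum_congr rfl fun U _ => ?_
    by_cases h : k ∈ U <;> by_cases h' : l ∈ U <;> simp [h, h']
  have hG : ∀ k l, ∑ U ∈ (powersetCard a D).filter (fun U => ¬ (k ∈ U ↔ l ∈ U)), g U
      = ∑ U ∈ powersetCard a D, g U * (if ¬ (k ∈ U ↔ l ∈ U) then 1 else 0) := by
    intro k l
    rw [sum_filter]
    refine sum_congr rfl fun U _ => ?_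
    split_ifs <;> ring
  have e1 : ∑ k ∈ D, ∑ l ∈ D.erase k,
      (∑ U ∈ (powersetCard a D).filter (fun U => ¬ (k ∈ U ↔ l ∈ U)), g U) ^ 2 /
        (((powersetCard a D).filter (fun U => ¬ (k ∈ U ↔ l ∈ U))).card : ℝ)
      = (∑ k ∈ D, ∑ l ∈ D.erase k,
        (∑ U ∈ powersetCard a D, g U * (if ¬ (k ∈ U ↔ l ∈ U) then 1 else 0)) ^ 2) / (2 * C) := by
    rw [sum_div]
    refine sum_congr rfl fun k hk => ?_
    rw [sum_div]
    refine sum_congr rfl fun l hl => ?_
    rw [hN k hk l hl, hG]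
  rw [e1]
  rcases hC0.lt_or_eq with hpos | hzero
  swap
  · rw [← hzero, mul_zero, div_zero]; positivity
  rw [div_le_iff₀ (by positivity)]
  have h1 : ∑ k ∈ D, ∑ l ∈ D.erase k,
      (∑ U ∈ powersetCard a D, g U * (if ¬ (k ∈ U ↔ l ∈ U) then 1 else 0)) ^ 2 ≤
      ∑ k ∈ D, (C * slSq D a g + (((D.card : ℝ) - 2 * a) *
        ∑ U ∈ powersetCard a D, g U * (if k ∈ U then 1 else 0)) ^ 2 / ((D.card : ℝ) - 1)) :=
    sum_le_sum fun k hk => sl_sep_bessel hg hC0 hC hk
  refine h1.trans ?_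
  have h2 := sl_theta hg hC0 hC
  have hm1 : (0 : ℝ) < (D.card : ℝ) - 1 := by linarith
  have e2 : ∑ k ∈ D, (C * slSq D a g + (((D.card : ℝ) - 2 * a) *
        ∑ U ∈ powersetCard a D, g U * (if k ∈ U then 1 else 0)) ^ 2 / ((D.card : ℝ) - 1))
      = (D.card : ℝ) * (C * slSq D a g) + ((D.card : ℝ) - 2 * a) ^ 2 / ((D.card : ℝ) - 1) *
        ∑ k ∈ D, (∑ U ∈ powersetCard a D, g U * (if k ∈ U then 1 else 0)) ^ 2 := by
    rw [sum_add_distrib, sum_const, nsmul_eq_mul, mul_sum]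
    congr 1
    refine sum_congr rfl fun k _ => ?_
    rw [mul_pow]; ring
  rw [e2]
  have h3 : ((D.card : ℝ) - 2 * a) ^ 2 / ((D.card : ℝ) - 1) *
        ∑ k ∈ D, (∑ U ∈ powersetCard a D, g U * (if k ∈ U then 1 else 0)) ^ 2
      ≤ ((D.card : ℝ) - 2 * a) ^ 2 / ((D.card : ℝ) - 1) * (C * slSq D a g) :=
    mul_le_mul_of_nonneg_left h2 (by positivity)
  have h4 : ((D.card : ℝ) - 2 * a) ^ 2 / ((D.card : ℝ) - 1) * (C * slSq D a g)
      ≤ ((D.card : ℝ) - 1) * (C * slSq D a g) := by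
    rw [div_mul_eq_mul_div, div_le_iff₀ hm1]
    have h5 := mul_le_mul_of_nonneg_left (sl_card_bound hg) hC0
    nlinarith [h5]
  have h6 : 0 ≤ C * slSq D a g := by positivity
  nlinarith [h3, h4, h6]

end Slice

end Vale.P335
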