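import Vale.Agent.P335.Disjoint
import Vale.Agent.P335.Slice

/-!
# P335 — M6: the classes of `rel i j` are slices; transfer of the slice inequalities
-/

namespace Vale.P335

open Finset

variable {V : Type*} [Fintype V] [DecidableEq V] {d : V → ℕ}

/-- the columns in which rows `i` and `j` differ -/
def Dm (i j : V) (x : Gr V d) : Finset V :=
  univ.filter (fun c => c ≠ i ∧ c ≠ j ∧ x.1 i c ≠ x.1 j c)

/-- those in which row `i` has a one -/
def Um (i j : V) (x : Gr V d) : Finset V :=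
  (Dm i j x).filter (fun c => x.1 i c = true)

theorem mem_Dm {i j : V} {x : Gr V d} {c : V} :
    c ∈ Dm i j x ↔ c ≠ i ∧ c ≠ j ∧ x.1 i c ≠ x.1 j c := by
  simp [Dm]

theorem mem_Um {i j : V} {x : Gr V d} {c : V} :
    c ∈ Um i j x ↔ c ∈ Dm i j x ∧ x.1 i c = true := by
  simp [Um]

theorem rel_row' {i j : V} (hij : i ≠ j) {x y : Gr V d} (h : rel i j x y) {u : V}
    (hui : u ≠ i) (huj : u ≠ j) :
    (x.1 i u).toNat + (x.1 j u).toNat = (y.1 i u).toNat + (y.1 j u).toNat := by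
  have := rel_row hij h hui huj
  rwa [x.symm' u i, x.symm' u j, y.symm' u i, y.symm' u j] at this

theorem cs_bool_ne : ∀ a b a' b' : Bool, a.toNat + b.toNat = a'.toNat + b'.toNat →
    (a ≠ b ↔ a' ≠ b') := by decide

theorem cs_bool_same : ∀ a b a' b' : Bool, a.toNat + b.toNat = a'.toNat + b'.toNat →
    a = b → a = a' ∧ b = b' := by decide

theorem cs_bool_snd : ∀ a b a' b' : Bool, a.toNat + b.toNat = a'.toNat + b'.toNat →
    a = a' → b = b' := by decide

theorem Dm_eq {i j : V} (hij : i ≠ j) {x y : Gr V d} (h : rel i j x y) :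
    Dm i j x = Dm i j y := by
  ext c
  rw [mem_Dm, mem_Dm]
  constructor
  · rintro ⟨h1, h2, h3⟩
    exact ⟨h1, h2, (cs_bool_ne _ _ _ _ (rel_row' hij h h1 h2)).1 h3⟩
  · rintro ⟨h1, h2, h3⟩
    exact ⟨h1, h2, (cs_bool_ne _ _ _ _ (rel_row' hij h h1 h2)).2 h3⟩

theorem not_mem_Dm {i j : V} (hij : i ≠ j) {x y : Gr V d} (h : rel i j x y) {c : V}
    (hc : c ∉ Dm i j x) : x.1 i c = y.1 i c := by
  by_cases h1 : c = i
  · subst h1; rw [x.diag, y.diag]
  by_cases h2 : c = j
  · subst h2; exact h.1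
  have h3 : x.1 i c = x.1 j c := by
    by_contra h3
    exact hc (mem_Dm.2 ⟨h1, h2, h3⟩)
  exact (cs_bool_same _ _ _ _ (rel_row' hij h h1 h2) h3).1

theorem card_Um (i j : V) (x : Gr V d) :
    (Um i j x).card = ∑ c ∈ Dm i j x, (x.1 i c).toNat := by
  unfold Um
  rw [card_filter]
  refine sum_congr rfl fun c _ => ?_
  cases x.1 i c <;> rfl

theorem card_Um_eq {i j : V} (hij : i ≠ j) {x y : Gr V d} (h : rel i j x y) :
    (Um i j x).card = (Um i j y).card := by
  have hx := x.deg i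
  have hy := y.deg i
  rw [← sum_add_sum_compl (Dm i j x)] at hx
  rw [← sum_add_sum_compl (Dm i j y)] at hy
  rw [← Dm_eq hij h] at hy
  have : ∑ c ∈ (Dm i j x)ᶜ, (x.1 i c).toNat = ∑ c ∈ (Dm i j x)ᶜ, (y.1 i c).toNat := by
    refine sum_congr rfl fun c hc => ?_
    rw [not_mem_Dm hij h (mem_compl.1 hc)]
  rw [card_Um, card_Um, ← Dm_eq hij h]
  omega

theorem Um_sub (i j : V) (x : Gr V d) : Um i j x ⊆ Dm i j x := filter_subset _ _

theorem Um_inj {i j : V} (hij : i ≠ j) {x y : Gr V d} (h : rel i j x y)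
    (hU : Um i j x = Um i j y) : x = y := by
  have hi : ∀ c, x.1 i c = y.1 i c := by
    intro c
    by_cases hc : c ∈ Dm i j x
    · have e : (x.1 i c = true) ↔ (y.1 i c = true) := by
        constructor
        · intro e
          have : c ∈ Um i j y := hU ▸ mem_Um.2 ⟨hc, e⟩
          exact (mem_Um.1 this).2
        · intro e
          have : c ∈ Um i j x := hU ▸ mem_Um.2 ⟨Dm_eq hij h ▸ hc, e⟩
          exact (mem_Um.1 this).2
      exact Bool.eq_iff_iff.2 e
    · exact not_mem_Dm hij h hc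
  have hj : ∀ c, x.1 j c = y.1 j c := by
    intro c
    by_cases h2 : c = j
    · subst h2; rw [x.diag, y.diag]
    by_cases h1 : c = i
    · subst h1; rw [x.symm' j c, y.symm' j c]; exact h.1
    exact cs_bool_snd _ _ _ _ (rel_row' hij h h1 h2) (hi c)
  refine Gr.ext' fun u v => ?_
  by_cases hui : u = i
  · subst hui; exact hi v
  by_cases huj : u = j
  · subst huj; exact hj v
  by_cases hvi : v = i
  · subst hvi; rw [x.symm' u v, y.symm' u v]; exact hi u
  by_cases hvj : v = j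
  · subst hvj; rw [x.symm' u v, y.symm' u v]; exact hj u
  exact h.2 u v hui huj hvi hvj

/-- the matrix with `U(y) = U` -/
def setM (i j : V) (D U : Finset V) (x : V → V → Bool) (u v : V) : Bool :=
  if u = i ∧ v ∈ D then decide (v ∈ U)
  else if u = j ∧ v ∈ D then decide (v ∉ U)
  else if v = i ∧ u ∈ D then decide (u ∈ U)
  else if v = j ∧ u ∈ D then decide (u ∉ U)
  else x u v

theorem setM_symm {i j : V} {D U : Finset V} {x : V → V → Bool} (hij : i ≠ j)
    (hi : i ∉ D) (hj : j ∉ D) (hx : ∀ u v, x u v = x v u) (u v : V) :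
    setM i j D U x u v = setM i j D U x v u := by
  unfold setM
  by_cases h1 : u = i ∧ v ∈ D
  · obtain ⟨rfl, hv⟩ := h1
    have h2 : ¬ (v = u ∧ u ∈ D) := fun h => hi h.2
    have h3 : ¬ (v = j ∧ u ∈ D) := fun h => hi h.2
    rw [if_pos ⟨rfl, hv⟩, if_neg h2, if_neg h3, if_pos ⟨rfl, hv⟩]
  rw [if_neg h1]
  by_cases h2 : u = j ∧ v ∈ D
  · obtain ⟨rfl, hv⟩ := h2
    have h2 : ¬ (v = i ∧ u ∈ D) := fun h => hj h.2
    have h3 : ¬ (v = u ∧ u ∈ D) := fun h => hj h.2
    have h4 : ¬ (u = i ∧ v ∈ D) := fun h => hij h.1.symm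
    rw [if_pos ⟨rfl, hv⟩, if_neg h2, if_neg h3, if_neg h4, if_pos ⟨rfl, hv⟩]
  rw [if_neg h2]
  by_cases h3 : v = i ∧ u ∈ D
  · rw [if_pos h3, if_pos h3]
  rw [if_neg h3, if_neg h3]
  by_cases h4 : v = j ∧ u ∈ D
  · rw [if_pos h4, if_pos h4]
  rw [if_neg h4, if_neg h4, if_neg h1, if_neg h2, hx]

theorem setM_i {i j : V} {D U : Finset V} {x : V → V → Bool} (_ : i ≠ j)
    (hi : i ∉ D) (v : V) :
    setM i j D U x i v = if v ∈ D then decide (v ∈ U) else x i v := by
  unfold setM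
  by_cases hv : v ∈ D
  · rw [if_pos ⟨rfl, hv⟩, if_pos hv]
  · rw [if_neg (fun h => hv h.2), if_neg (fun h => hv h.2), if_neg (fun h => hi h.2),
      if_neg (fun h => hi h.2), if_neg hv]

theorem setM_j {i j : V} {D U : Finset V} {x : V → V → Bool} (hij : i ≠ j)
    (hj : j ∉ D) (v : V) :
    setM i j D U x j v = if v ∈ D then decide (v ∉ U) else x j v := by
  unfold setM
  by_cases hv : v ∈ D
  · rw [if_neg (fun h => hij h.1.symm), if_pos ⟨rfl, hv⟩, if_pos hv]
  · rw [if_neg (fun h => hv h.2), if_neg (fun h => hv h.2), if_neg (fun h => hj h.2),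
      if_neg (fun h => hj h.2), if_neg hv]

theorem setM_other {i j : V} {D U : Finset V} {x : V → V → Bool} {u v : V}
    (hui : u ≠ i) (huj : u ≠ j) (hvi : v ≠ i) (hvj : v ≠ j) :
    setM i j D U x u v = x u v := by
  unfold setM
  rw [if_neg (fun h => hui h.1), if_neg (fun h => huj h.1), if_neg (fun h => hvi h.1),
    if_neg (fun h => hvj h.1)]

theorem setM_notin {i j : V} {D U : Finset V} {x : V → V → Bool} {u v : V}
    (hui : u ≠ i) (huj : u ≠ j) (hu : u ∉ D) :
    setM i j D U x u v = x u v := by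
  unfold setM
  rw [if_neg (fun h => hui h.1), if_neg (fun h => huj h.1), if_neg (fun h => hu h.2),
    if_neg (fun h => hu h.2)]

theorem cs_bool_one : ∀ a b : Bool, a ≠ b → a.toNat + b.toNat = 1 := by decide

theorem setM_deg {i j : V} (hij : i ≠ j) (x : Gr V d) {U : Finset V} (hU : U ⊆ Dm i j x)
    (hc : U.card = (Um i j x).card) (u : V) :
    ∑ v, (setM i j (Dm i j x) U x.1 u v).toNat = d u := by
  have hi : i ∉ Dm i j x := fun h => (mem_Dm.1 h).1 rfl
  have hj : j ∉ Dm i j x := fun h => (mem_Dm.1 h).2.1 rfl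
  have hcard : ∑ v ∈ Dm i j x, (decide (v ∈ U)).toNat = U.card := by
    have : ((Dm i j x).filter (fun v => v ∈ U)).card = U.card := by
      rw [filter_mem_eq_inter, inter_eq_right.2 hU]
    rw [← this, card_filter]
    refine sum_congr rfl fun c _ => ?_
    by_cases h : c ∈ U <;> simp [h]
  by_cases hui : u = i
  · subst hui
    rw [← x.deg u, ← sum_add_sum_compl (Dm u j x), ← sum_add_sum_compl (Dm u j x)
      (fun v => (x.1 u v).toNat)]
    congr 1
    · rw [← card_Um, ← hc, ← hcard]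
      refine sum_congr rfl fun v hv => ?_
      rw [setM_i hij hi, if_pos hv]
    · refine sum_congr rfl fun v hv => ?_
      rw [setM_i hij hi, if_neg (mem_compl.1 hv)]
  by_cases huj : u = j
  · subst huj
    rw [← x.deg u, ← sum_add_sum_compl (Dm i u x), ← sum_add_sum_compl (Dm i u x)
      (fun v => (x.1 u v).toNat)]
    congr 1
    · have e1 : ∑ v ∈ Dm i u x, (setM i u (Dm i u x) U x.1 u v).toNat
          + ∑ v ∈ Dm i u x, (decide (v ∈ U)).toNat = (Dm i u x).card := by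
        rw [← sum_add_distrib, card_eq_sum_ones]
        refine sum_congr rfl fun v hv => ?_
        rw [setM_j hij hj, if_pos hv]
        by_cases h : v ∈ U <;> simp [h]
      have e2 : ∑ v ∈ Dm i u x, (x.1 u v).toNat + ∑ v ∈ Dm i u x, (x.1 i v).toNat
          = (Dm i u x).card := by
        rw [← sum_add_distrib, card_eq_sum_ones]
        refine sum_congr rfl fun v hv => ?_
        rw [add_comm]
        exact cs_bool_one _ _ (mem_Dm.1 hv).2.2
      rw [← card_Um] at e2
      omega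
    · refine sum_congr rfl fun v hv => ?_
      rw [setM_j hij hj, if_neg (mem_compl.1 hv)]
  by_cases hu : u ∈ Dm i j x
  · rw [← x.deg u]
    refine sum_two hij ?_ ?_
    · have e1 : (x.1 u i).toNat + (x.1 u j).toNat = 1 := by
        rw [x.symm' u i, x.symm' u j]
        exact cs_bool_one _ _ (mem_Dm.1 hu).2.2
      rw [e1, setM_symm hij hi hj x.2.1 u i, setM_symm hij hi hj x.2.1 u j, setM_i hij hi,
        setM_j hij hj, if_pos hu, if_pos hu]
      by_cases h : u ∈ U <;> simp [h]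
    · intro v hvi hvj
      rw [setM_other hui huj hvi hvj]
  · rw [← x.deg u]
    exact sum_congr rfl fun v _ => by rw [setM_notin hui huj hu]

theorem setM_exists {i j : V} (hij : i ≠ j) (x : Gr V d) {U : Finset V} (hU : U ⊆ Dm i j x)
    (hc : U.card = (Um i j x).card) : ∃ y : Gr V d, y.1 = setM i j (Dm i j x) U x.1 := by
  have hi : i ∉ Dm i j x := fun h => (mem_Dm.1 h).1 rfl
  have hj : j ∉ Dm i j x := fun h => (mem_Dm.1 h).2.1 rfl
  refine ⟨⟨setM i j (Dm i j x) U x.1, setM_symm hij hi hj x.2.1, ?_, setM_deg hij x hU hc⟩, rfl⟩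
  intro u
  by_cases hui : u = i
  · subst hui; rw [setM_i hij hi, if_neg hi, x.diag]
  by_cases huj : u = j
  · subst huj; rw [setM_j hij hj, if_neg hj, x.diag]
  rw [setM_other hui huj hui huj, x.diag]

theorem Um_surj {i j : V} (hij : i ≠ j) (x : Gr V d) {U : Finset V} (hU : U ⊆ Dm i j x)
    (hc : U.card = (Um i j x).card) : ∃ y, rel i j x y ∧ Um i j y = U := by
  have hi : i ∉ Dm i j x := fun h => (mem_Dm.1 h).1 rfl
  have hj : j ∉ Dm i j x := fun h => (mem_Dm.1 h).2.1 rfl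
  obtain ⟨y, hy⟩ := setM_exists hij x hU hc
  have hr : rel i j x y := by
    refine ⟨?_, fun u v h1 h2 h3 h4 => ?_⟩
    · rw [hy, setM_i hij hi, if_neg hj]
    · rw [hy, setM_other h1 h2 h3 h4]
  refine ⟨y, hr, ?_⟩
  ext c
  rw [mem_Um, ← Dm_eq hij hr, hy]
  constructor
  · rintro ⟨h1, h2⟩
    rw [setM_i hij hi, if_pos h1] at h2
    exact of_decide_eq_true h2
  · intro h
    refine ⟨hU h, ?_⟩
    rw [setM_i hij hi, if_pos (hU h)]
    exact decide_eq_true h

theorem Um_injOn {i j : V} (hij : i ≠ j) (x : Gr V d) :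
    Set.InjOn (Um i j) (cls (rel i j) x : Set (Gr V d)) := by
  intro y hy z hz h
  have hy' := mem_cls.1 (mem_coe.1 hy)
  have hz' := mem_cls.1 (mem_coe.1 hz)
  exact Um_inj hij ((rel_equivalence i j).trans ((rel_equivalence i j).symm hy') hz') h

theorem image_Um {i j : V} (hij : i ≠ j) (x : Gr V d) :
    (cls (rel i j) x).image (Um i j) = powersetCard (Um i j x).card (Dm i j x) := by
  ext U
  rw [mem_image, mem_powersetCard]
  constructor
  · rintro ⟨y, hy, rfl⟩
    have hy' := mem_cls.1 hy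
    exact ⟨Dm_eq hij hy' ▸ Um_sub i j y, (card_Um_eq hij hy').symm⟩
  · rintro ⟨h1, h2⟩
    obtain ⟨y, hy, rfl⟩ := Um_surj hij x h1 h2
    exact ⟨y, mem_cls.2 hy, rfl⟩

theorem sum_slice {i j : V} (hij : i ≠ j) (x : Gr V d) (φ : Finset V → ℝ) :
    ∑ U ∈ powersetCard (Um i j x).card (Dm i j x), φ U = ∑ y ∈ cls (rel i j) x, φ (Um i j y) := by
  rw [← image_Um hij, sum_image (Um_injOn hij x)]

theorem cs_bool_alt : ∀ a b c e : Bool, (a = e ∧ b = c ∧ a ≠ b) ↔
    (a ≠ c ∧ b ≠ e ∧ ¬ (a = true ↔ b = true)) := by decide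

theorem alt_iff {i j k l : V} (h : D4 i j k l) {x : Gr V d} :
    alt i j k l x ↔ k ∈ Dm i j x ∧ l ∈ Dm i j x ∧ ¬ (k ∈ Um i j x ↔ l ∈ Um i j x) := by
  obtain ⟨hij, hik, hil, hjk, hjl, hkl⟩ := h
  unfold alt
  rw [cs_bool_alt]
  constructor
  · rintro ⟨h1, h2, h3⟩
    have hk : k ∈ Dm i j x := mem_Dm.2 ⟨hik.symm, hjk.symm, h1⟩
    have hl : l ∈ Dm i j x := mem_Dm.2 ⟨hil.symm, hjl.symm, h2⟩
    refine ⟨hk, hl, fun h4 => h3 ?_⟩
    rw [mem_Um, mem_Um] at h4
    tauto
  · rintro ⟨hk, hl, h3⟩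
    refine ⟨(mem_Dm.1 hk).2.2, (mem_Dm.1 hl).2.2, fun h4 => h3 ?_⟩
    rw [mem_Um, mem_Um]
    tauto

theorem cs_mem_tw {k l c : V} {U : Finset V} : c ∈ tw k l U ↔ Equiv.swap k l c ∈ U := by
  unfold tw
  rw [mem_image]
  constructor
  · rintro ⟨a, ha, rfl⟩
    rwa [Equiv.swap_apply_self]
  · intro h
    exact ⟨_, h, Equiv.swap_apply_self _ _ _⟩

theorem Um_flip {i j k l : V} (h : D4 i j k l) {x : Gr V d} (hk : k ∈ Dm i j x)
    (hl : l ∈ Dm i j x) : Um i j (flip i j k l x) = tw k l (Um i j x) := by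
  have h' := h
  obtain ⟨hij, hik, hil, hjk, hjl, hkl⟩ := h'
  by_cases ha : alt i j k l x
  · obtain ⟨b1, b2, b3, b4⟩ := flip_block h ha
    have ha' := ha
    obtain ⟨a1, a2, a3⟩ := ha'
    have hb : x.1 i l = !(x.1 i k) := by
      revert a3
      generalize x.1 i k = p
      generalize x.1 i l = q
      revert p q
      decide
    ext c
    rw [cs_mem_tw, mem_Um, mem_Um, ← Dm_eq hij (rel_flip h x)]
    by_cases hck : c = k
    · subst hck
      rw [Equiv.swap_apply_left, b1, ← hb]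
      exact ⟨fun h => ⟨hl, h.2⟩, fun h => ⟨hk, h.2⟩⟩
    by_cases hcl : c = l
    · subst hcl
      rw [Equiv.swap_apply_right, b2, hb, Bool.not_not]
      exact ⟨fun h => ⟨hk, h.2⟩, fun h => ⟨hl, h.2⟩⟩
    rw [Equiv.swap_apply_of_ne_of_ne hck hcl]
    by_cases hc : c ∈ Dm i j x
    · have hc' := mem_Dm.1 hc
      rw [flip_other h (by tauto)]
    · exact ⟨fun h => absurd h.1 hc, fun h => absurd h.1 hc⟩
  · rw [flip_of_not ha]
    have hiff : (k ∈ Um i j x ↔ l ∈ Um i j x) := by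
      by_contra h1
      exact ha ((alt_iff h).2 ⟨hk, hl, h1⟩)
    ext c
    rw [cs_mem_tw]
    by_cases hck : c = k
    · subst hck; rw [Equiv.swap_apply_left]; exact hiff
    by_cases hcl : c = l
    · subst hcl; rw [Equiv.swap_apply_right]; exact hiff.symm
    rw [Equiv.swap_apply_of_ne_of_ne hck hcl]

/-- the centred function on the slice -/
noncomputable def gU (i j : V) (f : Gr V d → ℝ) (x : Gr V d) (W : Finset V) : ℝ :=
  ∑ y ∈ cls (rel i j) x, if Um i j y = W then f y - Ex (rel i j) f x else 0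

theorem gU_Um {i j : V} (hij : i ≠ j) (f : Gr V d → ℝ) {x y : Gr V d} (h : rel i j x y) :
    gU i j f x (Um i j y) = f y - Ex (rel i j) f x := by
  unfold gU
  rw [sum_eq_single y]
  · rw [if_pos rfl]
  · intro z hz hzy
    rw [if_neg]
    intro h1
    exact hzy (Um_injOn hij x (mem_coe.2 hz) (mem_coe.2 (mem_cls.2 h)) h1)
  · intro h1
    exact absurd (mem_cls.2 h) h1

theorem gU_sum {i j : V} (hij : i ≠ j) (f : Gr V d → ℝ) (x : Gr V d) :
    ∑ U ∈ powersetCard (Um i j x).card (Dm i j x), gU i j f x U = 0 := by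
  rw [sum_slice hij]
  have : ∑ y ∈ cls (rel i j) x, gU i j f x (Um i j y)
      = ∑ y ∈ cls (rel i j) x, (f y - Ex (rel i j) f x) :=
    sum_congr rfl fun y hy => gU_Um hij f (mem_cls.1 hy)
  rw [this, sum_sub_distrib, sum_const, nsmul_eq_mul, card_mul_Ex (rel_equivalence i j), sub_self]

/-- transfer of the `F`-terms -/
theorem F_class {i j k l : V} (h : D4 i j k l) (f : Gr V d → ℝ) (x : Gr V d)
    (hk : k ∈ Dm i j x) (hl : l ∈ Dm i j x) :
    (1 / 4) * ∑ U ∈ powersetCard (Um i j x).card (Dm i j x),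
      (gU i j f x U - gU i j f x (tw k l U)) ^ 2
      = ∑ y ∈ cls (rel i j) x, ((f y - f (flip i j k l y)) / 2) ^ 2 := by
  rw [sum_slice h.1, mul_sum]
  refine sum_congr rfl fun y hy => ?_
  have hy' := mem_cls.1 hy
  have hk' : k ∈ Dm i j y := Dm_eq h.1 hy' ▸ hk
  have hl' : l ∈ Dm i j y := Dm_eq h.1 hy' ▸ hl
  rw [← Um_flip h hk' hl', gU_Um h.1 f hy',
    gU_Um h.1 f ((rel_equivalence i j).trans hy' (rel_flip h y))]
  ring

/-- transfer of the `T`-terms -/
theorem T_class {i j k l : V} (h : D4 i j k l) (f : Gr V d → ℝ) (x : Gr V d)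
    (hk : k ∈ Dm i j x) (hl : l ∈ Dm i j x) :
    ∑ y ∈ (cls (rel i j) x).filter (fun y => alt i j k l y),
      (Ex (ralt i j k l) f y - Ex (rel i j) f y) ^ 2 =
    (∑ U ∈ (powersetCard (Um i j x).card (Dm i j x)).filter (fun U => ¬ (k ∈ U ↔ l ∈ U)),
      gU i j f x U) ^ 2 /
    (((powersetCard (Um i j x).card (Dm i j x)).filter (fun U => ¬ (k ∈ U ↔ l ∈ U))).card : ℝ) := by
  have hij := h.1
  have halt : ∀ y ∈ cls (rel i j) x, (alt i j k l y ↔ ¬ (k ∈ Um i j y ↔ l ∈ Um i j y)) := by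
    intro y hy
    have hy' := mem_cls.1 hy
    have hk' : k ∈ Dm i j y := Dm_eq h.1 hy' ▸ hk
    have hl' : l ∈ Dm i j y := Dm_eq h.1 hy' ▸ hl
    rw [alt_iff h]
    exact ⟨fun h => h.2.2, fun h => ⟨hk', hl', h⟩⟩
  have hfil : (powersetCard (Um i j x).card (Dm i j x)).filter (fun U => ¬ (k ∈ U ↔ l ∈ U)) =
      ((cls (rel i j) x).filter (fun y => alt i j k l y)).image (Um i j) := by
    rw [← image_Um hij, filter_image]
    congr 1
    exact filter_congr fun y hy => (halt y hy).symm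
  have hinj : Set.InjOn (Um i j)
      (((cls (rel i j) x).filter (fun y => alt i j k l y) : Finset (Gr V d)) : Set (Gr V d)) :=
    (Um_injOn hij x).mono (coe_subset.2 (filter_subset _ _))
  rw [hfil, sum_image hinj, card_image_of_injOn hinj]
  set A := (cls (rel i j) x).filter (fun y => alt i j k l y) with hA
  set m := Ex (rel i j) f x with hm
  have hg : ∑ y ∈ A, gU i j f x (Um i j y) = ∑ y ∈ A, (f y - m) :=
    sum_congr rfl fun y hy => gU_Um hij f (mem_cls.1 (mem_filter.1 hy).1)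
  rw [hg]
  have hE : ∀ y ∈ A, (Ex (ralt i j k l) f y - Ex (rel i j) f y) ^ 2
      = ((∑ z ∈ A, f z) / (A.card : ℝ) - m) ^ 2 := by
    intro y hy
    have hy1 := mem_cls.1 (mem_filter.1 hy).1
    have hy2 := (mem_filter.1 hy).2
    have hc : cls (ralt i j k l) y = A := by
      ext z
      rw [mem_cls, hA, mem_filter, mem_cls]
      constructor
      · rintro ⟨h1, h2⟩
        exact ⟨(rel_equivalence i j).trans hy1 h1, h2.1 hy2⟩
      · rintro ⟨h1, h2⟩
        exact ⟨(rel_equivalence i j).trans ((rel_equivalence i j).symm hy1) h1,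
          ⟨fun _ => h2, fun _ => hy2⟩⟩
    rw [hm, Ex_congr (rel_equivalence i j) f hy1]
    unfold Ex
    rw [hc]
  rw [sum_congr rfl hE, sum_const, nsmul_eq_mul, sum_sub_distrib, sum_const, nsmul_eq_mul]
  by_cases h0 : (A.card : ℝ) = 0
  · rw [h0]; simp
  · field_simp

/-- `f`-sum over ordered pairs reduces to the pairs in `D` -/
theorem cs_pair_sum_le {i j : V} {D : Finset V} (hi : i ∉ D) (hj : j ∉ D) (A B : V → V → ℝ)
    (hA : ∀ k l, k ∉ D ∨ l ∉ D → k ≠ i → k ≠ j → l ≠ i → l ≠ j → k ≠ l → A k l = 0)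
    (hB : ∀ k l, 0 ≤ B k l)
    (h : ∑ k ∈ D, ∑ l ∈ D.erase k, A k l ≤ ∑ k ∈ D, ∑ l ∈ D.erase k, B k l) :
    ∑ k ∈ (univ.erase i).erase j, ∑ l ∈ ((univ.erase i).erase j).erase k, A k l ≤
      ∑ k ∈ (univ.erase i).erase j, ∑ l ∈ ((univ.erase i).erase j).erase k, B k l := by
  have hsub : D ⊆ (univ.erase i).erase j := by
    intro c hc
    rw [mem_erase, mem_erase]
    exact ⟨fun h => hj (h ▸ hc), fun h => hi (h ▸ hc), mem_univ _⟩
  have hsub' : ∀ k, D.erase k ⊆ ((univ.erase i).erase j).erase k := fun k =>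
    erase_subset_erase _ hsub
  have e1 : ∑ k ∈ (univ.erase i).erase j, ∑ l ∈ ((univ.erase i).erase j).erase k, A k l
      = ∑ k ∈ D, ∑ l ∈ D.erase k, A k l := by
    rw [← sum_subset hsub]
    · refine sum_congr rfl fun k hk => ?_
      rw [← sum_subset (hsub' k)]
      intro l hl hl'
      have h1 : l ∉ D := fun h => hl' (mem_erase.2 ⟨(mem_erase.1 hl).1, h⟩)
      have h2 := mem_erase.1 (hsub hk)
      have h3 := mem_erase.1 hl
      have h4 := mem_erase.1 h3.2
      exact hA k l (Or.inr h1) (mem_erase.1 h2.2).1 h2.1 (mem_erase.1 h4.2).1 h4.1 h3.1.symm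
    · intro k hk hk'
      refine sum_eq_zero fun l hl => ?_
      have h2 := mem_erase.1 hk
      have h3 := mem_erase.1 hl
      have h4 := mem_erase.1 h3.2
      exact hA k l (Or.inl hk') (mem_erase.1 h2.2).1 h2.1 (mem_erase.1 h4.2).1 h4.1 h3.1.symm
  rw [e1]
  refine h.trans ?_
  refine (sum_le_sum fun k _ => ?_).trans
    (sum_le_sum_of_subset_of_nonneg hsub fun k _ _ => sum_nonneg fun l _ => hB k l)
  exact sum_le_sum_of_subset_of_nonneg (hsub' k) fun l _ _ => hB k l

/-- from class sums to total sums -/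
theorem cs_total_of_class {r : Gr V d → Gr V d → Prop} (hr : Equivalence r) (a b : Gr V d → ℝ)
    (h : ∀ x, ∑ y ∈ cls r x, a y ≤ ∑ y ∈ cls r x, b y) : ∑ x, a x ≤ ∑ x, b x := by
  rw [← sum_Ex hr a, ← sum_Ex hr b]
  refine sum_le_sum fun x _ => ?_
  unfold Ex
  exact div_le_div_of_nonneg_right (h x) (Nat.cast_nonneg _)

theorem cs_D4_of {i j k l : V} (hij : i ≠ j) (h1 : k ≠ i) (h2 : k ≠ j) (h3 : l ≠ i) (h4 : l ≠ j)
    (h5 : k ≠ l) : D4 i j k l := ⟨hij, h1.symm, h3.symm, h2.symm, h4.symm, h5⟩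

theorem class_SI {i j : V} (hij : i ≠ j) (f : Gr V d → ℝ) :
    ∑ k ∈ (univ.erase i).erase j, ∑ l ∈ ((univ.erase i).erase j).erase k, T i j k l f ≤
      ∑ k ∈ (univ.erase i).erase j, ∑ l ∈ ((univ.erase i).erase j).erase k, F i j k l f := by
  have e1 : ∑ k ∈ (univ.erase i).erase j, ∑ l ∈ ((univ.erase i).erase j).erase k, T i j k l f
      = ∑ x : Gr V d, ∑ k ∈ (univ.erase i).erase j, ∑ l ∈ ((univ.erase i).erase j).erase k,
        (if alt i j k l x then (Ex (ralt i j k l) f x - Ex (rel i j) f x) ^ 2 else 0) := by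
    rw [sum_comm]
    refine sum_congr rfl fun k _ => ?_
    rw [sum_comm]
    refine sum_congr rfl fun l _ => ?_
    unfold T
    rw [sum_filter]
  have e2 : ∑ k ∈ (univ.erase i).erase j, ∑ l ∈ ((univ.erase i).erase j).erase k, F i j k l f
      = ∑ x : Gr V d, ∑ k ∈ (univ.erase i).erase j, ∑ l ∈ ((univ.erase i).erase j).erase k,
        ((f x - f (flip i j k l x)) / 2) ^ 2 := by
    rw [sum_comm]
    refine sum_congr rfl fun k _ => ?_
    rw [sum_comm]
    refine sum_congr rfl fun l _ => ?_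
    rfl
  rw [e1, e2]
  refine cs_total_of_class (rel_equivalence i j) _ _ fun x => ?_
  have hi : i ∉ Dm i j x := fun h => (mem_Dm.1 h).1 rfl
  have hj : j ∉ Dm i j x := fun h => (mem_Dm.1 h).2.1 rfl
  have c1 : ∀ φ : V → V → Gr V d → ℝ,
      ∑ y ∈ cls (rel i j) x, ∑ k ∈ (univ.erase i).erase j,
        ∑ l ∈ ((univ.erase i).erase j).erase k, φ k l y
      = ∑ k ∈ (univ.erase i).erase j, ∑ l ∈ ((univ.erase i).erase j).erase k,
        ∑ y ∈ cls (rel i j) x, φ k l y := by
    intro φ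
    rw [sum_comm]
    exact sum_congr rfl fun k _ => sum_comm
  rw [c1 (fun k l y => if alt i j k l y then
      (Ex (ralt i j k l) f y - Ex (rel i j) f y) ^ 2 else 0),
    c1 (fun k l y => ((f y - f (flip i j k l y)) / 2) ^ 2)]
  refine cs_pair_sum_le hi hj _ _ ?_ (fun k l => sum_nonneg fun y _ => sq_nonneg _) ?_
  · intro k l hkl h1 h2 h3 h4 h5
    refine sum_eq_zero fun y hy => ?_
    rw [if_neg]
    intro ha
    have hD := (alt_iff (cs_D4_of hij h1 h2 h3 h4 h5)).1 ha
    rw [← Dm_eq hij (mem_cls.1 hy)] at hD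
    rcases hkl with h | h
    · exact h hD.1
    · exact h hD.2.1
  · have key := slice_SI (Dm i j x) (Um i j x).card (gU i j f x) (gU_sum hij f x)
    refine (le_of_eq ?_).trans (key.trans (le_of_eq ?_))
    · refine sum_congr rfl fun k hk => sum_congr rfl fun l hl => ?_
      have hk' := mem_Dm.1 hk
      have hl' := mem_erase.1 hl
      have hl'' := mem_Dm.1 hl'.2
      have hD := cs_D4_of hij hk'.1 hk'.2.1 hl''.1 hl''.2.1 hl'.1.symm
      rw [← T_class hD f x hk hl'.2, sum_filter]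
    · refine sum_congr rfl fun k hk => sum_congr rfl fun l hl => ?_
      have hk' := mem_Dm.1 hk
      have hl' := mem_erase.1 hl
      have hl'' := mem_Dm.1 hl'.2
      have hD := cs_D4_of hij hk'.1 hk'.2.1 hl''.1 hl''.2.1 hl'.1.symm
      exact F_class hD f x hk hl'.2

theorem class_poincare {i j : V} (hij : i ≠ j) (f : Gr V d → ℝ) :
    2 * ip (Pj (rel i j) f) (Pj (rel i j) f) ≤
      ∑ k ∈ (univ.erase i).erase j, ∑ l ∈ ((univ.erase i).erase j).erase k, F i j k l f := by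
  have e1 : 2 * ip (Pj (rel i j) f) (Pj (rel i j) f)
      = ∑ x : Gr V d, 2 * (Pj (rel i j) f x) ^ 2 := by
    rw [ip_self_eq, mul_sum]
  have e2 : ∑ k ∈ (univ.erase i).erase j, ∑ l ∈ ((univ.erase i).erase j).erase k, F i j k l f
      = ∑ x : Gr V d, ∑ k ∈ (univ.erase i).erase j, ∑ l ∈ ((univ.erase i).erase j).erase k,
        ((f x - f (flip i j k l x)) / 2) ^ 2 := by
    rw [sum_comm]
    refine sum_congr rfl fun k _ => ?_
    rw [sum_comm]
    refine sum_congr rfl fun l _ => ?_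
    rfl
  rw [e1, e2]
  refine cs_total_of_class (rel_equivalence i j) _ _ fun x => ?_
  have hi : i ∉ Dm i j x := fun h => (mem_Dm.1 h).1 rfl
  have hj : j ∉ Dm i j x := fun h => (mem_Dm.1 h).2.1 rfl
  have c1 : ∑ y ∈ cls (rel i j) x, ∑ k ∈ (univ.erase i).erase j,
        ∑ l ∈ ((univ.erase i).erase j).erase k, ((f y - f (flip i j k l y)) / 2) ^ 2
      = ∑ k ∈ (univ.erase i).erase j, ∑ l ∈ ((univ.erase i).erase j).erase k,
        ∑ y ∈ cls (rel i j) x, ((f y - f (flip i j k l y)) / 2) ^ 2 := by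
    rw [sum_comm]
    exact sum_congr rfl fun k _ => sum_comm
  rw [c1]
  have hsum : ∑ y ∈ cls (rel i j) x, 2 * (Pj (rel i j) f y) ^ 2
      = 2 * ∑ U ∈ powersetCard (Um i j x).card (Dm i j x), gU i j f x U ^ 2 := by
    rw [sum_slice hij, mul_sum]
    refine sum_congr rfl fun y hy => ?_
    have hy' := mem_cls.1 hy
    rw [gU_Um hij f hy', Ex_congr (rel_equivalence i j) f hy']
    rfl
  rw [hsum]
  have hS : 0 ≤ ∑ U ∈ powersetCard (Um i j x).card (Dm i j x), gU i j f x U ^ 2 :=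
    sum_nonneg fun _ _ => sq_nonneg _
  have hle : 2 * ∑ U ∈ powersetCard (Um i j x).card (Dm i j x), gU i j f x U ^ 2 ≤
      ((Dm i j x).card : ℝ) * ∑ U ∈ powersetCard (Um i j x).card (Dm i j x), gU i j f x U ^ 2 := by
    by_cases hc : 2 ≤ (Dm i j x).card
    · have : (2 : ℝ) ≤ ((Dm i j x).card : ℝ) := by exact_mod_cast hc
      exact mul_le_mul_of_nonneg_right this hS
    · have hcard : (powersetCard (Um i j x).card (Dm i j x)).card ≤ 1 := by
        rw [card_powersetCard]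
        have h1 : (Dm i j x).card = 0 ∨ (Dm i j x).card = 1 := by omega
        rcases h1 with h1 | h1
        · rw [h1]
          rcases (Um i j x).card with _ | n
          · simp
          · simp
        · rw [h1]
          rcases (Um i j x).card with _ | _ | n
          · simp
          · simp
          · simp [Nat.choose]
      have h0 : ∑ U ∈ powersetCard (Um i j x).card (Dm i j x), gU i j f x U ^ 2 = 0 := by
        have hs := gU_sum hij f x
        rcases card_le_one_iff_subset_singleton.1 hcard with ⟨W, hW⟩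
        rcases subset_singleton_iff.1 hW with h | h
        · rw [h]; simp
        · rw [h] at hs ⊢
          rw [sum_singleton] at hs ⊢
          rw [hs]; ring
      rw [h0]; simp
  have key := slice_poincare (Dm i j x) (Um i j x).card (gU i j f x) (gU_sum hij f x)
  refine hle.trans (key.trans ?_)
  have hD4 : ∀ k ∈ Dm i j x, ∀ l ∈ (Dm i j x).erase k,
      (1 / 4) * ∑ U ∈ powersetCard (Um i j x).card (Dm i j x),
        (gU i j f x U - gU i j f x (tw k l U)) ^ 2
      = ∑ y ∈ cls (rel i j) x, ((f y - f (flip i j k l y)) / 2) ^ 2 := by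
    intro k hk l hl
    have hk' := mem_Dm.1 hk
    have hl' := mem_erase.1 hl
    have hl'' := mem_Dm.1 hl'.2
    exact F_class (cs_D4_of hij hk'.1 hk'.2.1 hl''.1 hl''.2.1 hl'.1.symm) f x hk hl'.2
  rw [sum_congr rfl fun k hk => sum_congr rfl fun l hl => hD4 k hk l hl]
  have hsub : Dm i j x ⊆ (univ.erase i).erase j := by
    intro c hc
    rw [mem_erase, mem_erase]
    exact ⟨fun h => hj (h ▸ hc), fun h => hi (h ▸ hc), mem_univ _⟩
  refine (sum_le_sum fun k _ => ?_).trans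
    (sum_le_sum_of_subset_of_nonneg hsub fun k _ _ => sum_nonneg fun l _ =>
      sum_nonneg fun y _ => sq_nonneg _)
  exact sum_le_sum_of_subset_of_nonneg (erase_subset_erase _ hsub) fun l _ _ =>
    sum_nonneg fun y _ => sq_nonneg _

end Vale.P335
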