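import Vale.Agent.P335.Defs

/-!
# P335 — M7: connectivity

A function constant on all pair classes is constant.
-/

namespace Vale.P335

open Finset

section Connected

variable {V : Type*} [Fintype V] [DecidableEq V] {d : V → ℕ}

namespace Conn

/-- the two graphs agree outside `R × R` -/
def agree (R : Finset V) (x y : Gr V d) : Prop :=
  ∀ u v, (u ∉ R ∨ v ∉ R) → x.1 u v = y.1 u v

omit [DecidableEq V] in
theorem agree_symm {R : Finset V} {x y : Gr V d} (h : agree R x y) : agree R y x :=
  fun u v huv => (h u v huv).symm

omit [DecidableEq V] in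
theorem agree_trans {R : Finset V} {x y z : Gr V d} (h : agree R x y)
    (h' : agree R y z) : agree R x z :=
  fun u v huv => (h u v huv).trans (h' u v huv)

theorem deg_agree {R : Finset V} {x y : Gr V d} (h : agree R x y) (u : V) :
    ∑ c ∈ R, (x.1 u c).toNat = ∑ c ∈ R, (y.1 u c).toNat := by
  have hx := x.2.2.2 u
  have hy := y.2.2.2 u
  rw [← Finset.sum_add_sum_compl R] at hx hy
  have : ∑ c ∈ Rᶜ, (x.1 u c).toNat = ∑ c ∈ Rᶜ, (y.1 u c).toNat := by
    refine sum_congr rfl fun c hc => ?_
    rw [h u c (Or.inr (mem_compl.1 hc))]
  omega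

theorem exists_c {R : Finset V} {x : Gr V d} {v a b : V} (hv : v ∈ R) (ha : a ∈ R)
    (hb : b ∈ R) (hab : a ≠ b) (hav : a ≠ v) (hbv : b ≠ v)
    (hxav : x.1 a v = true) (hxbv : x.1 b v = false)
    (hdeg : ∑ c ∈ R, (x.1 a c).toNat ≤ ∑ c ∈ R, (x.1 b c).toNat) :
    ∃ c ∈ R, c ≠ v ∧ c ≠ a ∧ c ≠ b ∧ x.1 b c = true ∧ x.1 a c = false := by
  by_contra hcon
  push Not at hcon
  have hs := x.2.1
  have hz := x.2.2.1
  have split : ∀ u, ∑ c ∈ R, (x.1 u c).toNat = (x.1 u v).toNat + ((x.1 u a).toNat
      + ((x.1 u b).toNat + ∑ c ∈ ((R.erase v).erase a).erase b, (x.1 u c).toNat)) := by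
    intro u
    rw [← add_sum_erase R (fun c => (x.1 u c).toNat) hv,
      ← add_sum_erase (R.erase v) (fun c => (x.1 u c).toNat) (mem_erase.2 ⟨hav, ha⟩),
      ← add_sum_erase ((R.erase v).erase a) (fun c => (x.1 u c).toNat)
        (mem_erase.2 ⟨hab.symm, mem_erase.2 ⟨hbv, hb⟩⟩)]
  have hrest : ∑ c ∈ ((R.erase v).erase a).erase b, (x.1 b c).toNat
      ≤ ∑ c ∈ ((R.erase v).erase a).erase b, (x.1 a c).toNat := by
    refine sum_le_sum fun c hc => ?_
    simp only [mem_erase] at hc
    obtain ⟨hcb, hca, hcv, hcR⟩ := hc
    rcases h1 : x.1 b c with _ | _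
    · simp
    · rcases h2 : x.1 a c with _ | _
      · exact absurd h2 (hcon c hcR hcv hca hcb h1)
      · simp
  rw [split a, split b, hxav, hxbv, hz a, hz b, hs a b] at hdeg
  simp only [Bool.toNat_true, Bool.toNat_false] at hdeg
  omega

theorem step {R : Finset V} {x : Gr V d} {v a b : V} (hv : v ∈ R) (ha : a ∈ R)
    (hb : b ∈ R) (hbv : b ≠ v) (hxa : x.1 v a = true) (hxb : x.1 v b = false)
    (hdeg : ∑ c ∈ R, (x.1 a c).toNat ≤ ∑ c ∈ R, (x.1 b c).toNat) :
    ∃ x' : Gr V d, a ≠ b ∧ rel a b x x' ∧ agree R x x' ∧ x'.1 v a = false ∧
      x'.1 v b = true ∧ ∀ u, u ≠ a → u ≠ b → x'.1 v u = x.1 v u := by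
  have hs := x.2.1
  have hz := x.2.2.1
  have hab : a ≠ b := by
    rintro rfl
    rw [hxa] at hxb
    exact absurd hxb (by decide)
  have hav : a ≠ v := by
    rintro rfl
    rw [hz] at hxa
    exact absurd hxa (by decide)
  have hxav : x.1 a v = true := by rw [hs a v]; exact hxa
  have hxbv : x.1 b v = false := by rw [hs b v]; exact hxb
  obtain ⟨c, hcR, hcv, hca, hcb, hbc, hac⟩ := exists_c hv ha hb hab hav hbv hxav hxbv hdeg
  have hD : D4 a b v c := ⟨hab, hav, hca.symm, hbv, hcb.symm, hcv.symm⟩
  have halt : alt a b v c x := by
    refine ⟨?_, ?_, ?_⟩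
    · rw [hxav, hbc]
    · rw [hac, hxbv]
    · rw [hxav, hac]; decide
  refine ⟨⟨flipM a b v c x.1, flipM_mem hD x halt⟩, hab, ?_, ?_, ?_, ?_, ?_⟩
  · refine ⟨?_, ?_⟩
    · show x.1 a b = flipM a b v c x.1 a b
      unfold flipM
      rw [if_neg]
      rintro (⟨-, h | h⟩ | ⟨h | h, -⟩)
      · exact hbv h
      · exact hcb h.symm
      · exact hav h
      · exact hca h.symm
    · intro u w hua hub hwa hwb
      show x.1 u w = flipM a b v c x.1 u w
      unfold flipM
      rw [if_neg]
      rintro (⟨h | h, -⟩ | ⟨-, h | h⟩)
      · exact hua h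
      · exact hub h
      · exact hwa h
      · exact hwb h
  · intro u w huw
    show x.1 u w = flipM a b v c x.1 u w
    unfold flipM
    rw [if_neg]
    intro h
    have : u ∈ R ∧ w ∈ R := by
      rcases h with ⟨h1 | h1, h2 | h2⟩ | ⟨h1 | h1, h2 | h2⟩ <;> subst h1 <;> subst h2 <;>
        exact ⟨by assumption, by assumption⟩
    exact huw.elim (fun h => h this.1) (fun h => h this.2)
  · show flipM a b v c x.1 v a = false
    unfold flipM
    rw [if_pos (Or.inr ⟨Or.inl rfl, Or.inl rfl⟩), hxa]
    rfl
  · show flipM a b v c x.1 v b = true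
    unfold flipM
    rw [if_pos (Or.inr ⟨Or.inl rfl, Or.inr rfl⟩), hxb]
    rfl
  · intro u hua hub
    show flipM a b v c x.1 v u = x.1 v u
    unfold flipM
    rw [if_neg]
    rintro (⟨h | h, -⟩ | ⟨-, h | h⟩)
    · exact hav h.symm
    · exact hbv h.symm
    · exact hua h
    · exact hub h

/-- the number of disagreements in row `v` -/
def nd (v : V) (x y : Gr V d) : ℕ := (univ.filter fun u => x.1 v u ≠ y.1 v u).card

omit [DecidableEq V] in
theorem nd_comm (v : V) (x y : Gr V d) : nd v x y = nd v y x := by
  unfold nd
  congr 1
  ext u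
  simp [ne_comm]

theorem nd_lt {v a b : V} {x x' y : Gr V d} (hya : y.1 v a = false)
    (hyb : y.1 v b = true) (hxa : x.1 v a = true)
    (hx'a : x'.1 v a = false) (hx'b : x'.1 v b = true)
    (hx' : ∀ u, u ≠ a → u ≠ b → x'.1 v u = x.1 v u) : nd v x' y < nd v x y := by
  unfold nd
  apply card_lt_card
  rw [ssubset_iff_of_subset]
  · refine ⟨a, ?_, ?_⟩
    · simp [hxa, hya]
    · simp [hx'a, hya]
  · intro u hu
    rw [mem_filter] at hu ⊢
    refine ⟨mem_univ _, ?_⟩
    by_cases hua : u = a
    · subst hua
      exact absurd (hx'a.trans hya.symm) hu.2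
    by_cases hub : u = b
    · subst hub
      exact absurd (hx'b.trans hyb.symm) hu.2
    rw [← hx' u hua hub]
    exact hu.2

theorem connected_aux (f : Gr V d → ℝ)
    (h : ∀ i j, i ≠ j → ∀ x y, rel i j x y → f x = f y) :
    ∀ R : Finset V, ∀ x y, agree R x y → f x = f y := by
  intro R
  induction R using Finset.strongInduction with
  | H R ih =>
    rcases R.eq_empty_or_nonempty with hR | ⟨v, hv⟩
    · intro x y hxy
      subst hR
      have : x = y := Subtype.ext (funext fun u => funext fun w => hxy u w (Or.inl (by simp)))
      rw [this]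
    · have main : ∀ N : ℕ, ∀ x y, nd v x y = N → agree R x y → f x = f y := by
        intro N
        induction N using Nat.strong_induction_on with
        | _ N ihN =>
          intro x y hN hxy
          by_cases hrow : ∀ u, x.1 v u = y.1 v u
          · refine ih (R.erase v) (erase_ssubset hv) x y ?_
            intro u w huw
            by_cases huv : u = v
            · subst huv
              exact hrow w
            by_cases hwv : w = v
            · subst hwv
              rw [x.2.1, y.2.1]
              exact hrow u
            refine hxy u w (huw.imp (fun h' hu => h' (mem_erase.2 ⟨huv, hu⟩))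
              (fun h' hw => h' (mem_erase.2 ⟨hwv, hw⟩)))
          · -- find `a` and `b`
            have hsum : ∑ u, (x.1 v u).toNat = ∑ u, (y.1 v u).toNat := by
              rw [x.2.2.2 v, y.2.2.2 v]
            obtain ⟨a, hxa, hya⟩ : ∃ a, x.1 v a = true ∧ y.1 v a = false := by
              by_contra hcon
              push Not at hcon
              apply hrow
              have hle : ∀ u ∈ (univ : Finset V), (x.1 v u).toNat ≤ (y.1 v u).toNat := by
                intro u _
                rcases h1 : x.1 v u with _ | _
                · simp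
                · rcases h2 : y.1 v u with _ | _
                  · exact absurd h2 (hcon u h1)
                  · simp
              have heq := (sum_eq_sum_iff_of_le hle).1 hsum
              intro u
              have := heq u (mem_univ u)
              rcases h1 : x.1 v u with _ | _ <;> rcases h2 : y.1 v u with _ | _ <;>
                simp_all
            obtain ⟨b, hxb, hyb⟩ : ∃ b, x.1 v b = false ∧ y.1 v b = true := by
              by_contra hcon
              push Not at hcon
              apply hrow
              have hle : ∀ u ∈ (univ : Finset V), (y.1 v u).toNat ≤ (x.1 v u).toNat := by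
                intro u _
                rcases h1 : y.1 v u with _ | _
                · simp
                · rcases h2 : x.1 v u with _ | _
                  · exact absurd h1 (hcon u h2)
                  · simp
              have heq := (sum_eq_sum_iff_of_le hle).1 hsum.symm
              intro u
              have := heq u (mem_univ u)
              rcases h1 : x.1 v u with _ | _ <;> rcases h2 : y.1 v u with _ | _ <;>
                simp_all
            have haR : a ∈ R := by
              by_contra hcon
              have := hxy v a (Or.inr hcon)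
              rw [hxa, hya] at this
              exact absurd this (by decide)
            have hbR : b ∈ R := by
              by_contra hcon
              have := hxy v b (Or.inr hcon)
              rw [hxb, hyb] at this
              exact absurd this (by decide)
            have hav : a ≠ v := by
              rintro rfl
              rw [x.2.2.1] at hxa
              exact absurd hxa (by decide)
            have hbv : b ≠ v := by
              rintro rfl
              rw [y.2.2.1] at hyb
              exact absurd hyb (by decide)
            rcases le_total (∑ c ∈ R, (x.1 a c).toNat) (∑ c ∈ R, (x.1 b c).toNat) with hd | hd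
            · obtain ⟨x', hab, hrel, hag, h1, h2, h3⟩ := step hv haR hbR hbv hxa hxb hd
              rw [h a b hab x x' hrel]
              exact ihN _ (hN ▸ nd_lt hya hyb hxa h1 h2 h3) x' y rfl
                (agree_trans (agree_symm hag) hxy)
            · rw [deg_agree hxy a, deg_agree hxy b] at hd
              obtain ⟨y', hab, hrel, hag, h1, h2, h3⟩ := step hv hbR haR hav hyb hya hd
              rw [h b a hab y y' hrel]
              refine ihN _ ?_ x y' rfl (agree_trans hxy hag)
              rw [← hN, nd_comm v x y', nd_comm v x y]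
              exact nd_lt hxb hxa hyb h1 h2 h3
      intro x y hxy
      exact main _ x y rfl hxy

end Conn

/-- a function constant on all pair classes is constant -/
theorem connected (f : Gr V d → ℝ) (h : ∀ i j, i ≠ j → ∀ x y, rel i j x y → f x = f y) :
    ∀ x y, f x = f y :=
  fun x y => Conn.connected_aux f h univ x y
    (fun u v huv => absurd huv (by simp))

end Connected

end Vale.P335
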