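import Vale.Agent.P335.ThreeVertex
import Vale.Agent.P335.ClassSlice
import Vale.Agent.P335.Connected

/-!
# P335 — M8: the spectral gap
-/

namespace Vale.P335

open Finset

section Transfer

variable {X : Type*} [Fintype X]

theorem gap_transfer (L : (X → ℝ) →ₗ[ℝ] (X → ℝ)) (hsym : ∀ f g, ip (L f) g = ip f (L g))
    (hpos : ∀ f, 0 ≤ ip f (L f)) (c : ℝ) (hc : 0 < c)
    (h2 : ∀ f, c * ip f (L f) ≤ ip (L f) (L f))
    (hker : ∀ f, L f = 0 → ∀ x y, f x = f y) (f : X → ℝ) (hf : ∑ x, f x = 0) :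
    c * ip f f ≤ ip f (L f) := by
  classical
  set e : EuclideanSpace ℝ X ≃ₗ[ℝ] (X → ℝ) := WithLp.linearEquiv 2 ℝ (X → ℝ) with he
  have hin : ∀ a b : EuclideanSpace ℝ X, inner ℝ a b = ip (e a) (e b) := by
    intro a b
    simp only [ip, he, PiLp.inner_apply, RCLike.inner_apply, conj_trivial,
      WithLp.linearEquiv_apply]
    exact sum_congr rfl fun x _ => mul_comm _ _
  let T : EuclideanSpace ℝ X →ₗ[ℝ] EuclideanSpace ℝ X := e.symm.toLinearMap ∘ₗ L ∘ₗ e.toLinearMap
  have hT : ∀ a, e (T a) = L (e a) := by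
    intro a; simp [T]
  have hTs : T.IsSymmetric := by
    intro a b
    rw [hin, hin, hT, hT, hsym]
  have hrange : ∃ g, L g = f := by
    have h1 : e.symm f ∈ LinearMap.range T := by
      rw [← Submodule.orthogonal_orthogonal (LinearMap.range T), hTs.orthogonal_range,
        Submodule.mem_orthogonal]
      intro u hu
      have hu' : L (e u) = 0 := by
        rw [← hT, LinearMap.mem_ker.1 hu, map_zero]
      have hc' := hker _ hu'
      rw [hin, LinearEquiv.apply_symm_apply]
      unfold ip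
      rcases isEmpty_or_nonempty X with h | ⟨⟨x0⟩⟩
      · simp
      · have : ∀ x, e u x * f x = e u x0 * f x := fun x => by rw [hc' x x0]
        rw [sum_congr rfl fun x _ => this x, ← mul_sum, hf, mul_zero]
    obtain ⟨g, hg⟩ := h1
    refine ⟨e g, ?_⟩
    rw [← hT, hg, LinearEquiv.apply_symm_apply]
  obtain ⟨g, hg⟩ := hrange
  -- Cauchy-Schwarz for the form `⟨·, L ·⟩`
  have hbil : ∀ t : ℝ, 0 ≤ ip g (L g) + 2 * t * ip g (L f) + t ^ 2 * ip f (L f) := by
    intro t
    have h := hpos (g + t • f)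
    have e1 : ip (g + t • f) (L (g + t • f)) =
        ip g (L g) + 2 * t * ip g (L f) + t ^ 2 * ip f (L f) := by
      have e2 : ip f (L g) = ip g (L f) := by rw [← hsym, ip_comm]
      have e3 : ip (g + t • f) (L (g + t • f)) =
          ip g (L g) + t * ip g (L f) + t * ip f (L g) + t ^ 2 * ip f (L f) := by
        rw [map_add, map_smul]
        unfold ip
        rw [mul_sum, mul_sum, mul_sum, ← sum_add_distrib, ← sum_add_distrib, ← sum_add_distrib]
        refine sum_congr rfl fun x _ => ?_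
        simp only [Pi.add_apply, Pi.smul_apply, smul_eq_mul]
        ring
      rw [e3, e2]; ring
    rwa [e1] at h
  have hff : ip g (L f) = ip f f := by
    rw [← hsym, hg]
  have hgg : c * ip g (L g) ≤ ip f f := by
    have := h2 g
    rwa [hg] at this ⊢
  have hnn : 0 ≤ ip f f := by
    unfold ip; exact sum_nonneg fun x _ => mul_self_nonneg _
  have hfL := hpos f
  by_contra hlt
  rw [not_le] at hlt
  rw [hff] at hbil
  set A := ip f f
  set B := ip f (L f)
  set C := ip g (L g)
  have hA : 0 < A := by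
    rcases hnn.lt_or_eq with h | h
    · exact h
    · rw [← h, mul_zero] at hlt; linarith
  -- choose t = - 1 / c
  have h3 := hbil (-(1 / c))
  have h4 : c ^ 2 * (C + 2 * (-(1 / c)) * A + (-(1 / c)) ^ 2 * B) = c ^ 2 * C - 2 * c * A + B := by
    field_simp
    ring
  have h5 : 0 ≤ c ^ 2 * C - 2 * c * A + B := by
    rw [← h4]; positivity
  nlinarith

end Transfer

section Assembly

variable {V : Type*} [Fintype V] [DecidableEq V] {d : V → ℕ}

/-- sum over distinct triples -/
noncomputable def S3 (φ : V → V → V → ℝ) : ℝ :=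
  ∑ i, ∑ j, ∑ k, if i ≠ j ∧ i ≠ k ∧ j ≠ k then φ i j k else 0

theorem S3_swap (φ : V → V → V → ℝ) : S3 φ = S3 (fun i j k => φ j i k) := by
  unfold S3
  rw [sum_comm]
  refine sum_congr rfl fun i _ => sum_congr rfl fun j _ => sum_congr rfl fun k _ => ?_
  by_cases h : i ≠ j ∧ i ≠ k ∧ j ≠ k
  · rw [if_pos h, if_pos ⟨h.1.symm, h.2.2, h.2.1⟩]
  · rw [if_neg h, if_neg (fun h' => h ⟨h'.1.symm, h'.2.2, h'.2.1⟩)]

theorem S3_swap' (φ : V → V → V → ℝ) : S3 φ = S3 (fun i j k => φ i k j) := by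
  unfold S3
  refine sum_congr rfl fun i _ => ?_
  rw [sum_comm]
  refine sum_congr rfl fun j _ => sum_congr rfl fun k _ => ?_
  by_cases h : i ≠ j ∧ i ≠ k ∧ j ≠ k
  · rw [if_pos h, if_pos ⟨h.2.1, h.1, h.2.2.symm⟩]
  · rw [if_neg h, if_neg (fun h' => h ⟨h'.2.1, h'.1, h'.2.2.symm⟩)]

theorem S3_add (φ ψ : V → V → V → ℝ) : S3 (fun i j k => φ i j k + ψ i j k) = S3 φ + S3 ψ := by
  unfold S3
  rw [← sum_add_distrib]
  refine sum_congr rfl fun i _ => ?_
  rw [← sum_add_distrib]
  refine sum_congr rfl fun j _ => ?_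
  rw [← sum_add_distrib]
  refine sum_congr rfl fun k _ => ?_
  split_ifs <;> ring

theorem S3_nonneg {φ : V → V → V → ℝ} (h : ∀ i j k, i ≠ j → i ≠ k → j ≠ k → 0 ≤ φ i j k) :
    0 ≤ S3 φ := by
  unfold S3
  refine sum_nonneg fun i _ => sum_nonneg fun j _ => sum_nonneg fun k _ => ?_
  split_ifs with hh
  · exact h i j k hh.1 hh.2.1 hh.2.2
  · exact le_refl 0

/-- sum over distinct quadruples -/
noncomputable def S4 (φ : V → V → V → V → ℝ) : ℝ :=
  ∑ i, ∑ j, ∑ k, ∑ l, if D4 i j k l then φ i j k l else 0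

theorem S4_swap (φ : V → V → V → V → ℝ) : S4 φ = S4 (fun i j k l => φ k l i j) := by
  unfold S4
  have h : ∀ ψ : V → V → V → V → ℝ, ∑ i, ∑ j, ∑ k, ∑ l, ψ i j k l
      = ∑ p : V × V, ∑ q : V × V, ψ p.1 p.2 q.1 q.2 := by
    intro ψ
    rw [Fintype.sum_prod_type]
    refine sum_congr rfl fun i _ => sum_congr rfl fun j _ => ?_
    rw [Fintype.sum_prod_type]
  rw [h, h, sum_comm]
  refine sum_congr rfl fun p _ => sum_congr rfl fun q _ => ?_
  by_cases hh : D4 q.1 q.2 p.1 p.2
  · rw [if_pos hh, if_pos]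
    obtain ⟨h1, h2, h3, h4, h5, h6⟩ := hh
    exact ⟨h6, h2.symm, h4.symm, h3.symm, h5.symm, h1⟩
  · rw [if_neg hh, if_neg]
    intro hh'
    obtain ⟨h1, h2, h3, h4, h5, h6⟩ := hh'
    exact hh ⟨h6, h2.symm, h4.symm, h3.symm, h5.symm, h1⟩

theorem S4_eq (φ : V → V → V → V → ℝ) :
    ∑ i, ∑ j ∈ univ.erase i, ∑ k ∈ (univ.erase i).erase j,
      ∑ l ∈ ((univ.erase i).erase j).erase k, φ i j k l = S4 φ := by
  unfold S4
  refine sum_congr rfl fun i _ => ?_
  have e1 : ∀ j, (∑ k, ∑ l, if D4 i j k l then φ i j k l else 0) =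
      if i ≠ j then (∑ k ∈ (univ.erase i).erase j,
        ∑ l ∈ ((univ.erase i).erase j).erase k, φ i j k l) else 0 := by
    intro j
    split_ifs with hij
    · have e2 : ∀ k, (∑ l, if D4 i j k l then φ i j k l else 0) =
          if k ≠ i ∧ k ≠ j then (∑ l ∈ ((univ.erase i).erase j).erase k, φ i j k l) else 0 := by
        intro k
        split_ifs with hk
        · rw [← sum_filter]
          refine sum_congr ?_ fun _ _ => rfl
          ext l
          rw [mem_filter]
          simp only [mem_univ, true_and, mem_erase, and_true]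
          constructor
          · rintro ⟨h1, h2, h3, h4, h5, h6⟩; exact ⟨h6.symm, h5.symm, h3.symm⟩
          · rintro ⟨h1, h2, h3⟩; exact ⟨hij, hk.1.symm, h3.symm, hk.2.symm, h2.symm, h1.symm⟩
        · refine sum_eq_zero fun l _ => if_neg ?_
          rintro ⟨h1, h2, h3, h4, h5, h6⟩
          exact hk ⟨h2.symm, h4.symm⟩
      rw [sum_congr rfl fun k _ => e2 k, ← sum_filter]
      refine sum_congr ?_ fun _ _ => rfl
      ext k
      simp only [mem_filter, mem_univ, true_and, mem_erase, and_true]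
      tauto
    · refine sum_eq_zero fun k _ => sum_eq_zero fun l _ => if_neg ?_
      rintro ⟨h1, h2, h3, h4, h5, h6⟩
      exact hij h1
  rw [sum_congr rfl fun j _ => e1 j, ← sum_filter]
  refine sum_congr ?_ fun _ _ => rfl
  ext j
  simp [eq_comm]

theorem S4_nonneg {φ : V → V → V → V → ℝ} (h : ∀ i j k l, D4 i j k l → 0 ≤ φ i j k l) :
    0 ≤ S4 φ := by
  unfold S4
  refine sum_nonneg fun i _ => sum_nonneg fun j _ => sum_nonneg fun k _ => sum_nonneg fun l _ => ?_
  split_ifs with hh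
  · exact h i j k l hh
  · exact le_refl 0

theorem S4_sub (φ ψ : V → V → V → V → ℝ) :
    S4 (fun i j k l => φ i j k l - ψ i j k l) = S4 φ - S4 ψ := by
  unfold S4
  simp only [← sum_sub_distrib]
  refine sum_congr rfl fun i _ => sum_congr rfl fun j _ => sum_congr rfl fun k _ =>
    sum_congr rfl fun l _ => ?_
  split_ifs <;> ring

theorem S4_add (φ ψ : V → V → V → V → ℝ) :
    S4 (fun i j k l => φ i j k l + ψ i j k l) = S4 φ + S4 ψ := by
  unfold S4
  simp only [← sum_add_distrib]
  refine sum_congr rfl fun i _ => sum_congr rfl fun j _ => sum_congr rfl fun k _ =>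
    sum_congr rfl fun l _ => ?_
  split_ifs <;> ring

theorem S4_smul (c : ℝ) (φ : V → V → V → V → ℝ) :
    S4 (fun i j k l => c * φ i j k l) = c * S4 φ := by
  unfold S4
  simp only [mul_sum]
  refine sum_congr rfl fun i _ => sum_congr rfl fun j _ => sum_congr rfl fun k _ =>
    sum_congr rfl fun l _ => ?_
  split_ifs <;> ring

/-- for `i ≠ j`, splitting a sum over ordered pairs `k ≠ l` according to its intersection with
`{i, j}` -/
theorem split_pairs {i j : V} (hij : i ≠ j) (A : V → V → ℝ) (hA : ∀ k l, A k l = A l k) :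
    ∑ k, ∑ l ∈ univ.erase k, A k l = 2 * A i j
      + 2 * ∑ m ∈ (univ.erase i).erase j, (A i m + A j m)
      + ∑ k ∈ (univ.erase i).erase j, ∑ l ∈ ((univ.erase i).erase j).erase k, A k l := by
  have hji : j ∈ univ.erase i := mem_erase.2 ⟨hij.symm, mem_univ j⟩
  rw [← add_sum_erase univ (fun k => ∑ l ∈ univ.erase k, A k l) (mem_univ i),
    ← add_sum_erase (univ.erase i) (fun k => ∑ l ∈ univ.erase k, A k l) hji]
  rw [← add_sum_erase (univ.erase i) (fun l => A i l) hji]
  have hij' : i ∈ univ.erase j := mem_erase.2 ⟨hij, mem_univ i⟩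
  rw [← add_sum_erase (univ.erase j) (fun l => A j l) hij']
  have h3 : ∀ k ∈ (univ.erase i).erase j, ∑ l ∈ univ.erase k, A k l =
      A i k + A j k + ∑ l ∈ ((univ.erase i).erase j).erase k, A k l := by
    intro k hk
    have hkj := (mem_erase.1 hk).1
    have hki := (mem_erase.1 (mem_erase.1 hk).2).1
    have hi : i ∈ univ.erase k := mem_erase.2 ⟨hki.symm, mem_univ i⟩
    have hj : j ∈ (univ.erase k).erase i := mem_erase.2 ⟨hij.symm, mem_erase.2 ⟨hkj.symm, mem_univ j⟩⟩
    rw [← add_sum_erase (univ.erase k) (fun l => A k l) hi,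
      ← add_sum_erase ((univ.erase k).erase i) (fun l => A k l) hj]
    have hset : ((univ.erase k).erase i).erase j = ((univ.erase i).erase j).erase k := by
      ext x; simp only [mem_erase, mem_univ, and_true]; tauto
    rw [hset, hA k i, hA k j]
    ring
  rw [sum_congr rfl h3, sum_add_distrib, sum_add_distrib, hA j i]
  have hset : (univ.erase j).erase i = (univ.erase i).erase j := by
    ext x; simp only [mem_erase, mem_univ, and_true]; tauto
  rw [hset]
  ring

/-- the operator `∑_{(i,j), i ≠ j} P_ij` -/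
noncomputable def Lap (f : Gr V d → ℝ) (x : Gr V d) : ℝ :=
  ∑ i, ∑ j ∈ univ.erase i, Pj (rel i j) f x

theorem ip_sum_left {X ι : Type*} [Fintype X] (s : Finset ι) (f : ι → X → ℝ) (g : X → ℝ) :
    ip (fun x => ∑ i ∈ s, f i x) g = ∑ i ∈ s, ip (f i) g := by
  unfold ip
  rw [sum_comm]
  exact sum_congr rfl fun x _ => sum_mul _ _ _

theorem ip_sum_right {X ι : Type*} [Fintype X] (s : Finset ι) (f : ι → X → ℝ) (g : X → ℝ) :
    ip g (fun x => ∑ i ∈ s, f i x) = ∑ i ∈ s, ip g (f i) := by
  rw [ip_comm, ip_sum_left]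
  exact sum_congr rfl fun i _ => ip_comm _ _

/-- `∑_{(k,l)} ⟨P_ij f, P_kl f⟩ = ⟨P_ij f, Lap f⟩` -/
theorem ip_Lap (g f : Gr V d → ℝ) :
    ip g (Lap f) = ∑ i, ∑ j ∈ univ.erase i, ip g (Pj (rel i j) f) := by
  unfold Lap
  rw [ip_sum_right]
  exact sum_congr rfl fun i _ => ip_sum_right _ _ _

theorem Lap_sq_ge (f : Gr V d → ℝ) : 2 * ip f (Lap f) ≤ ip (Lap f) (Lap f) := by
  have hself : ∀ i j : V, ip (Pj (rel i j) f) (Pj (rel i j) f) = ip f (Pj (rel (d := d) i j) f) :=
    fun i j => ip_Pj_self (rel_equivalence i j) f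
  have hsym : ∀ k l : V, Pj (rel (d := d) k l) f = Pj (rel l k) f := fun k l => by
    rw [rel_symm]
  have h1 : ip (Lap f) (Lap f) = ∑ i, ∑ j ∈ univ.erase i, ∑ k, ∑ l ∈ univ.erase k,
      ip (Pj (rel i j) f) (Pj (rel k l) f) := by
    rw [ip_comm, ip_Lap]
    refine sum_congr rfl fun i _ => sum_congr rfl fun j _ => ?_
    rw [ip_comm, ip_Lap]
  have h2 : ∀ i, ∀ j ∈ univ.erase i, ∑ k, ∑ l ∈ univ.erase k,
      ip (Pj (rel i j) f) (Pj (rel k l) f) = 2 * ip f (Pj (rel (d := d) i j) f)
      + 2 * ∑ m ∈ (univ.erase i).erase j, (ip (Pj (rel i j) f) (Pj (rel i m) f)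
          + ip (Pj (rel i j) f) (Pj (rel j m) f))
      + ∑ k ∈ (univ.erase i).erase j, ∑ l ∈ ((univ.erase i).erase j).erase k,
          ip (Pj (rel i j) f) (Pj (rel k l) f) := by
    intro i j hj
    have hij : i ≠ j := ((mem_erase.1 hj).1).symm
    rw [split_pairs hij (fun k l => ip (Pj (rel i j) f) (Pj (rel k l) f))
      (fun k l => by simp only [hsym k l]), hself]
  rw [h1, sum_congr rfl fun i _ => sum_congr rfl (h2 i)]
  simp only [sum_add_distrib, ← mul_sum]
  rw [ip_Lap]
  -- adjacent pairs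
  have hadj : 0 ≤ ∑ i, ∑ j ∈ univ.erase i, ∑ m ∈ (univ.erase i).erase j,
      (ip (Pj (rel i j) f) (Pj (rel (d := d) i m) f)
        + ip (Pj (rel i j) f) (Pj (rel j m) f)) := by
    have e0 : ∀ φ : V → V → V → ℝ, ∑ i, ∑ j ∈ univ.erase i, ∑ m ∈ (univ.erase i).erase j, φ i j m
        = S3 φ := by
      intro φ
      unfold S3
      refine sum_congr rfl fun i _ => ?_
      rw [← sum_filter_add_sum_filter_not univ (fun j => i ≠ j)]
      have hz : ∑ j ∈ univ.filter (fun j => ¬ i ≠ j), (∑ k, if i ≠ j ∧ i ≠ k ∧ j ≠ k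
          then φ i j k else 0) = 0 := by
        refine sum_eq_zero fun j hj => sum_eq_zero fun k _ => if_neg ?_
        have := (mem_filter.1 hj).2
        tauto
      rw [hz, add_zero]
      have hs : univ.erase i = univ.filter (fun j => i ≠ j) := by
        ext x; simp [eq_comm]
      rw [hs]
      refine sum_congr rfl fun j hj => ?_
      have hij := (mem_filter.1 hj).2
      rw [← hs, ← sum_filter]
      refine sum_congr ?_ fun _ _ => rfl
      ext x
      simp only [mem_erase, mem_univ, and_true, mem_filter, true_and]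
      constructor
      · rintro ⟨h1, h2⟩; exact ⟨hij, fun h => h2 h.symm, fun h => h1 h.symm⟩
      · rintro ⟨h0, h1, h2⟩; exact ⟨fun h => h2 h.symm, fun h => h1 h.symm⟩
    rw [e0 (fun i j m => ip (Pj (rel i j) f) (Pj (rel (d := d) i m) f)
        + ip (Pj (rel i j) f) (Pj (rel j m) f)), S3_add]
    have e1 : S3 (fun i j m : V => ip (Pj (rel i j) f) (Pj (rel (d := d) j m) f))
        = S3 (fun i j m : V => ip (Pj (rel i j) f) (Pj (rel (d := d) i m) f)) := by
      rw [S3_swap]
      unfold S3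
      refine sum_congr rfl fun i _ => sum_congr rfl fun j _ => sum_congr rfl fun k _ => ?_
      dsimp only
      rw [hsym j i]
    have e2 : S3 (fun i j m : V => ip (Pj (rel i m) f) (Pj (rel (d := d) j m) f))
        = S3 (fun i j m : V => ip (Pj (rel i j) f) (Pj (rel (d := d) i m) f)) := by
      -- (i,j,m) ↦ <P_im f, P_jm f>; relabel to <P_ij f, P_im f>
      rw [S3_swap, S3_swap', S3_swap]
      unfold S3
      refine sum_congr rfl fun i _ => sum_congr rfl fun j _ => sum_congr rfl fun k _ => ?_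
      dsimp only
      rw [hsym j i, hsym k i, ip_comm]
    have h3 : 0 ≤ S3 (fun i j m : V => (ip (Pj (rel i j) f) (Pj (rel (d := d) i m) f)
        + ip (Pj (rel i j) f) (Pj (rel (d := d) j m) f))
        + ip (Pj (rel i m) f) (Pj (rel (d := d) j m) f)) :=
      S3_nonneg fun i j k hij hik hjk => three_vertex hij hik hjk f
    rw [S3_add, S3_add, e1, e2] at h3
    rw [e1]
    linarith
  -- disjoint pairs
  have hdis : 0 ≤ ∑ i, ∑ j ∈ univ.erase i, ∑ k ∈ (univ.erase i).erase j,
      ∑ l ∈ ((univ.erase i).erase j).erase k,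
        ip (Pj (rel i j) f) (Pj (rel (d := d) k l) f) := by
    rw [S4_eq (fun i j k l => ip (Pj (rel i j) f) (Pj (rel (d := d) k l) f))]
    have h1 : 0 ≤ S4 (fun i j k l : V => ip (Pj (rel i j) f) (Pj (rel (d := d) k l) f)
        - (F i j k l f - (1 / 2) * (T i j k l f + T k l i j f))) :=
      S4_nonneg fun i j k l h => sub_nonneg.2 (disjoint_ineq h f)
    rw [S4_sub, S4_sub, S4_smul, S4_add, ← S4_swap (fun i j k l : V => T i j k l f)] at h1
    have h2 : S4 (fun i j k l : V => T i j k l f) ≤ S4 (fun i j k l : V => F i j k l f) := by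
      rw [← S4_eq, ← S4_eq]
      refine sum_le_sum fun i _ => sum_le_sum fun j hj => ?_
      exact class_SI ((mem_erase.1 hj).1).symm f
    linarith
  simp only [sum_add_distrib] at hadj
  linarith

/-- `Lap` as a linear map -/
noncomputable def LapL : (Gr V d → ℝ) →ₗ[ℝ] (Gr V d → ℝ) where
  toFun := Lap
  map_add' f g := by
    funext x
    simp only [Lap, Pj, Ex_add, Pi.add_apply, ← sum_add_distrib]
    refine sum_congr rfl fun i _ => sum_congr rfl fun j _ => ?_
    ring
  map_smul' c f := by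
    funext x
    simp only [Lap, Pj, Ex_smul, Pi.smul_apply, smul_eq_mul, RingHom.id_apply, mul_sum]
    refine sum_congr rfl fun i _ => sum_congr rfl fun j _ => ?_
    ring

theorem gap (f : Gr V d → ℝ) (hf : ∑ x, f x = 0) :
    ∑ x, f x ^ 2 ≤ (1 / 2) * ∑ i, ∑ j ∈ univ.erase i, ip (Pj (rel i j) f) (Pj (rel i j) f) := by
  have hself : ∀ (f : Gr V d → ℝ) (i j : V),
      ip f (Pj (rel (d := d) i j) f) = ip (Pj (rel i j) f) (Pj (rel i j) f) :=
    fun f i j => (ip_Pj_self (rel_equivalence i j) f).symm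
  have hip : ∀ f : Gr V d → ℝ, ip f (LapL f) =
      ∑ i, ∑ j ∈ univ.erase i, ip (Pj (rel i j) f) (Pj (rel i j) f) := by
    intro f
    show ip f (Lap f) = _
    rw [ip_Lap]
    exact sum_congr rfl fun i _ => sum_congr rfl fun j _ => hself f i j
  have h := gap_transfer (X := Gr V d) LapL ?_ ?_ 2 two_pos ?_ ?_ f hf
  · have e : ip f f = ∑ x, f x ^ 2 := by
      unfold ip; exact sum_congr rfl fun x _ => (sq (f x)).symm
    rw [e, hip] at h
    linarith
  · intro f g
    show ip (Lap f) g = ip f (Lap g)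
    rw [ip_comm, ip_Lap, ip_Lap]
    refine sum_congr rfl fun i _ => sum_congr rfl fun j _ => ?_
    rw [ip_comm, ip_Pj_left (rel_equivalence i j)]
  · intro f
    rw [hip]
    exact sum_nonneg fun i _ => sum_nonneg fun j _ => ip_self_nonneg _
  · intro f
    exact Lap_sq_ge f
  · intro f hf0
    have h0 : ∑ i, ∑ j ∈ univ.erase i, ip (Pj (rel i j) f) (Pj (rel (d := d) i j) f) = 0 := by
      rw [← hip, hf0]
      unfold ip
      simp
    refine connected f fun i j hij x y hxy => ?_
    have h1 := (sum_eq_zero_iff_of_nonneg (fun i _ => sum_nonneg fun j _ =>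
      ip_self_nonneg (Pj (rel (d := d) i j) f))).1 h0 i (mem_univ i)
    have h2 := (sum_eq_zero_iff_of_nonneg (fun j _ =>
      ip_self_nonneg (Pj (rel (d := d) i j) f))).1 h1 j (mem_erase.2 ⟨hij.symm, mem_univ j⟩)
    have h3 := ip_self_eq_zero.1 h2
    have hx : f x = Ex (rel i j) f x := by
      have := congrFun h3 x
      simp only [Pj, Pi.zero_apply] at this
      linarith
    have hy : f y = Ex (rel i j) f y := by
      have := congrFun h3 y
      simp only [Pj, Pi.zero_apply] at this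
      linarith
    rw [hx, hy, Ex_congr (rel_equivalence i j) f hxy]

theorem switch_gap (f : Gr V d → ℝ) (hf : ∑ x, f x = 0) :
    ∑ x, f x ^ 2 ≤ (1 / 4) * ∑ i, ∑ j ∈ univ.erase i, ∑ k ∈ (univ.erase i).erase j,
      ∑ l ∈ ((univ.erase i).erase j).erase k, F i j k l f := by
  refine (gap f hf).trans ?_
  have h : 2 * ∑ i, ∑ j ∈ univ.erase i, ip (Pj (rel i j) f) (Pj (rel (d := d) i j) f) ≤
      ∑ i, ∑ j ∈ univ.erase i, ∑ k ∈ (univ.erase i).erase j,
      ∑ l ∈ ((univ.erase i).erase j).erase k, F i j k l f := by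
    rw [mul_sum]
    refine sum_le_sum fun i _ => ?_
    rw [mul_sum]
    refine sum_le_sum fun j hj => ?_
    exact class_poincare ((mem_erase.1 hj).1).symm f
  linarith

end Assembly

end Vale.P335
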