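import Mathlib

/-!
# P335 — generic mixing bound

A symmetric lazy Markov matrix with spectral gap `γ` (in Dirichlet form) is within total variation
distance `½ √N (1 - γ)^t` of the uniform distribution after `t` steps.
-/

namespace Vale.P335

open Finset

namespace Mix

variable {Ω : Type*} [Fintype Ω] {P : Matrix Ω Ω ℝ}

/-- the bilinear form of `P` -/
def B (P : Matrix Ω Ω ℝ) (f g : Ω → ℝ) : ℝ := ∑ x, ∑ y, f x * P x y * g y

/-- one step, acting on row vectors -/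
def step (P : Matrix Ω Ω ℝ) (f : Ω → ℝ) (y : Ω) : ℝ := ∑ x, f x * P x y

theorem sum_sq_add (hsymm : ∀ x y, P x y = P y x) (hrow : ∀ x, ∑ y, P x y = 1)
    (f : Ω → ℝ) (s : ℝ) :
    1 / 2 * ∑ x, ∑ y, P x y * (f x + s * f y) ^ 2
      = (1 + s ^ 2) / 2 * ∑ x, f x ^ 2 + s * B P f f := by
  have e1 : ∑ x, ∑ y, P x y * f x ^ 2 = ∑ x, f x ^ 2 := by
    refine sum_congr rfl fun x _ => ?_
    rw [← sum_mul, hrow, one_mul]
  have e2 : ∑ x, ∑ y, P x y * f y ^ 2 = ∑ x, f x ^ 2 := by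
    rw [sum_comm]
    refine sum_congr rfl fun y _ => ?_
    rw [← sum_mul]
    have : ∑ x, P x y = 1 := by
      rw [← hrow y]
      exact sum_congr rfl fun x _ => hsymm x y
    rw [this, one_mul]
  have e3 : ∑ x, ∑ y, P x y * (f x + s * f y) ^ 2
      = ∑ x, ∑ y, P x y * f x ^ 2 + s ^ 2 * ∑ x, ∑ y, P x y * f y ^ 2 + 2 * s * B P f f := by
    unfold B
    rw [mul_sum, mul_sum, ← sum_add_distrib, ← sum_add_distrib]
    refine sum_congr rfl fun x _ => ?_
    rw [mul_sum, mul_sum, ← sum_add_distrib, ← sum_add_distrib]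
    refine sum_congr rfl fun y _ => ?_
    ring
  rw [e3, e1, e2]
  ring

theorem B_nonneg (hsymm : ∀ x y, P x y = P y x) (hnonneg : ∀ x y, 0 ≤ P x y)
    (hrow : ∀ x, ∑ y, P x y = 1) (hlazy : ∀ x, 1 / 2 ≤ P x x) (f : Ω → ℝ) : 0 ≤ B P f f := by
  have h := sum_sq_add hsymm hrow f 1
  have h2 : ∑ x, 2 * f x ^ 2 ≤ ∑ x, ∑ y, P x y * (f x + 1 * f y) ^ 2 := by
    refine sum_le_sum fun x _ => ?_
    have h3 : P x x * (f x + 1 * f x) ^ 2 ≤ ∑ y, P x y * (f x + 1 * f y) ^ 2 :=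
      single_le_sum (f := fun y => P x y * (f x + 1 * f y) ^ 2)
        (fun y _ => mul_nonneg (hnonneg x y) (sq_nonneg _)) (mem_univ x)
    refine le_trans ?_ h3
    nlinarith [hlazy x, sq_nonneg (f x)]
  rw [← mul_sum] at h2
  nlinarith

theorem B_step (f : Ω → ℝ) (g : Ω → ℝ) : B P f g = ∑ y, step P f y * g y := by
  unfold B step
  rw [sum_comm]
  refine sum_congr rfl fun y _ => ?_
  rw [sum_mul]

theorem B_symm (hsymm : ∀ x y, P x y = P y x) (f g : Ω → ℝ) : B P f g = B P g f := by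
  unfold B
  rw [sum_comm]
  refine sum_congr rfl fun y _ => sum_congr rfl fun x _ => ?_
  rw [hsymm x y]
  ring

theorem B_add (f g : Ω → ℝ) (hsymm : ∀ x y, P x y = P y x) (s : ℝ) :
    B P (fun x => f x + s * g x) (fun x => f x + s * g x)
      = B P g g * (s * s) + 2 * B P f g * s + B P f f := by
  have e := B_symm hsymm f g
  have : B P (fun x => f x + s * g x) (fun x => f x + s * g x)
      = B P f f + s * B P f g + s * B P g f + s * s * B P g g := by
    unfold B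
    rw [mul_sum, mul_sum, mul_sum, ← sum_add_distrib, ← sum_add_distrib, ← sum_add_distrib]
    refine sum_congr rfl fun x _ => ?_
    rw [mul_sum, mul_sum, mul_sum, ← sum_add_distrib, ← sum_add_distrib, ← sum_add_distrib]
    refine sum_congr rfl fun y _ => ?_
    ring
  rw [this, ← e]
  ring

theorem B_cs (hsymm : ∀ x y, P x y = P y x) (hnonneg : ∀ x y, 0 ≤ P x y)
    (hrow : ∀ x, ∑ y, P x y = 1) (hlazy : ∀ x, 1 / 2 ≤ P x x) (f g : Ω → ℝ) :
    (B P f g) ^ 2 ≤ B P f f * B P g g := by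
  have h : discrim (B P g g) (2 * B P f g) (B P f f) ≤ 0 := by
    apply discrim_le_zero
    intro s
    rw [← B_add f g hsymm s]
    exact B_nonneg hsymm hnonneg hrow hlazy _
  unfold discrim at h
  nlinarith

theorem sum_step (hrow : ∀ x, ∑ y, P x y = 1) (f : Ω → ℝ) :
    ∑ y, step P f y = ∑ x, f x := by
  unfold step
  rw [sum_comm]
  refine sum_congr rfl fun x _ => ?_
  rw [← mul_sum, hrow, mul_one]

theorem step_contract (hsymm : ∀ x y, P x y = P y x) (hnonneg : ∀ x y, 0 ≤ P x y)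
    (hrow : ∀ x, ∑ y, P x y = 1) (hlazy : ∀ x, 1 / 2 ≤ P x x) {γ : ℝ} (hγ1 : γ ≤ 1)
    (hgap : ∀ f : Ω → ℝ, ∑ x, f x = 0 →
      γ * ∑ x, f x ^ 2 ≤ 1 / 2 * ∑ x, ∑ y, P x y * (f x - f y) ^ 2)
    (f : Ω → ℝ) (hf : ∑ x, f x = 0) :
    ∑ y, step P f y ^ 2 ≤ (1 - γ) ^ 2 * ∑ x, f x ^ 2 := by
  have hB : ∀ g : Ω → ℝ, ∑ x, g x = 0 → B P g g ≤ (1 - γ) * ∑ x, g x ^ 2 := by
    intro g hg
    have h1 := hgap g hg
    have h2 := sum_sq_add hsymm hrow g (-1)
    have h3 : ∑ x, ∑ y, P x y * (g x + -1 * g y) ^ 2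
        = ∑ x, ∑ y, P x y * (g x - g y) ^ 2 := by
      refine sum_congr rfl fun x _ => sum_congr rfl fun y _ => ?_
      ring
    rw [h3] at h2
    nlinarith
  have hs : ∑ x, step P f x = 0 := by rw [sum_step hrow, hf]
  have h1 := hB f hf
  have h2 := hB (step P f) hs
  have h3 := B_cs hsymm hnonneg hrow hlazy f (step P f)
  have h4 : B P f (step P f) = ∑ y, step P f y ^ 2 := by
    rw [B_step]
    exact sum_congr rfl fun y _ => by ring
  have h5 := B_nonneg hsymm hnonneg hrow hlazy f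
  have h6 := B_nonneg hsymm hnonneg hrow hlazy (step P f)
  rw [h4] at h3
  set b := ∑ y, step P f y ^ 2 with hb
  set F := ∑ x, f x ^ 2 with hF
  have hb0 : 0 ≤ b := sum_nonneg fun y _ => sq_nonneg _
  have hF0 : 0 ≤ F := sum_nonneg fun y _ => sq_nonneg _
  have hg : 0 ≤ 1 - γ := by linarith
  have h7 : B P f f * B P (step P f) (step P f) ≤ ((1 - γ) * F) * ((1 - γ) * b) :=
    mul_le_mul h1 h2 h6 (by positivity)
  rcases hb0.eq_or_lt with h0 | h0
  · rw [← h0]
    positivity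
  · have h8 : b * b ≤ ((1 - γ) ^ 2 * F) * b := by nlinarith
    exact le_of_mul_le_mul_right h8 h0

end Mix

/-- Mixing from the Dirichlet form bound. -/
theorem mixing {Ω : Type*} [Fintype Ω] [DecidableEq Ω] (P : Matrix Ω Ω ℝ)
    (hsymm : ∀ x y, P x y = P y x) (hnonneg : ∀ x y, 0 ≤ P x y)
    (hrow : ∀ x, ∑ y, P x y = 1) (hlazy : ∀ x, 1 / 2 ≤ P x x) (γ : ℝ) (hγ1 : γ ≤ 1)
    (hgap : ∀ f : Ω → ℝ, ∑ x, f x = 0 →
      γ * ∑ x, f x ^ 2 ≤ 1 / 2 * ∑ x, ∑ y, P x y * (f x - f y) ^ 2)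
    (t : ℕ) (x : Ω) :
    1 / 2 * ∑ y, |(P ^ t) x y - 1 / (Fintype.card Ω : ℝ)|
      ≤ 1 / 2 * (Real.sqrt (Fintype.card Ω) * (1 - γ) ^ t) := by
  have hN : (0 : ℝ) < Fintype.card Ω := by
    exact_mod_cast Fintype.card_pos_iff.2 ⟨x⟩
  have hg : 0 ≤ 1 - γ := by linarith
  set h : ℕ → Ω → ℝ := fun t y => (P ^ t) x y - 1 / (Fintype.card Ω : ℝ) with hh
  have hcol : ∀ y, ∑ z, P z y = 1 := fun y => by
    rw [← hrow y]
    exact sum_congr rfl fun z _ => hsymm z y
  have hstep : ∀ t y, h (t + 1) y = Mix.step P (h t) y := by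
    intro t y
    simp only [hh, Mix.step]
    rw [pow_succ, Matrix.mul_apply]
    simp only [sub_mul, sum_sub_distrib]
    rw [← mul_sum, hcol, mul_one]
  have hsum : ∀ t, ∑ y, h t y = 0 := by
    intro t
    induction t with
    | zero =>
      simp only [hh, pow_zero, Matrix.one_apply, sum_sub_distrib]
      rw [sum_ite_eq]
      simp only [mem_univ, if_true, sum_const, card_univ, nsmul_eq_mul]
      field_simp
      ring
    | succ t ih =>
      rw [show (fun y => h (t + 1) y) = Mix.step P (h t) from funext (hstep t)] at *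
      rw [Mix.sum_step hrow, ih]
  have hnorm : ∀ t, ∑ y, h t y ^ 2 ≤ ((1 - γ) ^ t) ^ 2 := by
    intro t
    induction t with
    | zero =>
      have e : ∑ y, h 0 y ^ 2 = 1 - 1 / (Fintype.card Ω : ℝ) := by
        have e1 : ∀ y, h 0 y ^ 2 = (if x = y then 1 else 0) * (1 - 2 / (Fintype.card Ω : ℝ))
            + (1 / (Fintype.card Ω : ℝ)) ^ 2 := by
          intro y
          simp only [hh, pow_zero, Matrix.one_apply]
          by_cases hxy : x = y
          · simp only [hxy, if_true]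
            ring
          · simp only [hxy, if_false]
            ring
        rw [sum_congr rfl fun y _ => e1 y, sum_add_distrib, ← sum_mul, sum_ite_eq]
        simp only [mem_univ, if_true, sum_const, card_univ, nsmul_eq_mul]
        field_simp
        ring
      rw [e]
      have : 0 < 1 / (Fintype.card Ω : ℝ) := by positivity
      simp only [pow_zero, one_pow]
      linarith
    | succ t ih =>
      have h1 := Mix.step_contract hsymm hnonneg hrow hlazy hγ1 hgap (h t) (hsum t)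
      have h2 : ∑ y, h (t + 1) y ^ 2 = ∑ y, Mix.step P (h t) y ^ 2 :=
        sum_congr rfl fun y _ => by rw [hstep]
      rw [h2]
      refine h1.trans ?_
      calc (1 - γ) ^ 2 * ∑ y, h t y ^ 2 ≤ (1 - γ) ^ 2 * ((1 - γ) ^ t) ^ 2 := by
            apply mul_le_mul_of_nonneg_left ih (sq_nonneg _)
        _ = ((1 - γ) ^ (t + 1)) ^ 2 := by ring
  apply mul_le_mul_of_nonneg_left _ (by norm_num)
  -- Cauchy–Schwarz
  have hcs : (∑ y, |h t y|) ^ 2 ≤ (Fintype.card Ω : ℝ) * ∑ y, h t y ^ 2 := by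
    have := sq_sum_le_card_mul_sum_sq (s := (univ : Finset Ω)) (f := fun y => |h t y|)
    simpa [card_univ, sq_abs] using this
  have hfin : (∑ y, |h t y|) ^ 2 ≤ (Real.sqrt (Fintype.card Ω) * (1 - γ) ^ t) ^ 2 := by
    rw [mul_pow, Real.sq_sqrt hN.le]
    exact hcs.trans (mul_le_mul_of_nonneg_left (hnorm t) hN.le)
  exact le_of_sq_le_sq hfin (by positivity)

end Vale.P335
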