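import Vale.Agent.P335.ChainB
import Vale.Agent.P335.Gap
import Vale.Agent.P335.Mixing

/-!
# P335 — M9c: the switch chain is symmetric, stochastic and lazy, and its Dirichlet form
-/

namespace Vale.P335

open Finset

variable {n : ℕ} {d : Fin n → ℕ}

open Classical in
/-- the off-diagonal part of the chain (without the factor `1/2`) -/
noncomputable def jump (G G' : OmegaD n d) : ℝ :=
  (1 / (n.choose 4 : ℝ)) * ∑ S ∈ powersetCard 4 (univ : Finset (Fin n)),
      (1 / 6 : ℝ) * ∑ p ∈ (matchings S).offDiag, if G'.1 = move p.1 p.2 G.1 then 1 else 0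

theorem chain_eq (G G' : OmegaD n d) :
    chain n d G G' = 1 / 2 * (if G' = G then 1 else 0) + 1 / 2 * jump G G' := by
  unfold chain jump
  congr

theorem jump_nonneg (G G' : OmegaD n d) : 0 ≤ jump G G' := by
  unfold jump
  refine mul_nonneg (by positivity) (sum_nonneg fun S _ => mul_nonneg (by norm_num)
    (sum_nonneg fun p _ => ?_))
  split_ifs <;> norm_num

theorem chain_nonneg (G G' : OmegaD n d) : 0 ≤ chain n d G G' := by
  rw [chain_eq]
  have := jump_nonneg G G'
  split_ifs <;> linarith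

theorem chain_lazy (G : OmegaD n d) : 1 / 2 ≤ chain n d G G := by
  rw [chain_eq, if_pos rfl]
  have := jump_nonneg G G
  linarith

theorem not_isDiag_of_mem {S : Finset (Fin n)} {F : Finset (Sym2 (Fin n))}
    (hF : F ∈ matchings S) : ∀ e ∈ F, ¬ e.IsDiag :=
  fun e he => ((mem_matchings.1 hF).1 e he).1

theorem jump_symm (G G' : OmegaD n d) : jump G G' = jump G' G := by
  by_cases h : G' = G
  · rw [h]
  have h' : G'.1 ≠ G.1 := fun e => h (Subtype.ext e)
  unfold jump
  congr 1
  refine sum_congr rfl fun S _ => ?_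
  congr 1
  refine sum_nbij' (fun p => (p.2, p.1)) (fun p => (p.2, p.1)) ?_ ?_ ?_ ?_ ?_
  · intro p hp
    rw [mem_offDiag] at hp ⊢
    exact ⟨hp.2.1, hp.1, hp.2.2.symm⟩
  · intro p hp
    rw [mem_offDiag] at hp ⊢
    exact ⟨hp.2.1, hp.1, hp.2.2.symm⟩
  · intro p _; rfl
  · intro p _; rfl
  · intro p hp
    rw [mem_offDiag] at hp
    have hiff := move_symm_iff (not_isDiag_of_mem hp.1) (not_isDiag_of_mem hp.2.1) h'
    by_cases hc : G'.1 = move p.1 p.2 G.1
    · rw [if_pos hc, if_pos (hiff.1 hc)]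
    · rw [if_neg hc, if_neg (fun h2 => hc (hiff.2 h2))]

theorem chain_symm (G G' : OmegaD n d) : chain n d G G' = chain n d G' G := by
  rw [chain_eq, chain_eq, jump_symm]
  congr 2
  exact if_congr eq_comm rfl rfl

theorem jump_row (hn : 4 ≤ n) (G : OmegaD n d) : ∑ G', jump G G' = 1 := by
  classical
  unfold jump
  rw [← mul_sum, sum_comm]
  have h1 : ∀ S ∈ powersetCard 4 (univ : Finset (Fin n)),
      ∑ G' : OmegaD n d, (1 / 6 : ℝ) * ∑ p ∈ (matchings S).offDiag,
        (if G'.1 = move p.1 p.2 G.1 then 1 else 0) = 1 := by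
    intro S hS
    rw [← mul_sum, sum_comm]
    have h2 : ∀ p ∈ (matchings S).offDiag,
        ∑ G' : OmegaD n d, (if G'.1 = move p.1 p.2 G.1 then (1 : ℝ) else 0) = 1 := by
      intro p hp
      obtain ⟨G0, hG0⟩ := move_mem hS hp G
      rw [sum_eq_single G0]
      · rw [if_pos hG0]
      · intro G' _ hne
        rw [if_neg]
        intro h3
        exact hne (Subtype.ext (h3.trans hG0.symm))
      · intro h3
        exact absurd (mem_univ _) h3
    rw [sum_congr rfl h2, sum_const, card_offDiag_matchings hS]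
    norm_num
  rw [sum_congr rfl h1, sum_const, card_powersetCard, card_univ, Fintype.card_fin]
  have : (0 : ℝ) < (n.choose 4 : ℝ) := by
    exact_mod_cast Nat.choose_pos hn
  rw [nsmul_eq_mul, mul_one]
  field_simp

theorem chain_row (hn : 4 ≤ n) (G : OmegaD n d) : ∑ G', chain n d G G' = 1 := by
  simp only [chain_eq]
  rw [sum_add_distrib, ← mul_sum, ← mul_sum, jump_row hn, sum_ite_eq' univ G]
  simp
  norm_num

end Vale.P335
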