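import Vale.Agent.P335.ChainC

/-!
# P335 — M9d: comparison of the Dirichlet form of the switch chain with the flips
-/

namespace Vale.P335

open Finset

variable {n : ℕ} {d : Fin n → ℕ}

open Classical in
/-- the local Dirichlet energy of the 4-set `S` -/
noncomputable def locE (f : OmegaD n d → ℝ) (S : Finset (Fin n)) : ℝ :=
  ∑ G : OmegaD n d, ∑ G' : OmegaD n d, ∑ p ∈ (matchings S).offDiag,
    (if G'.1 = move p.1 p.2 G.1 then (1 : ℝ) else 0) * (f G - f G') ^ 2

theorem locE_nonneg (f : OmegaD n d → ℝ) (S : Finset (Fin n)) : 0 ≤ locE f S := by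
  unfold locE
  refine sum_nonneg fun G _ => sum_nonneg fun G' _ => sum_nonneg fun p _ =>
    mul_nonneg ?_ (sq_nonneg _)
  split_ifs <;> norm_num

theorem dirichlet_eq (f : OmegaD n d → ℝ) :
    1 / 2 * ∑ G, ∑ G', chain n d G G' * (f G - f G') ^ 2 =
      1 / (24 * (n.choose 4 : ℝ)) * ∑ S ∈ powersetCard 4 (univ : Finset (Fin n)), locE f S := by
  classical
  have h1 : ∀ G G' : OmegaD n d, chain n d G G' * (f G - f G') ^ 2 =
      1 / (12 * (n.choose 4 : ℝ)) * ∑ S ∈ powersetCard 4 (univ : Finset (Fin n)),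
        ∑ p ∈ (matchings S).offDiag,
          (if G'.1 = move p.1 p.2 G.1 then (1 : ℝ) else 0) * (f G - f G') ^ 2 := by
    intro G G'
    have e1 : (if G' = G then (1 : ℝ) else 0) * (f G - f G') ^ 2 = 0 := by
      by_cases h : G' = G
      · rw [h]; simp
      · rw [if_neg h, zero_mul]
    rw [chain_eq, add_mul, mul_assoc (1 / 2), e1, mul_zero, zero_add]
    unfold jump
    simp only [← sum_mul, ← mul_sum]
    have : (1 : ℝ) / (12 * (n.choose 4 : ℝ)) = 1 / 2 * (1 / (n.choose 4 : ℝ) * (1 / 6)) := by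
      rw [div_mul_div_comm, div_mul_div_comm]
      congr 1 <;> ring
    rw [this]
    ring
  simp only [h1, ← mul_sum]
  unfold locE
  have h2 : ∑ G : OmegaD n d, ∑ G' : OmegaD n d, ∑ S ∈ powersetCard 4 (univ : Finset (Fin n)),
        ∑ p ∈ (matchings S).offDiag,
          (if G'.1 = move p.1 p.2 G.1 then (1 : ℝ) else 0) * (f G - f G') ^ 2 =
      ∑ S ∈ powersetCard 4 (univ : Finset (Fin n)), ∑ G : OmegaD n d, ∑ G' : OmegaD n d,
        ∑ p ∈ (matchings S).offDiag,
          (if G'.1 = move p.1 p.2 G.1 then (1 : ℝ) else 0) * (f G - f G') ^ 2 := by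
    rw [sum_comm' (s := powersetCard 4 (univ : Finset (Fin n))) (t := fun _ => univ)
      (t' := univ) (s' := fun _ => powersetCard 4 (univ : Finset (Fin n))) (by simp)]
    refine sum_congr rfl fun G _ => ?_
    rw [sum_comm]
  rw [h2, ← mul_assoc]
  congr 1
  rw [div_mul_div_comm]
  congr 1 <;> ring

theorem flipM_swapKL (i j k l : Fin n) (x : Fin n → Fin n → Bool) :
    flipM i j l k x = flipM i j k l x := by
  funext u v
  unfold flipM
  refine if_congr ?_ rfl rfl
  tauto

theorem flip_swapKL {i j k l : Fin n} (h : D4 i j k l) (x : Gr (Fin n) d)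
    (halt : alt i j k l x) : flip i j l k x = flip i j k l x := by
  have h' : D4 i j l k := ⟨h.1, h.2.2.1, h.2.1, h.2.2.2.2.1, h.2.2.2.1, h.2.2.2.2.2.symm⟩
  have halt' : alt i j l k x := ⟨halt.2.1, halt.1, halt.2.2.symm⟩
  have e : flip i j k l x = ⟨_, flipM_mem h x halt⟩ := dif_pos ⟨h, halt⟩
  have e' : flip i j l k x = ⟨_, flipM_mem h' x halt'⟩ := dif_pos ⟨h', halt'⟩
  rw [e, e']
  apply Subtype.ext
  exact flipM_swapKL i j k l x.1

theorem mem_offDiag_of_D4 {i j k l : Fin n} (h : D4 i j k l) :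
    (({s(i, k), s(j, l)}, {s(i, l), s(j, k)}) :
      Finset (Sym2 (Fin n)) × Finset (Sym2 (Fin n))) ∈
      (matchings ({i, j, k, l} : Finset (Fin n))).offDiag := by
  obtain ⟨hij, hik, hil, hjk, hjl, hkl⟩ := h
  rw [mem_offDiag]
  refine ⟨?_, ?_, ?_⟩
  · have : ({i, j, k, l} : Finset (Fin n)) = {i, k, j, l} := by
      ext v; simp; tauto
    rw [this]
    exact pair_mem ⟨hik, hij, hil, hjk.symm, hkl, hjl⟩
  · have : ({i, j, k, l} : Finset (Fin n)) = {i, l, j, k} := by
      ext v; simp; tauto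
    rw [this]
    exact pair_mem ⟨hil, hij, hik, hjl.symm, hkl.symm, hjk⟩
  · exact pair_ne ⟨hik, hij, hil, hjk.symm, hkl, hjl⟩ hkl

theorem single_le_locE (f : OmegaD n d → ℝ) {S : Finset (Fin n)} (G G0 : OmegaD n d)
    {p : Finset (Sym2 (Fin n)) × Finset (Sym2 (Fin n))} (hp : p ∈ (matchings S).offDiag)
    (hG : G0.1 = move p.1 p.2 G.1) [∀ G' : OmegaD n d, ∀ p : Finset (Sym2 (Fin n)) ×
      Finset (Sym2 (Fin n)), Decidable (G'.1 = move p.1 p.2 G.1)] :
    (f G - f G0) ^ 2 ≤ ∑ G' : OmegaD n d, ∑ p ∈ (matchings S).offDiag,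
      (if G'.1 = move p.1 p.2 G.1 then (1 : ℝ) else 0) * (f G - f G') ^ 2 := by
  have h1 : ∀ G' : OmegaD n d, ∀ p : Finset (Sym2 (Fin n)) × Finset (Sym2 (Fin n)),
      0 ≤ (if G'.1 = move p.1 p.2 G.1 then (1 : ℝ) else 0) * (f G - f G') ^ 2 := by
    intro G' p
    refine mul_nonneg ?_ (sq_nonneg _)
    split_ifs <;> norm_num
  calc (f G - f G0) ^ 2
      = (if G0.1 = move p.1 p.2 G.1 then (1 : ℝ) else 0) * (f G - f G0) ^ 2 := by
        rw [if_pos hG, one_mul]
    _ ≤ ∑ p ∈ (matchings S).offDiag,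
        (if G0.1 = move p.1 p.2 G.1 then (1 : ℝ) else 0) * (f G - f G0) ^ 2 :=
        single_le_sum (f := fun p : Finset (Sym2 (Fin n)) × Finset (Sym2 (Fin n)) =>
          (if G0.1 = move p.1 p.2 G.1 then (1 : ℝ) else 0) * (f G - f G0) ^ 2)
          (fun p _ => h1 G0 p) hp
    _ ≤ _ := single_le_sum (f := fun G' : OmegaD n d => ∑ p ∈ (matchings S).offDiag,
          (if G'.1 = move p.1 p.2 G.1 then (1 : ℝ) else 0) * (f G - f G') ^ 2)
          (fun G' _ => sum_nonneg fun p _ => h1 G' p) (mem_univ G0)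

theorem flip_le_locE {i j k l : Fin n} (h : D4 i j k l) (g : Gr (Fin n) d → ℝ) :
    ∑ x : Gr (Fin n) d, (g x - g (flip i j k l x)) ^ 2 ≤
      locE (fun G => g (toGr G)) {i, j, k, l} := by
  classical
  rw [← eGr.sum_comp]
  unfold locE
  refine sum_le_sum fun G _ => ?_
  show (g (toGr G) - g (flip i j k l (toGr G))) ^ 2 ≤ _
  have hr : ∀ x : Gr (Fin n) d, toGr (ofGr x) = x := eGr.right_inv
  have hnn : 0 ≤ ∑ G' : OmegaD n d, ∑ p ∈ (matchings ({i, j, k, l} : Finset (Fin n))).offDiag,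
      (if G'.1 = move p.1 p.2 G.1 then (1 : ℝ) else 0) * (g (toGr G) - g (toGr G')) ^ 2 := by
    refine sum_nonneg fun G' _ => sum_nonneg fun p _ => mul_nonneg ?_ (sq_nonneg _)
    split_ifs <;> norm_num
  by_cases halt : alt i j k l (toGr G)
  · obtain ⟨a1, a2, a3⟩ := halt
    have hh := h
    obtain ⟨hij, hik, hil, hjk, hjl, hkl⟩ := h
    by_cases hx : (toGr G).1 i k = true
    · have b3 : ¬ (toGr G).1 i l = true := fun h3 => a3 (hx.trans h3.symm)
      have hm := move_eq_flip hh G ((toGr_val G i k).1 hx) ((toGr_val G j l).1 (a1 ▸ hx))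
        (fun h3 => b3 ((toGr_val G i l).2 h3))
        (fun h3 => b3 (a2 ▸ ((toGr_val G j k).2 h3)))
      have := single_le_locE (fun G => g (toGr G)) G (ofGr (flip i j k l (toGr G)))
        (mem_offDiag_of_D4 hh) hm.symm
      rw [hr] at this
      exact this
    · have b3 : (toGr G).1 i l = true := by
        cases h4 : (toGr G).1 i l
        · rw [h4] at a3
          rw [Bool.not_eq_true] at hx
          exact absurd hx a3
        · rfl
      have hh' : D4 i j l k := ⟨hij, hil, hik, hjl, hjk, hkl.symm⟩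
      have hm := move_eq_flip hh' G ((toGr_val G i l).1 b3) ((toGr_val G j k).1 (a2 ▸ b3))
        (fun h3 => hx ((toGr_val G i k).2 h3))
        (fun h3 => hx (a1 ▸ ((toGr_val G j l).2 h3)))
      have hset : ({i, j, l, k} : Finset (Fin n)) = {i, j, k, l} := by
        ext v; simp; tauto
      have hp := mem_offDiag_of_D4 hh'
      rw [hset] at hp
      have := single_le_locE (fun G => g (toGr G)) G (ofGr (flip i j l k (toGr G)))
        hp hm.symm
      rw [hr, flip_swapKL hh _ ⟨a1, a2, a3⟩] at this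
      exact this
  · have : flip i j k l (toGr G) = toGr G := dif_neg (fun h3 => halt h3.2)
    rw [this, sub_self]
    simpa using hnn

/-- at most 24 labellings of a 4-set -/
theorem nest_le (S : Finset (Fin n)) (hS : S.card = 4) {c : ℝ} (hc : 0 ≤ c) :
    ∑ i, ∑ j ∈ univ.erase i, ∑ k ∈ (univ.erase i).erase j,
      ∑ l ∈ ((univ.erase i).erase j).erase k, (if S = {i, j, k, l} then c else 0) ≤ 24 * c := by
  have h3 : ∀ i, ∀ j ∈ univ.erase i, ∀ k ∈ (univ.erase i).erase j,
      ∑ l ∈ ((univ.erase i).erase j).erase k, (if S = {i, j, k, l} then c else 0) ≤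
        if i ∈ S ∧ j ∈ S ∧ k ∈ S then c else 0 := by
    intro i j hj k hk
    have hji := (mem_erase.1 hj).1
    have hkj := (mem_erase.1 hk).1
    have hki := (mem_erase.1 (mem_erase.1 hk).2).1
    split_ifs with h
    · obtain ⟨hi, hj', hk'⟩ := h
      rw [← sum_filter, sum_const, nsmul_eq_mul]
      have hsub : (((univ.erase i).erase j).erase k).filter (fun l => S = {i, j, k, l}) ⊆
          ((S.erase i).erase j).erase k := by
        intro l hl
        rw [mem_filter] at hl
        obtain ⟨hl1, hl2⟩ := hl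
        simp only [mem_erase, mem_univ, and_true] at hl1 ⊢
        refine ⟨hl1.1, hl1.2.1, hl1.2.2, ?_⟩
        rw [hl2]; simp
      have hcard : (((S.erase i).erase j).erase k).card = 1 := by
        rw [card_erase_of_mem, card_erase_of_mem, card_erase_of_mem hi, hS]
        · exact mem_erase.2 ⟨hji, hj'⟩
        · exact mem_erase.2 ⟨hkj, mem_erase.2 ⟨hki, hk'⟩⟩
      have h1 : ((((univ.erase i).erase j).erase k).filter
          (fun l => S = {i, j, k, l})).card ≤ 1 := hcard ▸ card_le_card hsub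
      have h2 : (((((univ.erase i).erase j).erase k).filter
          (fun l => S = {i, j, k, l})).card : ℝ) ≤ 1 := by exact_mod_cast h1
      nlinarith
    · refine le_of_eq (sum_eq_zero fun l _ => if_neg ?_)
      intro hl
      apply h
      rw [hl]
      simp
  have h2 : ∀ i, ∀ j ∈ univ.erase i, ∑ k ∈ (univ.erase i).erase j,
      (if i ∈ S ∧ j ∈ S ∧ k ∈ S then c else 0) ≤ if i ∈ S ∧ j ∈ S then 2 * c else 0 := by
    intro i j hj
    have hji := (mem_erase.1 hj).1
    split_ifs with h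
    · obtain ⟨hi, hj'⟩ := h
      rw [← sum_filter, sum_const, nsmul_eq_mul]
      have hsub : ((univ.erase i).erase j).filter (fun k => i ∈ S ∧ j ∈ S ∧ k ∈ S) ⊆
          (S.erase i).erase j := by
        intro l hl
        rw [mem_filter] at hl
        obtain ⟨hl1, hl2⟩ := hl
        simp only [mem_erase, mem_univ, and_true] at hl1 ⊢
        exact ⟨hl1.1, hl1.2, hl2.2.2⟩
      have hcard : ((S.erase i).erase j).card = 2 := by
        rw [card_erase_of_mem, card_erase_of_mem hi, hS]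
        exact mem_erase.2 ⟨hji, hj'⟩
      have h1 : (((univ.erase i).erase j).filter
          (fun k => i ∈ S ∧ j ∈ S ∧ k ∈ S)).card ≤ 2 := hcard ▸ card_le_card hsub
      have h2 : ((((univ.erase i).erase j).filter
          (fun k => i ∈ S ∧ j ∈ S ∧ k ∈ S)).card : ℝ) ≤ 2 := by exact_mod_cast h1
      nlinarith
    · refine le_of_eq (sum_eq_zero fun k _ => if_neg ?_)
      intro hl
      exact h ⟨hl.1, hl.2.1⟩
  have h1 : ∀ i, ∑ j ∈ univ.erase i, (if i ∈ S ∧ j ∈ S then 2 * c else 0) ≤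
      if i ∈ S then 6 * c else 0 := by
    intro i
    split_ifs with hi
    · rw [← sum_filter, sum_const, nsmul_eq_mul]
      have hsub : (univ.erase i).filter (fun j => i ∈ S ∧ j ∈ S) ⊆ S.erase i := by
        intro l hl
        rw [mem_filter] at hl
        obtain ⟨hl1, hl2⟩ := hl
        exact mem_erase.2 ⟨(mem_erase.1 hl1).1, hl2.2⟩
      have hcard : (S.erase i).card = 3 := by
        rw [card_erase_of_mem hi, hS]
      have h1 : ((univ.erase i).filter (fun j => i ∈ S ∧ j ∈ S)).card ≤ 3 :=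
        hcard ▸ card_le_card hsub
      have h2 : (((univ.erase i).filter (fun j => i ∈ S ∧ j ∈ S)).card : ℝ) ≤ 3 := by
        exact_mod_cast h1
      nlinarith
    · refine le_of_eq (sum_eq_zero fun k _ => if_neg ?_)
      intro hl
      exact hi hl.1
  calc _ ≤ ∑ i, ∑ j ∈ univ.erase i, ∑ k ∈ (univ.erase i).erase j,
        (if i ∈ S ∧ j ∈ S ∧ k ∈ S then c else 0) :=
        sum_le_sum fun i _ => sum_le_sum fun j hj => sum_le_sum fun k hk => h3 i j hj k hk
    _ ≤ ∑ i, ∑ j ∈ univ.erase i, (if i ∈ S ∧ j ∈ S then 2 * c else 0) :=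
        sum_le_sum fun i _ => sum_le_sum fun j hj => h2 i j hj
    _ ≤ ∑ i, (if i ∈ S then 6 * c else 0) := sum_le_sum fun i _ => h1 i
    _ = 24 * c := by
        rw [← sum_filter, sum_const, nsmul_eq_mul]
        have : (univ.filter fun i => i ∈ S) = S := by ext; simp
        rw [this, hS]
        push_cast
        ring

theorem tuples_le (φ : Finset (Fin n) → ℝ) (hφ : ∀ S, 0 ≤ φ S) :
    ∑ i, ∑ j ∈ univ.erase i, ∑ k ∈ (univ.erase i).erase j,
      ∑ l ∈ ((univ.erase i).erase j).erase k, φ {i, j, k, l} ≤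
      24 * ∑ S ∈ powersetCard 4 (univ : Finset (Fin n)), φ S := by
  have h1 : ∀ i, ∀ j ∈ univ.erase i, ∀ k ∈ (univ.erase i).erase j,
      ∀ l ∈ ((univ.erase i).erase j).erase k, φ {i, j, k, l} =
        ∑ S ∈ powersetCard 4 (univ : Finset (Fin n)), if S = {i, j, k, l} then φ S else 0 := by
    intro i j hj k hk l hl
    simp only [mem_erase, mem_univ, and_true] at hj hk hl
    rw [sum_ite_eq' (powersetCard 4 (univ : Finset (Fin n))), if_pos]
    rw [mem_powersetCard]
    refine ⟨subset_univ _, ?_⟩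
    rw [card_eq_succ]
    refine ⟨i, {j, k, l}, ?_, rfl, ?_⟩
    · simp only [mem_insert, mem_singleton, not_or]
      exact ⟨fun h => hj h.symm, fun h => hk.2 h.symm, fun h => hl.2.2 h.symm⟩
    · rw [card_eq_three]
      exact ⟨j, k, l, fun h => hk.1 h.symm, fun h => hl.2.1 h.symm, fun h => hl.1 h.symm, rfl⟩
  rw [sum_congr rfl fun i _ => sum_congr rfl fun j hj => sum_congr rfl fun k hk =>
    sum_congr rfl fun l hl => h1 i j hj k hk l hl]
  have h2 : ∑ i, ∑ j ∈ univ.erase i, ∑ k ∈ (univ.erase i).erase j,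
      ∑ l ∈ ((univ.erase i).erase j).erase k,
        ∑ S ∈ powersetCard 4 (univ : Finset (Fin n)), (if S = {i, j, k, l} then φ S else 0) =
      ∑ S ∈ powersetCard 4 (univ : Finset (Fin n)), ∑ i, ∑ j ∈ univ.erase i,
        ∑ k ∈ (univ.erase i).erase j, ∑ l ∈ ((univ.erase i).erase j).erase k,
          (if S = {i, j, k, l} then φ S else 0) := by
    rw [sum_comm (s := powersetCard 4 (univ : Finset (Fin n)))]
    refine sum_congr rfl fun i _ => ?_
    rw [sum_comm (s := powersetCard 4 (univ : Finset (Fin n)))]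
    refine sum_congr rfl fun j _ => ?_
    rw [sum_comm (s := powersetCard 4 (univ : Finset (Fin n)))]
    refine sum_congr rfl fun k _ => ?_
    rw [sum_comm (s := powersetCard 4 (univ : Finset (Fin n)))]
  rw [h2, mul_sum]
  exact sum_le_sum fun S hS => nest_le S (mem_powersetCard.1 hS).2 (hφ S)

/-- the Dirichlet form inequality for the switch chain -/
theorem chain_gap (hn : 4 ≤ n) (f : OmegaD n d → ℝ) (hf : ∑ G, f G = 0) :
    1 / (36 * (n.choose 4 : ℝ)) * ∑ G, f G ^ 2 ≤
      1 / 2 * ∑ G, ∑ G', chain n d G G' * (f G - f G') ^ 2 := by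
  have hC : (0 : ℝ) < (n.choose 4 : ℝ) := by
    exact_mod_cast Nat.choose_pos hn
  set g : Gr (Fin n) d → ℝ := fun x => f (ofGr x) with hg
  have hl : ∀ G : OmegaD n d, ofGr (toGr G) = G := eGr.left_inv
  have hfg : (fun G => g (toGr G)) = f := by
    funext G
    simp only [hg, hl]
  have e1 : ∑ x, g x = 0 := by
    rw [← eGr.sum_comp, ← hf]
    exact sum_congr rfl fun G _ => congrFun hfg G
  have e2 : ∑ x, g x ^ 2 = ∑ G, f G ^ 2 := by
    rw [← eGr.sum_comp]
    exact sum_congr rfl fun G _ => congrArg (· ^ 2) (congrFun hfg G)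
  have h1 := switch_gap g e1
  rw [e2] at h1
  have h2 : ∑ i, ∑ j ∈ univ.erase i, ∑ k ∈ (univ.erase i).erase j,
      ∑ l ∈ ((univ.erase i).erase j).erase k, F i j k l g ≤
      ∑ i, ∑ j ∈ univ.erase i, ∑ k ∈ (univ.erase i).erase j,
      ∑ l ∈ ((univ.erase i).erase j).erase k, (1 / 4) * locE f {i, j, k, l} := by
    refine sum_le_sum fun i _ => sum_le_sum fun j hj => sum_le_sum fun k hk =>
      sum_le_sum fun l hl => ?_
    simp only [mem_erase, mem_univ, and_true] at hj hk hl
    have hD : D4 i j k l := ⟨fun h => hj h.symm, fun h => hk.2 h.symm, fun h => hl.2.2 h.symm,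
      fun h => hk.1 h.symm, fun h => hl.2.1 h.symm, fun h => hl.1 h.symm⟩
    have h3 := flip_le_locE hD g
    rw [hfg] at h3
    have h4 : F i j k l g = 1 / 4 * ∑ x, (g x - g (flip i j k l x)) ^ 2 := by
      unfold F
      rw [mul_sum]
      refine sum_congr rfl fun x _ => ?_
      ring
    rw [h4]
    linarith
  have h3 := tuples_le (fun S => (1 / 4) * locE f S)
    (fun S => mul_nonneg (by norm_num) (locE_nonneg f S))
  rw [← mul_sum] at h3
  rw [dirichlet_eq]
  set L := ∑ S ∈ powersetCard 4 (univ : Finset (Fin n)), locE f S with hL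
  have h4 : ∑ G, f G ^ 2 ≤ 3 / 2 * L := by linarith
  have h5 : 1 / (24 * (n.choose 4 : ℝ)) * L = 1 / (36 * (n.choose 4 : ℝ)) * (3 / 2 * L) := by
    field_simp
    ring
  rw [h5]
  exact mul_le_mul_of_nonneg_left h4 (by positivity)

end Vale.P335
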