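import Mathlib

/-!
# P335 — the switch chain, literally as in the problem file
-/

namespace Vale.P335

open Finset

/-- `Ω_d`: the labelled simple graphs on `Fin n` in which vertex `v` has degree `d v` -/
def OmegaD (n : ℕ) (d : Fin n → ℕ) : Type :=
  {G : SimpleGraph (Fin n) // ∀ v, (G.neighborSet v).ncard = d v}

/-- `d` is graphical: some simple graph on `Fin n` has degree `d v` at `v` for all `v` -/
def Graphical (n : ℕ) (d : Fin n → ℕ) : Prop := Nonempty (OmegaD n d)

noncomputable instance (n : ℕ) (d : Fin n → ℕ) : Fintype (OmegaD n d) := by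
  classical
  unfold OmegaD
  exact Fintype.ofFinite _

noncomputable instance (n : ℕ) (d : Fin n → ℕ) : DecidableEq (OmegaD n d) := Classical.decEq _

open Classical in
/-- the perfect matchings of the complete graph on the vertex set `S`: sets `F` of edges
(unordered pairs of distinct elements of `S`) such that every element of `S` is in exactly one
edge of `F` -/
noncomputable def matchings {n : ℕ} (S : Finset (Fin n)) : Finset (Finset (Sym2 (Fin n))) :=
  univ.filter fun F => (∀ e ∈ F, ¬ e.IsDiag ∧ ∀ v ∈ e, v ∈ S) ∧ ∀ v ∈ S, ∃! e, e ∈ F ∧ v ∈ e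

open Classical in
/-- the outcome of the choice `(F, F')` at the graph `G`: if all edges of `F` are present in `G` and
all edges of `F'` are absent from `G`, then `F` is replaced by `F'`; otherwise `G` is unchanged -/
noncomputable def move {n : ℕ} (F F' : Finset (Sym2 (Fin n))) (G : SimpleGraph (Fin n)) :
    SimpleGraph (Fin n) :=
  if (∀ e ∈ F, e ∈ G.edgeSet) ∧ (∀ e ∈ F', e ∉ G.edgeSet) then
    SimpleGraph.fromEdgeSet ((G.edgeSet \ F) ∪ F')
  else G

open Classical in
/-- the transition matrix `P_d` of the switch chain: with probability `1/2` stay put; otherwise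
choose a 4-element set `S` uniformly, then one of the six ordered pairs of distinct perfect
matchings of the complete graph on `S` uniformly, and apply `move` -/
noncomputable def chain (n : ℕ) (d : Fin n → ℕ) : Matrix (OmegaD n d) (OmegaD n d) ℝ :=
  fun G G' =>
    1 / 2 * (if G' = G then 1 else 0) +
    1 / 2 * ((1 / (n.choose 4 : ℝ)) * ∑ S ∈ powersetCard 4 (univ : Finset (Fin n)),
      (1 / 6 : ℝ) * ∑ p ∈ (matchings S).offDiag, if G'.1 = move p.1 p.2 G.1 then 1 else 0)

/-- the total variation distance between `P_d^t (G, ·)` and the uniform distribution on `Ω_d` -/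
noncomputable def tvDist (n : ℕ) (d : Fin n → ℕ) (t : ℕ) (G : OmegaD n d) : ℝ :=
  1 / 2 * ∑ G', |((chain n d) ^ t) G G' - 1 / (Fintype.card (OmegaD n d) : ℝ)|

/-- the mixing time `t_mix (d)` -/
noncomputable def tmix (n : ℕ) (d : Fin n → ℕ) : ℕ :=
  sInf {t : ℕ | ∀ G, tvDist n d t G ≤ 1 / 4}

end Vale.P335
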