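import Vale.Agent.P335.Avg

/-!
# P335 — M5: the inequality for two disjoint pairs
-/

namespace Vale.P335

open Finset

/-! ### abstract part -/

section General
variable {X : Type*} [Fintype X] {r s t : X → X → Prop}

/-- the commutation lemma needs only one of its two hypotheses -/
theorem Ex_comm' (hr : Equivalence r) (hs : Equivalence s)
    (h1 : ∀ x y z, r x y → s y z → ∃! w, s x w ∧ r w z) (f : X → ℝ) :
    Ex r (Ex s f) = Ex s (Ex r f) := by
  refine Ex_comm hr hs h1 ?_ f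
  intro x w z hxw hwz
  obtain ⟨y, hy, hyu⟩ := h1 z w x (hr.symm hwz) (hs.symm hxw)
  exact ⟨y, ⟨hr.symm hy.2, hs.symm hy.1⟩,
    fun y' hy' => hyu y' ⟨hs.symm hy'.2, hr.symm hy'.1⟩⟩

/-- the average over the join of two commuting relations -/
theorem Ex_join (hr : Equivalence r) (hs : Equivalence s) (ht : Equivalence t)
    (comm : ∀ f, Ex r (Ex s f) = Ex s (Ex r f)) (hrt : ∀ x y, r x y → t x y)
    (hst : ∀ x y, s x y → t x y) (hj : ∀ x z, t x z → ∃ y, r x y ∧ s y z) (f : X → ℝ) :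
    Ex t f = Ex r (Ex s f) := by
  have e1 : Ex t (Ex r (Ex s f)) = Ex r (Ex s f) := by
    refine Ex_of_inv ht fun x z hxz => ?_
    obtain ⟨y, hxy, hyz⟩ := hj x z hxz
    rw [Ex_congr hr _ hxy, comm, Ex_congr hs _ hyz]
  rw [← e1, Ex_tower_left hr ht hrt, Ex_tower_left hs ht hst]

/-- `r` finer than `s` : `(1 - E_r)(1 - E_s) = 1 - E_r` -/
theorem Pj_tower (hr : Equivalence r) (hs : Equivalence s) (h : ∀ x y, r x y → s x y)
    (f : X → ℝ) : Pj r (Pj s f) = Pj r f := by
  rw [Pj_eq (Pj s f), Pj_eq f, Pj_eq f, Ex_sub, Ex_tower_right hr hs h]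
  abel

theorem Pj_Ex_comm (h : ∀ f, Ex r (Ex s f) = Ex s (Ex r f)) (f : X → ℝ) :
    Pj r (Ex s f) = Ex s (Pj r f) := by
  rw [Pj_eq, Pj_eq, Ex_sub, h]

theorem ip_Pj_Ex_of_comm (hr : Equivalence r) (hs : Equivalence s)
    (h : ∀ f, Ex r (Ex s f) = Ex s (Ex r f)) (f : X → ℝ) :
    ip (Pj r f) (Ex s f) = ip (Pj r (Ex s f)) (Pj r (Ex s f)) := by
  calc ip (Pj r f) (Ex s f) = ip (Pj r f) (Ex s (Ex s f)) := by rw [Ex_idem hs]
    _ = ip (Ex s (Pj r f)) (Ex s f) := (ip_Ex_left hs _ _).symm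
    _ = ip (Pj r (Ex s f)) (Ex s f) := by rw [Pj_Ex_comm h]
    _ = ip (Pj r (Pj r (Ex s f))) (Ex s f) := by rw [Pj_idem hr]
    _ = ip (Pj r (Ex s f)) (Pj r (Ex s f)) := ip_Pj_left hr _ _

/-- the second and third terms are nonnegative -/
theorem second_term {a b q : X → X → Prop} (ha : Equivalence a) (hb : Equivalence b)
    (hq : Equivalence q) (hbq : ∀ x y, b x y → q x y)
    (cab : ∀ f, Ex a (Ex b f) = Ex b (Ex a f)) (caq : ∀ f, Ex a (Ex q f) = Ex q (Ex a f))
    (f : X → ℝ) : 0 ≤ ip (Pj a f) (Ex b f - Ex q f) := by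
  rw [ip_sub_right, ip_Pj_Ex_of_comm ha hb cab, ip_Pj_Ex_of_comm ha hq caq]
  have e : Pj a (Ex q f) = Ex q (Pj a (Ex b f)) := by
    rw [← Pj_Ex_comm caq, Ex_tower_left hb hq hbq]
  rw [e]
  linarith [ip_Ex_self_le hq (Pj a (Ex b f))]

theorem first_term {a b σ : X → X → Prop} (ha : Equivalence a) (hb : Equivalence b)
    (hσ : Equivalence σ) (hσa : ∀ x y, σ x y → a x y) (hσb : ∀ x y, σ x y → b x y)
    (cab : ∀ f, Ex a (Ex b f) = Ex b (Ex a f)) (f : X → ℝ) :
    ip (Pj σ f) (Pj σ f) ≤ ip (Pj a f) (Pj b f) := by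
  rw [ip_Pj_eq_of_comm ha hb cab]
  have e : Pj σ f = Pj σ (Pj a (Pj b f)) := by
    rw [Pj_tower hσ ha hσa, Pj_tower hσ hb hσb]
  rw [e]
  exact ip_Pj_self_le hσ _

/-- localised contraction -/
theorem local_contraction {b : X → X → Prop} (hb : Equivalence b) (al : X → Prop)
    [DecidablePred al] (hal : ∀ x y, b x y → (al x ↔ al y)) (u : X → ℝ) :
    ∑ x with al x, (Ex b u x) ^ 2 ≤ ∑ x with al x, (u x) ^ 2 := by
  have e := Ex_mul_of_inv hb (φ := fun x => if al x then (1 : ℝ) else 0)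
    (fun x y hxy => by simp only [hal x y hxy]) u
  have h := ip_Ex_self_le hb (fun x => (if al x then (1 : ℝ) else 0) * u x)
  rw [e, ip_self_eq, ip_self_eq] at h
  rw [sum_filter, sum_filter]
  refine le_of_eq_of_le ?_ (le_of_le_of_eq h ?_)
  · refine sum_congr rfl fun x _ => ?_
    by_cases hx : al x
    · simp [hx]
    · simp [hx]
  · refine sum_congr rfl fun x _ => ?_
    by_cases hx : al x
    · simp [hx]
    · simp [hx]

theorem fourth_eq {p q a b : X → X → Prop} (hp : Equivalence p) (hq : Equivalence q)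
    (ha : Equivalence a) (hb : Equivalence b)
    (hap : ∀ x y, a x y → p x y) (hbq : ∀ x y, b x y → q x y)
    (cab : ∀ f, Ex a (Ex b f) = Ex b (Ex a f)) (caq : ∀ f, Ex a (Ex q f) = Ex q (Ex a f))
    (cbp : ∀ f, Ex b (Ex p f) = Ex p (Ex b f)) (f : X → ℝ) :
    Pj p (Ex a (Ex b f)) = Ex b (Ex a f - Ex p f) ∧
    Pj q (Ex a (Ex b f)) = Ex a (Ex b f - Ex q f) ∧
    ip (Pj p (Ex a (Ex b f))) (Pj q (Ex a (Ex b f)))
      = ip (Ex a f - Ex p f) (Ex b f - Ex q f) := by
  have e1 : Pj p (Ex a (Ex b f)) = Ex b (Ex a f - Ex p f) := by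
    rw [Pj_eq, Ex_tower_left ha hp hap, Ex_sub, cab, cbp]
  have e2 : Pj q (Ex a (Ex b f)) = Ex a (Ex b f - Ex q f) := by
    rw [Pj_eq, cab f, Ex_tower_left hb hq hbq, Ex_sub, cab, caq]
  refine ⟨e1, e2, ?_⟩
  have e3 : Ex b (Ex b f - Ex q f) = Ex b f - Ex q f := by
    rw [Ex_sub, Ex_idem hb, Ex_tower_right hb hq hbq]
  have e4 : Ex a (Ex a f - Ex p f) = Ex a f - Ex p f := by
    rw [Ex_sub, Ex_idem ha, Ex_tower_right ha hp hap]
  rw [e1, e2, ip_Ex_left hb, ← cab, e3, ← ip_Ex_left ha, e4]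

theorem fourth_term {p q a b : X → X → Prop} (hp : Equivalence p) (hq : Equivalence q)
    (ha : Equivalence a) (hb : Equivalence b)
    (hap : ∀ x y, a x y → p x y) (hbq : ∀ x y, b x y → q x y)
    (cab : ∀ f, Ex a (Ex b f) = Ex b (Ex a f)) (caq : ∀ f, Ex a (Ex q f) = Ex q (Ex a f))
    (cbp : ∀ f, Ex b (Ex p f) = Ex p (Ex b f)) (al : X → Prop) [DecidablePred al]
    (hala : ∀ x y, a x y → (al x ↔ al y)) (halb : ∀ x y, b x y → (al x ↔ al y))
    (hcase : ∀ x, ¬ al x → (∀ y, p x y → a x y) ∨ (∀ y, q x y → b x y)) (f : X → ℝ) :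
    -((1 / 2) * (∑ x with al x, (Ex a f x - Ex p f x) ^ 2
        + ∑ x with al x, (Ex b f x - Ex q f x) ^ 2))
      ≤ ip (Ex a f - Ex p f) (Ex b f - Ex q f) := by
  obtain ⟨e1, e2, e3⟩ := fourth_eq hp hq ha hb hap hbq cab caq cbp f
  have i1 := local_contraction hb al halb (Ex a f - Ex p f)
  have i2 := local_contraction ha al hala (Ex b f - Ex q f)
  rw [← e1] at i1
  rw [← e2] at i2
  simp only [Pi.sub_apply] at i1 i2
  rw [← e3]
  have i3 : ∀ x, (if al x then -((1 / 2) * ((Pj p (Ex a (Ex b f)) x) ^ 2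
      + (Pj q (Ex a (Ex b f)) x) ^ 2)) else 0) ≤
      Pj p (Ex a (Ex b f)) x * Pj q (Ex a (Ex b f)) x := by
    intro x
    by_cases hx : al x
    · rw [if_pos hx]
      nlinarith [sq_nonneg (Pj p (Ex a (Ex b f)) x + Pj q (Ex a (Ex b f)) x)]
    · rw [if_neg hx]
      rcases hcase x hx with h | h
      · have : Pj p (Ex a (Ex b f)) x = 0 := by
          unfold Pj
          rw [Ex_eq_of_const hp (c := Ex a (Ex b f) x)
            (fun y hy => (Ex_congr ha _ (h y hy)).symm), sub_self]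
        rw [this, zero_mul]
      · have : Pj q (Ex a (Ex b f)) x = 0 := by
          unfold Pj
          rw [cab, Ex_eq_of_const hq (c := Ex b (Ex a f) x)
            (fun y hy => (Ex_congr hb _ (h y hy)).symm), sub_self]
        rw [this, mul_zero]
  have i4 := sum_le_sum fun x (_ : x ∈ (univ : Finset X)) => i3 x
  rw [← sum_filter, sum_neg_distrib, ← mul_sum, sum_add_distrib] at i4
  refine le_trans ?_ i4
  linarith

theorem abstract_disjoint {p q a b σ : X → X → Prop} (hp : Equivalence p) (hq : Equivalence q)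
    (ha : Equivalence a) (hb : Equivalence b) (hσ : Equivalence σ)
    (hap : ∀ x y, a x y → p x y) (hbq : ∀ x y, b x y → q x y)
    (hσa : ∀ x y, σ x y → a x y) (hσb : ∀ x y, σ x y → b x y)
    (cab : ∀ f, Ex a (Ex b f) = Ex b (Ex a f)) (caq : ∀ f, Ex a (Ex q f) = Ex q (Ex a f))
    (cbp : ∀ f, Ex b (Ex p f) = Ex p (Ex b f)) (al : X → Prop) [DecidablePred al]
    (hala : ∀ x y, a x y → (al x ↔ al y)) (halb : ∀ x y, b x y → (al x ↔ al y))
    (hcase : ∀ x, ¬ al x → (∀ y, p x y → a x y) ∨ (∀ y, q x y → b x y)) (f : X → ℝ) :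
    ip (Pj σ f) (Pj σ f) - (1 / 2) * (∑ x with al x, (Ex a f x - Ex p f x) ^ 2
        + ∑ x with al x, (Ex b f x - Ex q f x) ^ 2)
      ≤ ip (Pj p f) (Pj q f) := by
  have h1 := first_term ha hb hσ hσa hσb cab f
  have h2 := second_term ha hb hq hbq cab caq f
  have h3 := second_term hb ha hp hap (fun f => (cab f).symm) cbp f
  have h4 := fourth_term hp hq ha hb hap hbq cab caq cbp al hala halb hcase f
  have e1 : Pj p f = Pj a f + (Ex a f - Ex p f) := by
    rw [Pj_eq, Pj_eq]; abel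
  have e2 : Pj q f = Pj b f + (Ex b f - Ex q f) := by
    rw [Pj_eq, Pj_eq]; abel
  rw [e1, e2, ip_add_left, ip_add_right, ip_add_right, ip_comm (Ex a f - Ex p f) (Pj b f)]
  linarith

end General

/-! ### Boolean blocks -/

section Bool

theorem bool_det : ∀ a b c e a' b' c' e' : Bool, a.toNat + b.toNat = a'.toNat + b'.toNat →
    c.toNat + e.toNat = c'.toNat + e'.toNat → a.toNat + c.toNat = a'.toNat + c'.toNat →
    b.toNat + e.toNat = b'.toNat + e'.toNat → a.toNat + b.toNat + c.toNat + e.toNat ≠ 2 →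
    (a = a' ∧ b = b' ∧ c = c' ∧ e = e') := by decide

theorem bool_det' : ∀ a b c e a' b' c' e' : Bool, a.toNat + b.toNat = a'.toNat + b'.toNat →
    c.toNat + e.toNat = c'.toNat + e'.toNat → a.toNat + c.toNat = a'.toNat + c'.toNat →
    b.toNat + e.toNat = b'.toNat + e'.toNat →
    (a = a' ∧ b = b' ∧ c = c' ∧ e = e') ∨
      ((a = e ∧ b = c ∧ a ≠ b) ∧ (a' = e' ∧ b' = c' ∧ a' ≠ b') ∧ a = !a') := by decide

theorem bool_ex : ∀ a b c e a' b' c' e' : Bool,
    a.toNat + b.toNat + c.toNat + e.toNat = a'.toNat + b'.toNat + c'.toNat + e'.toNat →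
    a.toNat + b.toNat + c.toNat + e.toNat ≠ 2 →
    ∃ p q r s : Bool, p.toNat + q.toNat = a.toNat + b.toNat ∧
      r.toNat + s.toNat = c.toNat + e.toNat ∧ p.toNat + r.toNat = a'.toNat + c'.toNat ∧
      q.toNat + s.toNat = b'.toNat + e'.toNat := by decide

end Bool

/-! ### concrete part -/

section Concrete

variable {V : Type*} [Fintype V] [DecidableEq V] {d : V → ℕ}

theorem D4.swap {i j k l : V} (h : D4 i j k l) : D4 k l i j :=
  ⟨h.2.2.2.2.2, h.2.1.symm, h.2.2.2.1.symm, h.2.2.1.symm, h.2.2.2.2.1.symm, h.1⟩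

theorem sum_two {g g' : V → ℕ} {p q : V} (hpq : p ≠ q) (hs : g p + g q = g' p + g' q)
    (hr : ∀ v, v ≠ p → v ≠ q → g v = g' v) : ∑ v, g v = ∑ v, g' v := by
  rw [← add_sum_erase _ _ (mem_univ p), ← add_sum_erase univ g' (mem_univ p),
    ← add_sum_erase (univ.erase p) g (mem_erase.2 ⟨hpq.symm, mem_univ q⟩),
    ← add_sum_erase (univ.erase p) g' (mem_erase.2 ⟨hpq.symm, mem_univ q⟩)]
  have : ∑ v ∈ (univ.erase p).erase q, g v = ∑ v ∈ (univ.erase p).erase q, g' v := by
    refine sum_congr rfl fun v hv => ?_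
    exact hr v (mem_erase.1 (mem_erase.1 hv).2).1 (mem_erase.1 hv).1
  omega

/-- a `{i,j}`-move preserves `x u i + x u j` -/
theorem rel_row {i j : V} (hij : i ≠ j) {x y : Gr V d} (h : rel i j x y) {u : V}
    (hui : u ≠ i) (huj : u ≠ j) :
    (x.1 u i).toNat + (x.1 u j).toNat = (y.1 u i).toNat + (y.1 u j).toNat := by
  have hx := x.deg u
  have hy := y.deg u
  rw [← add_sum_erase _ _ (mem_univ i),
    ← add_sum_erase (univ.erase i) _ (mem_erase.2 ⟨hij.symm, mem_univ j⟩)] at hx hy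
  have : ∑ v ∈ (univ.erase i).erase j, (x.1 u v).toNat
      = ∑ v ∈ (univ.erase i).erase j, (y.1 u v).toNat := by
    refine sum_congr rfl fun v hv => ?_
    rw [h.2 u v hui huj (mem_erase.1 (mem_erase.1 hv).2).1 (mem_erase.1 hv).1]
  omega

/-- the number of ones in the block -/
def bsum (i j k l : V) (x : Gr V d) : ℕ :=
  (x.1 i k).toNat + (x.1 i l).toNat + (x.1 j k).toNat + (x.1 j l).toNat

/-- equal blocks -/
def beq (i j k l : V) (x y : Gr V d) : Prop :=
  x.1 i k = y.1 i k ∧ x.1 i l = y.1 i l ∧ x.1 j k = y.1 j k ∧ x.1 j l = y.1 j l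

/-- the relation `p̂` -/
def ph (i j k l : V) (x y : Gr V d) : Prop :=
  rel i j x y ∧ (bsum i j k l x = 2 →
    (x.1 i k).toNat + (x.1 i l).toNat = (y.1 i k).toNat + (y.1 i l).toNat)

/-- the relation `p°` -/
def po (i j k l : V) (x y : Gr V d) : Prop :=
  rel i j x y ∧ (bsum i j k l x = 2 → beq i j k l x y)

/-- the relation generated by the flip -/
def sg (i j k l : V) (x y : Gr V d) : Prop := y = x ∨ y = flip i j k l x

theorem bsum_swap (i j k l : V) (x : Gr V d) : bsum k l i j x = bsum i j k l x := by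
  unfold bsum
  rw [x.symm' k i, x.symm' k j, x.symm' l i, x.symm' l j]
  omega

theorem beq_swap (i j k l : V) (x y : Gr V d) : beq k l i j x y ↔ beq i j k l x y := by
  unfold beq
  rw [x.symm' k i, x.symm' k j, x.symm' l i, x.symm' l j,
    y.symm' k i, y.symm' k j, y.symm' l i, y.symm' l j]
  tauto

theorem alt_swap (i j k l : V) (x : Gr V d) : alt k l i j x ↔ alt i j k l x := by
  unfold alt
  rw [x.symm' k i, x.symm' k j, x.symm' l i, x.symm' l j]
  constructor
  · rintro ⟨h1, h2, h3⟩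
    exact ⟨h1, h2.symm, by rw [← h2]; exact h3⟩
  · rintro ⟨h1, h2, h3⟩
    exact ⟨h1, h2.symm, by rw [← h2]; exact h3⟩

theorem alt_bsum {i j k l : V} {x : Gr V d} (h : alt i j k l x) : bsum i j k l x = 2 := by
  obtain ⟨h1, h2, h3⟩ := h
  unfold bsum
  revert h1 h2 h3
  generalize x.1 i k = a
  generalize x.1 i l = b
  generalize x.1 j k = c
  generalize x.1 j l = e
  revert a b c e
  decide

theorem beq_alt {i j k l : V} {x y : Gr V d} (h : beq i j k l x y) :
    alt i j k l x ↔ alt i j k l y := by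
  obtain ⟨h1, h2, h3, h4⟩ := h
  unfold alt
  rw [h1, h2, h3, h4]

theorem beq_refl (i j k l : V) (x : Gr V d) : beq i j k l x x := ⟨rfl, rfl, rfl, rfl⟩

theorem beq.symm {i j k l : V} {x y : Gr V d} (h : beq i j k l x y) : beq i j k l y x :=
  ⟨h.1.symm, h.2.1.symm, h.2.2.1.symm, h.2.2.2.symm⟩

theorem beq.trans {i j k l : V} {x y z : Gr V d} (h : beq i j k l x y) (h' : beq i j k l y z) :
    beq i j k l x z :=
  ⟨h.1.trans h'.1, h.2.1.trans h'.2.1, h.2.2.1.trans h'.2.2.1, h.2.2.2.trans h'.2.2.2⟩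

/-- block column sums are preserved by a `{i,j}`-move -/
theorem rel_cols {i j k l : V} (h : D4 i j k l) {x y : Gr V d} (hxy : rel i j x y) :
    (x.1 i k).toNat + (x.1 j k).toNat = (y.1 i k).toNat + (y.1 j k).toNat ∧
    (x.1 i l).toNat + (x.1 j l).toNat = (y.1 i l).toNat + (y.1 j l).toNat := by
  have h1 := rel_row h.1 hxy (u := k) h.2.1.symm h.2.2.2.1.symm
  have h2 := rel_row h.1 hxy (u := l) h.2.2.1.symm h.2.2.2.2.1.symm
  rw [x.symm' k i, x.symm' k j, y.symm' k i, y.symm' k j] at h1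
  rw [x.symm' l i, x.symm' l j, y.symm' l i, y.symm' l j] at h2
  exact ⟨h1, h2⟩

/-- block row sums are preserved by a `{k,l}`-move -/
theorem rel_rows {i j k l : V} (h : D4 i j k l) {x y : Gr V d} (hxy : rel k l x y) :
    (x.1 i k).toNat + (x.1 i l).toNat = (y.1 i k).toNat + (y.1 i l).toNat ∧
    (x.1 j k).toNat + (x.1 j l).toNat = (y.1 j k).toNat + (y.1 j l).toNat :=
  ⟨rel_row h.2.2.2.2.2 hxy h.2.1 h.2.2.1, rel_row h.2.2.2.2.2 hxy h.2.2.2.1 h.2.2.2.2.1⟩

theorem rel_bsum {i j k l : V} (h : D4 i j k l) {x y : Gr V d} (hxy : rel i j x y) :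
    bsum i j k l x = bsum i j k l y := by
  have := rel_cols h hxy
  unfold bsum
  omega

theorem rel_bsum' {i j k l : V} (h : D4 i j k l) {x y : Gr V d} (hxy : rel k l x y) :
    bsum i j k l x = bsum i j k l y := by
  have := rel_rows h hxy
  unfold bsum
  omega

theorem ph_equivalence {i j k l : V} (h : D4 i j k l) : Equivalence (ph (d := d) i j k l) where
  refl x := ⟨(rel_equivalence i j).refl x, fun _ => rfl⟩
  symm {x y} hxy := ⟨(rel_equivalence i j).symm hxy.1, fun h2 =>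
    (hxy.2 ((rel_bsum h hxy.1).trans h2)).symm⟩
  trans {x y z} hxy hyz := ⟨(rel_equivalence i j).trans hxy.1 hyz.1, fun h2 =>
    (hxy.2 h2).trans (hyz.2 ((rel_bsum h hxy.1).symm.trans h2))⟩

theorem po_equivalence {i j k l : V} (h : D4 i j k l) : Equivalence (po (d := d) i j k l) where
  refl x := ⟨(rel_equivalence i j).refl x, fun _ => beq_refl _ _ _ _ _⟩
  symm {x y} hxy := ⟨(rel_equivalence i j).symm hxy.1, fun h2 =>
    (hxy.2 ((rel_bsum h hxy.1).trans h2)).symm⟩
  trans {x y z} hxy hyz := ⟨(rel_equivalence i j).trans hxy.1 hyz.1, fun h2 =>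
    (hxy.2 h2).trans (hyz.2 ((rel_bsum h hxy.1).symm.trans h2))⟩

/-! ### the flip -/

theorem flipM_swap (i j k l : V) (x : V → V → Bool) : flipM k l i j x = flipM i j k l x := by
  funext u v
  unfold flipM
  by_cases h : ((u = i ∨ u = j) ∧ (v = k ∨ v = l)) ∨ ((u = k ∨ u = l) ∧ (v = i ∨ v = j))
  · rw [if_pos h, if_pos (Or.symm h)]
  · rw [if_neg h, if_neg (fun h' => h (Or.symm h'))]

theorem flip_of_not {i j k l : V} {x : Gr V d} (hx : ¬ alt i j k l x) :
    flip i j k l x = x :=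
  dif_neg (fun h => hx h.2)

theorem flip_of_not' {i j k l : V} {x : Gr V d} (hx : ¬ (D4 i j k l ∧ alt i j k l x)) :
    flip i j k l x = x :=
  dif_neg hx

theorem flip_val {i j k l : V} (h : D4 i j k l) {x : Gr V d} (hx : alt i j k l x) :
    (flip i j k l x).1 = flipM i j k l x.1 := by
  have e : flip i j k l x = ⟨flipM i j k l x.1, flipM_mem h x hx⟩ := dif_pos ⟨h, hx⟩
  rw [e]

theorem flip_swap (i j k l : V) (x : Gr V d) : flip k l i j x = flip i j k l x := by
  by_cases h : D4 i j k l ∧ alt i j k l x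
  · apply Subtype.ext
    rw [flip_val h.1 h.2, flip_val h.1.swap ((alt_swap i j k l x).2 h.2), flipM_swap]
  · have h' : ¬ (D4 k l i j ∧ alt k l i j x) := fun h' =>
      h ⟨h'.1.swap, (alt_swap i j k l x).1 h'.2⟩
    rw [flip_of_not' h, flip_of_not' h']

theorem F_symm {i j k l : V} (f : Gr V d → ℝ) : F i j k l f = F k l i j f := by
  unfold F
  exact sum_congr rfl fun x _ => by rw [flip_swap]

/-- block of the flip -/
theorem flip_block {i j k l : V} (h : D4 i j k l) {x : Gr V d} (hx : alt i j k l x) :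
    (flip i j k l x).1 i k = !(x.1 i k) ∧ (flip i j k l x).1 i l = !(x.1 i l) ∧
    (flip i j k l x).1 j k = !(x.1 j k) ∧ (flip i j k l x).1 j l = !(x.1 j l) := by
  rw [flip_val h hx]
  unfold flipM
  refine ⟨?_, ?_, ?_, ?_⟩ <;> rw [if_pos (by tauto)]

/-- entries outside the block are not changed by the flip -/
theorem flip_other {i j k l : V} (h : D4 i j k l) {x : Gr V d} {u v : V}
    (huv : ¬ (((u = i ∨ u = j) ∧ (v = k ∨ v = l)) ∨ ((u = k ∨ u = l) ∧ (v = i ∨ v = j)))) :
    (flip i j k l x).1 u v = x.1 u v := by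
  by_cases hx : alt i j k l x
  · rw [flip_val h hx]
    unfold flipM
    rw [if_neg huv]
  · rw [flip_of_not hx]

theorem flip_alt {i j k l : V} (h : D4 i j k l) {x : Gr V d} :
    alt i j k l (flip i j k l x) ↔ alt i j k l x := by
  by_cases hx : alt i j k l x
  · obtain ⟨h1, h2, h3, h4⟩ := flip_block h hx
    refine ⟨fun _ => hx, fun _ => ?_⟩
    unfold alt at hx ⊢
    rw [h1, h2, h3, h4]
    revert hx
    generalize x.1 i k = a
    generalize x.1 i l = b
    generalize x.1 j k = c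
    generalize x.1 j l = e
    revert a b c e
    decide
  · rw [flip_of_not hx]

theorem flip_flip {i j k l : V} (h : D4 i j k l) (x : Gr V d) :
    flip i j k l (flip i j k l x) = x := by
  by_cases hx : alt i j k l x
  · apply Subtype.ext
    rw [flip_val h ((flip_alt h).2 hx), flip_val h hx]
    funext u v
    unfold flipM
    by_cases hc : ((u = i ∨ u = j) ∧ (v = k ∨ v = l)) ∨ ((u = k ∨ u = l) ∧ (v = i ∨ v = j))
    · rw [if_pos hc, if_pos hc, Bool.not_not]
    · rw [if_neg hc, if_neg hc]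
  · rw [flip_of_not hx, flip_of_not hx]

theorem rel_flip {i j k l : V} (h : D4 i j k l) (x : Gr V d) : rel i j x (flip i j k l x) := by
  obtain ⟨hij, hik, hil, hjk, hjl, hkl⟩ := h
  refine ⟨?_, fun u v h1 h2 h3 h4 => ?_⟩
  · rw [flip_other ⟨hij, hik, hil, hjk, hjl, hkl⟩ (by tauto)]
  · rw [flip_other ⟨hij, hik, hil, hjk, hjl, hkl⟩ (by tauto)]

theorem sg_equivalence {i j k l : V} (h : D4 i j k l) : Equivalence (sg (d := d) i j k l) where
  refl x := Or.inl rfl
  symm {x y} hxy := by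
    rcases hxy with rfl | rfl
    · exact Or.inl rfl
    · exact Or.inr (flip_flip h x).symm
  trans {x y z} hxy hyz := by
    rcases hxy with rfl | rfl
    · exact hyz
    · rcases hyz with rfl | rfl
      · exact Or.inr rfl
      · exact Or.inl (flip_flip h x)

theorem sg_swap (i j k l : V) (x y : Gr V d) : sg k l i j x y ↔ sg i j k l x y := by
  unfold sg
  rw [flip_swap]

/-! ### gluing -/

/-- the glued matrix -/
def glueM (i j k l : V) (x z : V → V → Bool) (a b c e : Bool) (u v : V) : Bool :=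
  if (u = i ∧ v = k) ∨ (u = k ∧ v = i) then a
  else if (u = i ∧ v = l) ∨ (u = l ∧ v = i) then b
  else if (u = j ∧ v = k) ∨ (u = k ∧ v = j) then c
  else if (u = j ∧ v = l) ∨ (u = l ∧ v = j) then e
  else if (u = k ∨ u = l) ∨ (v = k ∨ v = l) then z u v
  else x u v

section glueM
variable {i j k l : V} {x z : V → V → Bool} {a b c e : Bool}

theorem glueM_symm (hx : ∀ u v, x u v = x v u) (hz : ∀ u v, z u v = z v u) (u v : V) :
    glueM i j k l x z a b c e u v = glueM i j k l x z a b c e v u := by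
  unfold glueM
  rw [hx u v, hz u v]
  congr 1
  · exact propext (by tauto)
  congr 1
  · exact propext (by tauto)
  congr 1
  · exact propext (by tauto)
  congr 1
  · exact propext (by tauto)
  congr 1
  exact propext (by tauto)

theorem glueM_ik : glueM i j k l x z a b c e i k = a := by
  unfold glueM
  rw [if_pos (Or.inl ⟨rfl, rfl⟩)]

theorem glueM_il (h : D4 i j k l) : glueM i j k l x z a b c e i l = b := by
  obtain ⟨hij, hik, hil, hjk, hjl, hkl⟩ := h
  unfold glueM
  rw [if_neg (by rintro (⟨_, h⟩ | ⟨h, _⟩); exacts [hkl h.symm, hik h]), if_pos (Or.inl ⟨rfl, rfl⟩)]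

theorem glueM_jk (h : D4 i j k l) : glueM i j k l x z a b c e j k = c := by
  obtain ⟨hij, hik, hil, hjk, hjl, hkl⟩ := h
  unfold glueM
  rw [if_neg (by rintro (⟨h, _⟩ | ⟨h, _⟩); exacts [hij h.symm, hjk h]),
    if_neg (by rintro (⟨h, _⟩ | ⟨h, _⟩); exacts [hij h.symm, hjl h]), if_pos (Or.inl ⟨rfl, rfl⟩)]

theorem glueM_jl (h : D4 i j k l) : glueM i j k l x z a b c e j l = e := by
  obtain ⟨hij, hik, hil, hjk, hjl, hkl⟩ := h
  unfold glueM
  rw [if_neg (by rintro (⟨h, _⟩ | ⟨h, _⟩); exacts [hij h.symm, hjk h]),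
    if_neg (by rintro (⟨h, _⟩ | ⟨h, _⟩); exacts [hij h.symm, hjl h]),
    if_neg (by rintro (⟨_, h⟩ | ⟨h, _⟩); exacts [hkl h.symm, hjk h]), if_pos (Or.inl ⟨rfl, rfl⟩)]

/-- away from rows and columns `k`, `l` the glued matrix is `x` -/
theorem glueM_x {u v : V} (huk : u ≠ k) (hul : u ≠ l) (hvk : v ≠ k) (hvl : v ≠ l) :
    glueM i j k l x z a b c e u v = x u v := by
  unfold glueM
  rw [if_neg (by tauto), if_neg (by tauto), if_neg (by tauto), if_neg (by tauto),
    if_neg (by tauto)]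

/-- entries in rows or columns `k`, `l` outside rows and columns `i`, `j` are those of `z` -/
theorem glueM_z {u v : V} (hui : u ≠ i) (huj : u ≠ j) (hvi : v ≠ i) (hvj : v ≠ j)
    (h : (u = k ∨ u = l) ∨ (v = k ∨ v = l)) :
    glueM i j k l x z a b c e u v = z u v := by
  unfold glueM
  rw [if_neg (by tauto), if_neg (by tauto), if_neg (by tauto), if_neg (by tauto),
    if_pos h]

end glueM

theorem glue_deg {i j k l : V} (h : D4 i j k l) {x y z : Gr V d} (hxy : rel i j x y)
    (hyz : rel k l y z) {a b c e : Bool}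
    (hi : a.toNat + b.toNat = (x.1 i k).toNat + (x.1 i l).toNat)
    (hj : c.toNat + e.toNat = (x.1 j k).toNat + (x.1 j l).toNat)
    (hk : a.toNat + c.toNat = (z.1 i k).toNat + (z.1 j k).toNat)
    (hl : b.toNat + e.toNat = (z.1 i l).toNat + (z.1 j l).toNat) (u : V) :
    ∑ v, (glueM i j k l x.1 z.1 a b c e u v).toNat = d u := by
  have hs := glueM_symm (i := i) (j := j) (k := k) (l := l) (a := a) (b := b) (c := c) (e := e)
    x.symm' z.symm'
  obtain ⟨hij, hik, hil, hjk, hjl, hkl⟩ := id h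
  by_cases huk : u = k
  · subst huk
    rw [← z.deg u]
    refine sum_two hij ?_ fun v hvi hvj => ?_
    · rw [hs u i, hs u j, glueM_ik, glueM_jk h, z.symm' u i, z.symm' u j]
      exact hk
    · rw [glueM_z hik.symm hjk.symm hvi hvj (Or.inl (Or.inl rfl))]
  by_cases hul : u = l
  · subst hul
    rw [← z.deg u]
    refine sum_two hij ?_ fun v hvi hvj => ?_
    · rw [hs u i, hs u j, glueM_il h, glueM_jl h, z.symm' u i, z.symm' u j]
      exact hl
    · rw [glueM_z hil.symm hjl.symm hvi hvj (Or.inl (Or.inr rfl))]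
  rw [← x.deg u]
  refine sum_two hkl ?_ fun v hvk hvl => by rw [glueM_x huk hul hvk hvl]
  by_cases hui : u = i
  · subst hui
    rw [glueM_ik, glueM_il h]
    exact hi
  by_cases huj : u = j
  · subst huj
    rw [glueM_jk h, glueM_jl h]
    exact hj
  rw [glueM_z hui huj hik.symm hjk.symm (Or.inr (Or.inl rfl)),
    glueM_z hui huj hil.symm hjl.symm (Or.inr (Or.inr rfl)),
    hxy.2 u k hui huj hik.symm hjk.symm, hxy.2 u l hui huj hil.symm hjl.symm]
  exact (rel_row hkl hyz huk hul).symm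

theorem glue {i j k l : V} (h : D4 i j k l) {x y z : Gr V d} (hxy : rel i j x y)
    (hyz : rel k l y z) {a b c e : Bool}
    (hi : a.toNat + b.toNat = (x.1 i k).toNat + (x.1 i l).toNat)
    (hj : c.toNat + e.toNat = (x.1 j k).toNat + (x.1 j l).toNat)
    (hk : a.toNat + c.toNat = (z.1 i k).toNat + (z.1 j k).toNat)
    (hl : b.toNat + e.toNat = (z.1 i l).toNat + (z.1 j l).toNat) :
    ∃ w : Gr V d, rel k l x w ∧ rel i j w z ∧ w.1 i k = a ∧ w.1 i l = b ∧ w.1 j k = c ∧
      w.1 j l = e := by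
  have hs := glueM_symm (i := i) (j := j) (k := k) (l := l) (a := a) (b := b) (c := c) (e := e)
    x.symm' z.symm'
  obtain ⟨hij, hik, hil, hjk, hjl, hkl⟩ := id h
  refine ⟨⟨glueM i j k l x.1 z.1 a b c e, hs, fun u => ?_, glue_deg h hxy hyz hi hj hk hl⟩,
    ⟨?_, fun u v h1 h2 h3 h4 => ?_⟩, ⟨?_, fun u v h1 h2 h3 h4 => ?_⟩, glueM_ik, glueM_il h,
    glueM_jk h, glueM_jl h⟩
  · by_cases hc : u = k ∨ u = l
    · rw [glueM_z (by rcases hc with rfl | rfl; exacts [hik.symm, hil.symm])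
        (by rcases hc with rfl | rfl; exacts [hjk.symm, hjl.symm])
        (by rcases hc with rfl | rfl; exacts [hik.symm, hil.symm])
        (by rcases hc with rfl | rfl; exacts [hjk.symm, hjl.symm]) (Or.inl hc)]
      exact z.diag u
    · rw [glueM_x (by tauto) (by tauto) (by tauto) (by tauto)]
      exact x.diag u
  · show x.1 k l = glueM i j k l x.1 z.1 a b c e k l
    rw [glueM_z hik.symm hjk.symm hil.symm hjl.symm (Or.inl (Or.inl rfl)),
      hxy.2 k l hik.symm hjk.symm hil.symm hjl.symm, hyz.1]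
  · show x.1 u v = glueM i j k l x.1 z.1 a b c e u v
    rw [glueM_x h1 h2 h3 h4]
  · show glueM i j k l x.1 z.1 a b c e i j = z.1 i j
    rw [glueM_x hik hil hjk hjl, hxy.1, hyz.2 i j hik hil hjk hjl]
  · show glueM i j k l x.1 z.1 a b c e u v = z.1 u v
    by_cases hc : (u = k ∨ u = l) ∨ (v = k ∨ v = l)
    · rw [glueM_z h1 h2 h3 h4 hc]
    · rw [glueM_x (by tauto) (by tauto) (by tauto) (by tauto), hxy.2 u v h1 h2 h3 h4,
        hyz.2 u v (by tauto) (by tauto) (by tauto) (by tauto)]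

theorem glue_unique {i j k l : V} (h : D4 i j k l) {x z w w' : Gr V d}
    (h1 : rel k l x w) (h2 : rel i j w z) (h1' : rel k l x w') (h2' : rel i j w' z)
    (hb : beq i j k l w w') : w = w' := by
  obtain ⟨b1, b2, b3, b4⟩ := hb
  obtain ⟨hij, hik, hil, hjk, hjl, hkl⟩ := h
  refine Gr.ext' fun u v => ?_
  by_cases hu : u = k ∨ u = l
  · have hu1 : u ≠ i := by rcases hu with rfl | rfl; exacts [hik.symm, hil.symm]
    have hu2 : u ≠ j := by rcases hu with rfl | rfl; exacts [hjk.symm, hjl.symm]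
    by_cases hv : v = i ∨ v = j
    · rw [w.symm' u v, w'.symm' u v]
      rcases hv with rfl | rfl <;> rcases hu with rfl | rfl <;> assumption
    · rw [h2.2 u v hu1 hu2 (fun h => hv (Or.inl h)) (fun h => hv (Or.inr h)),
        h2'.2 u v hu1 hu2 (fun h => hv (Or.inl h)) (fun h => hv (Or.inr h))]
  · have hu1 : u ≠ k := fun h => hu (Or.inl h)
    have hu2 : u ≠ l := fun h => hu (Or.inr h)
    by_cases hv : v = k ∨ v = l
    · have hv1 : v ≠ i := by rcases hv with rfl | rfl; exacts [hik.symm, hil.symm]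
      have hv2 : v ≠ j := by rcases hv with rfl | rfl; exacts [hjk.symm, hjl.symm]
      by_cases hu' : u = i ∨ u = j
      · rcases hv with rfl | rfl <;> rcases hu' with rfl | rfl <;> assumption
      · rw [h2.2 u v (fun h => hu' (Or.inl h)) (fun h => hu' (Or.inr h)) hv1 hv2,
          h2'.2 u v (fun h => hu' (Or.inl h)) (fun h => hu' (Or.inr h)) hv1 hv2]
    · rw [← h1.2 u v hu1 hu2 (fun h => hv (Or.inl h)) (fun h => hv (Or.inr h)),
        ← h1'.2 u v hu1 hu2 (fun h => hv (Or.inl h)) (fun h => hv (Or.inr h))]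

/-- if the block does not have exactly two ones, it is determined by its row and column sums -/
theorem block_det {i j k l : V} (h : D4 i j k l) {x z w w' : Gr V d}
    (h1 : rel k l x w) (h2 : rel i j w z) (h1' : rel k l x w') (h2' : rel i j w' z)
    (hn : bsum i j k l x ≠ 2) : beq i j k l w w' := by
  obtain ⟨r1, r2⟩ := rel_rows h h1
  obtain ⟨r1', r2'⟩ := rel_rows h h1'
  obtain ⟨c1, c2⟩ := rel_cols h h2
  obtain ⟨c1', c2'⟩ := rel_cols h h2'
  have hn' := hn
  unfold bsum at hn'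
  exact bool_det _ _ _ _ _ _ _ _ (r1.symm.trans r1') (r2.symm.trans r2') (c1.trans c1'.symm)
    (c2.trans c2'.symm) (by omega)

/-- the common part of the commutations: `x ~p° y`, `y ~q z` -/
theorem comm_core {i j k l : V} (h : D4 i j k l) {x y z : Gr V d} (hxy : po i j k l x y)
    (hyz : rel k l y z) :
    ∃! w, rel k l x w ∧ po i j k l w z := by
  have hb1 := rel_bsum h hxy.1
  have hb2 := rel_bsum' h hyz
  by_cases hn : bsum i j k l x = 2
  · obtain ⟨b1, b2, b3, b4⟩ := hxy.2 hn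
    obtain ⟨r1, r2⟩ := rel_rows h hyz
    obtain ⟨w, hw1, hw2, w1, w2, w3, w4⟩ := glue h hxy.1 hyz (a := z.1 i k) (b := z.1 i l)
      (c := z.1 j k) (e := z.1 j l) (by rw [b1, b2, r1]) (by rw [b3, b4, r2]) rfl rfl
    refine ⟨w, ⟨hw1, hw2, fun _ => ⟨w1, w2, w3, w4⟩⟩, fun w' hw' => ?_⟩
    refine glue_unique h hw'.1 hw'.2.1 hw1 hw2 ?_
    have : beq i j k l w' z := hw'.2.2 ((rel_bsum' h hw'.1).symm.trans hn)
    exact this.trans (beq.symm ⟨w1, w2, w3, w4⟩)
  · have hn' := hn
    have hb : bsum i j k l x = bsum i j k l z := hb1.trans hb2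
    unfold bsum at hn' hb
    obtain ⟨a, b, c, e, ha, hb', hc, hd⟩ := bool_ex (x.1 i k) (x.1 i l) (x.1 j k) (x.1 j l)
      (z.1 i k) (z.1 i l) (z.1 j k) (z.1 j l) hb hn'
    obtain ⟨w, hw1, hw2, w1, w2, w3, w4⟩ := glue h hxy.1 hyz ha hb' hc hd
    refine ⟨w, ⟨hw1, hw2, fun h2 => absurd ((rel_bsum' h hw1).trans h2) hn⟩, fun w' hw' => ?_⟩
    exact glue_unique h hw'.1 hw'.2.1 hw1 hw2 (block_det h hw'.1 hw'.2.1 hw1 hw2 hn)

theorem comm_po_rel {i j k l : V} (h : D4 i j k l) (f : Gr V d → ℝ) :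
    Ex (po i j k l) (Ex (rel k l) f) = Ex (rel k l) (Ex (po i j k l) f) :=
  Ex_comm' (po_equivalence h) (rel_equivalence k l)
    (fun _ _ _ hxy hyz => comm_core h hxy hyz) f

theorem comm_po_po {i j k l : V} (h : D4 i j k l) (f : Gr V d → ℝ) :
    Ex (po i j k l) (Ex (po k l i j) f) = Ex (po k l i j) (Ex (po i j k l) f) := by
  refine Ex_comm' (po_equivalence h) (po_equivalence h.swap) ?_ f
  intro x y z hxy hyz
  obtain ⟨w, hw, hwu⟩ := comm_core h hxy hyz.1
  refine ⟨w, ⟨⟨hw.1, fun h2 => ?_⟩, hw.2⟩, fun w' hw' => hwu w' ⟨hw'.1.1, hw'.2⟩⟩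
  rw [bsum_swap] at h2
  rw [beq_swap]
  have hb1 : beq i j k l x y := hxy.2 h2
  have hb2 : beq i j k l y z := by
    rw [← beq_swap]
    refine hyz.2 ?_
    rw [bsum_swap, ← rel_bsum h hxy.1, h2]
  have hb3 : beq i j k l w z := hw.2.2 (by rw [← rel_bsum' h hw.1, h2])
  exact (hb1.trans hb2).trans hb3.symm

/-- the flip preserves `p°` -/
theorem po_flip {i j k l : V} (h : D4 i j k l) {x y : Gr V d} (hxy : po i j k l x y) :
    po i j k l (flip i j k l x) (flip i j k l y) := by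
  by_cases hx : alt i j k l x
  · have hb := hxy.2 (alt_bsum hx)
    have hy : alt i j k l y := (beq_alt hb).1 hx
    obtain ⟨b1, b2, b3, b4⟩ := hb
    obtain ⟨f1, f2, f3, f4⟩ := flip_block h hx
    obtain ⟨g1, g2, g3, g4⟩ := flip_block h hy
    have hr := rel_equivalence (d := d) i j
    refine ⟨hr.trans (hr.symm (rel_flip h x)) (hr.trans hxy.1 (rel_flip h y)), fun _ => ?_⟩
    exact ⟨by rw [f1, g1, b1], by rw [f2, g2, b2], by rw [f3, g3, b3], by rw [f4, g4, b4]⟩
  · have hy : ¬ alt i j k l y := fun hy => hx (by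
      have hb := hxy.2 ((rel_bsum h hxy.1).trans (alt_bsum hy))
      exact (beq_alt hb).2 hy)
    rw [flip_of_not hx, flip_of_not hy]
    exact hxy

theorem po_flip_self {i j k l : V} (h : D4 i j k l) {x : Gr V d}
    (hx : po i j k l x (flip i j k l x)) : flip i j k l x = x := by
  by_cases ha : alt i j k l x
  · exfalso
    have hb := (hx.2 (alt_bsum ha)).1
    rw [(flip_block h ha).1] at hb
    exact absurd hb.symm (by cases x.1 i k <;> simp)
  · exact flip_of_not ha

theorem comm_po_sg {i j k l : V} (h : D4 i j k l) (f : Gr V d → ℝ) :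
    Ex (po i j k l) (Ex (sg i j k l) f) = Ex (sg i j k l) (Ex (po i j k l) f) := by
  refine Ex_comm' (po_equivalence h) (sg_equivalence h) ?_ f
  have hr := po_equivalence (d := d) h
  intro x y z hxy hyz
  rcases hyz with rfl | rfl
  · refine ⟨x, ⟨Or.inl rfl, hxy⟩, ?_⟩
    rintro w ⟨rfl | rfl, hw⟩
    · rfl
    · exact po_flip_self h (hr.trans hxy (hr.symm hw))
  · refine ⟨flip i j k l x, ⟨Or.inr rfl, po_flip h hxy⟩, ?_⟩
    rintro w ⟨rfl | rfl, hw⟩
    · exact (po_flip_self h (hr.trans hw (hr.symm (po_flip h hxy)))).symm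
    · rfl

theorem sg_ph {i j k l : V} (h : D4 i j k l) {x y : Gr V d} (hxy : sg i j k l x y) :
    ph i j k l x y := by
  rcases hxy with rfl | rfl
  · exact (ph_equivalence h).refl _
  · refine ⟨rel_flip h x, fun _ => ?_⟩
    by_cases hx : alt i j k l x
    · obtain ⟨f1, f2, f3, f4⟩ := flip_block h hx
      obtain ⟨h1, h2, h3⟩ := hx
      rw [f1, f2]
      revert h3
      generalize x.1 i k = a
      generalize x.1 i l = b
      revert a b
      decide
    · rw [flip_of_not hx]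

theorem po_ph {i j k l : V} {x y : Gr V d} (hxy : po i j k l x y) :
    ph i j k l x y :=
  ⟨hxy.1, fun h2 => by rw [(hxy.2 h2).1, (hxy.2 h2).2.1]⟩

/-- two elements of a `p̂`-class have equal blocks or opposite alternating blocks -/
theorem ph_block {i j k l : V} (h : D4 i j k l) {x y : Gr V d} (hxy : ph i j k l x y)
    (hn : bsum i j k l x = 2) : beq i j k l x y ∨
      (alt i j k l x ∧ alt i j k l y ∧ x.1 i k = !(y.1 i k)) := by
  obtain ⟨c1, c2⟩ := rel_cols h hxy.1
  have r1 := hxy.2 hn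
  have hb := rel_bsum h hxy.1
  unfold bsum at hb hn
  rcases bool_det' (x.1 i k) (x.1 i l) (x.1 j k) (x.1 j l) (y.1 i k) (y.1 i l) (y.1 j k)
    (y.1 j l) r1 (by omega) c1 c2 with h1 | ⟨h1, h2, h3⟩
  · exact Or.inl h1
  · exact Or.inr ⟨h1, h2, h3⟩

theorem ph_join {i j k l : V} (h : D4 i j k l) {x z : Gr V d} (hxz : ph i j k l x z) :
    ∃ y, po i j k l x y ∧ sg i j k l y z := by
  by_cases hn : bsum i j k l x = 2
  · rcases ph_block h hxz hn with hb | ⟨hx, hz, hne⟩
    · exact ⟨z, ⟨hxz.1, fun _ => hb⟩, Or.inl rfl⟩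
    · refine ⟨flip i j k l z, ⟨(rel_equivalence i j).trans hxz.1 (rel_flip h z), fun _ => ?_⟩,
        Or.inr (flip_flip h z).symm⟩
      obtain ⟨g1, g2, g3, g4⟩ := flip_block h hz
      unfold alt at hx hz
      unfold beq
      rw [g1, g2, g3, g4]
      revert hx hz hne
      generalize x.1 i k = a
      generalize x.1 i l = b
      generalize x.1 j k = c
      generalize x.1 j l = e
      generalize z.1 i k = a'
      generalize z.1 i l = b'
      generalize z.1 j k = c'
      generalize z.1 j l = e'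
      revert a b c e a' b' c' e'
      decide
  · exact ⟨z, ⟨hxz.1, fun h2 => absurd h2 hn⟩, Or.inl rfl⟩

theorem Ex_ph {i j k l : V} (h : D4 i j k l) (f : Gr V d → ℝ) :
    Ex (ph i j k l) f = Ex (po i j k l) (Ex (sg i j k l) f) :=
  Ex_join (po_equivalence h) (sg_equivalence h) (ph_equivalence h) (comm_po_sg h)
    (fun _ _ => po_ph) (fun _ _ => sg_ph h) (fun _ _ => ph_join h) f

theorem sg_rel {i j k l : V} (h : D4 i j k l) {x y : Gr V d} (hxy : sg i j k l x y) :
    rel k l x y := by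
  rw [← sg_swap] at hxy
  exact (sg_ph h.swap hxy).1

theorem Ex_sg_swap {i j k l : V} (f : Gr V d → ℝ) :
    Ex (sg k l i j) f = Ex (sg i j k l) f := by
  funext x
  exact Ex_congr_rel fun y => sg_swap i j k l x y

theorem comm_ph_rel {i j k l : V} (h : D4 i j k l) (f : Gr V d → ℝ) :
    Ex (ph i j k l) (Ex (rel k l) f) = Ex (rel k l) (Ex (ph i j k l) f) := by
  have hs := sg_equivalence (d := d) h
  have hq := rel_equivalence (d := d) k l
  rw [Ex_ph h, Ex_ph h, comm_po_sg h f, Ex_tower_left hs hq (fun _ _ => sg_rel h),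
    ← comm_po_rel h f, Ex_tower_right hs hq (fun _ _ => sg_rel h)]

theorem comm_ph_ph {i j k l : V} (h : D4 i j k l) (f : Gr V d → ℝ) :
    Ex (ph i j k l) (Ex (ph k l i j) f) = Ex (ph k l i j) (Ex (ph i j k l) f) := by
  have hs := sg_equivalence (d := d) h
  have cS : ∀ g : Gr V d → ℝ, Ex (po k l i j) (Ex (sg i j k l) g)
      = Ex (sg i j k l) (Ex (po k l i j) g) := by
    intro g
    rw [← Ex_sg_swap g, comm_po_sg h.swap, Ex_sg_swap]
  have eq' : ∀ g : Gr V d → ℝ, Ex (ph k l i j) g = Ex (po k l i j) (Ex (sg i j k l) g) := by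
    intro g
    rw [Ex_ph h.swap, Ex_sg_swap]
  calc Ex (ph i j k l) (Ex (ph k l i j) f)
      = Ex (po i j k l) (Ex (sg i j k l) (Ex (po k l i j) (Ex (sg i j k l) f))) := by
        rw [Ex_ph h, eq']
    _ = Ex (po i j k l) (Ex (sg i j k l) (Ex (po k l i j) f)) := by
        rw [cS f, Ex_idem hs]
    _ = Ex (sg i j k l) (Ex (po i j k l) (Ex (po k l i j) f)) := by rw [comm_po_sg h]
    _ = Ex (sg i j k l) (Ex (po k l i j) (Ex (po i j k l) f)) := by rw [comm_po_po h]
    _ = Ex (po k l i j) (Ex (sg i j k l) (Ex (po i j k l) f)) := by rw [cS]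
    _ = Ex (po k l i j) (Ex (sg i j k l) (Ex (po i j k l) (Ex (sg i j k l) f))) := by
        rw [comm_po_sg h f, Ex_idem hs]
    _ = Ex (ph k l i j) (Ex (ph i j k l) f) := by rw [eq', Ex_ph h]

/-- at a non-alternating `x` one of the two classes is not split -/
theorem ph_case {i j k l : V} (h : D4 i j k l) {x : Gr V d} (hx : ¬ alt i j k l x) :
    (∀ y, rel i j x y → ph i j k l x y) ∨ (∀ y, rel k l x y → ph k l i j x y) := by
  by_cases hc : (x.1 i k).toNat + (x.1 j k).toNat = 1 ∧ bsum i j k l x = 2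
  · right
    intro y hy
    refine ⟨hy, fun _ => ?_⟩
    obtain ⟨r1, r2⟩ := rel_rows h hy
    obtain ⟨hc1, hc2⟩ := hc
    rw [x.symm' k i, x.symm' k j, y.symm' k i, y.symm' k j]
    unfold bsum at hc2
    unfold alt at hx
    revert hx r1 r2 hc1 hc2
    generalize x.1 i k = a
    generalize x.1 i l = b
    generalize x.1 j k = c
    generalize x.1 j l = e
    generalize y.1 i k = a'
    generalize y.1 i l = b'
    generalize y.1 j k = c'
    generalize y.1 j l = e'
    revert a b c e a' b' c' e'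
    decide
  · left
    intro y hy
    refine ⟨hy, fun h2 => ?_⟩
    have hc1 : (x.1 i k).toNat + (x.1 j k).toNat ≠ 1 := fun h1 => hc ⟨h1, h2⟩
    obtain ⟨c1, c2⟩ := rel_cols h hy
    unfold bsum at h2
    revert c1 c2 h2 hc1
    generalize x.1 i k = a
    generalize x.1 i l = b
    generalize x.1 j k = c
    generalize x.1 j l = e
    generalize y.1 i k = a'
    generalize y.1 i l = b'
    generalize y.1 j k = c'
    generalize y.1 j l = e'
    revert a b c e a' b' c' e'
    decide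

theorem ph_alt {i j k l : V} (h : D4 i j k l) {x y : Gr V d} (hxy : ph i j k l x y) :
    alt i j k l x ↔ alt i j k l y := by
  by_cases hn : bsum i j k l x = 2
  · rcases ph_block h hxy hn with hb | ⟨hx, hy, _⟩
    · exact beq_alt hb
    · exact ⟨fun _ => hy, fun _ => hx⟩
  · have hn' : bsum i j k l y ≠ 2 := by rwa [← rel_bsum h hxy.1]
    exact ⟨fun hx => absurd (alt_bsum hx) hn, fun hy => absurd (alt_bsum hy) hn'⟩

/-- on alternating elements `p̂` is `ralt` -/
theorem ralt_iff {i j k l : V} (h : D4 i j k l) {x : Gr V d} (hx : alt i j k l x) (y : Gr V d) :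
    ralt i j k l x y ↔ ph i j k l x y := by
  constructor
  · rintro ⟨h1, h2⟩
    refine ⟨h1, fun _ => ?_⟩
    have hy := h2.1 hx
    unfold alt at hx hy
    revert hx hy
    generalize x.1 i k = a
    generalize x.1 i l = b
    generalize x.1 j k = c
    generalize x.1 j l = e
    generalize y.1 i k = a'
    generalize y.1 i l = b'
    generalize y.1 j k = c'
    generalize y.1 j l = e'
    revert a b c e a' b' c' e'
    decide
  · intro hxy
    exact ⟨hxy.1, ph_alt h hxy⟩

theorem T_eq {i j k l : V} (h : D4 i j k l) (f : Gr V d → ℝ) :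
    T i j k l f = ∑ x : Gr V d with alt i j k l x,
      (Ex (ph i j k l) f x - Ex (rel i j) f x) ^ 2 := by
  unfold T
  refine sum_congr rfl fun x hx => ?_
  rw [mem_filter] at hx
  rw [Ex_congr_rel fun y => ralt_iff h hx.2 y]

theorem T_eq' {i j k l : V} (h : D4 i j k l) (f : Gr V d → ℝ) :
    T k l i j f = ∑ x : Gr V d with alt i j k l x,
      (Ex (ph k l i j) f x - Ex (rel k l) f x) ^ 2 := by
  rw [T_eq h.swap]
  refine sum_congr ?_ fun _ _ => rfl
  ext x
  simp only [mem_filter, mem_univ, true_and, alt_swap]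

theorem F_eq {i j k l : V} (f : Gr V d → ℝ) :
    F i j k l f = ip (Pj (sg i j k l) f) (Pj (sg i j k l) f) := by
  rw [ip_self_eq]
  unfold F
  refine sum_congr rfl fun x _ => ?_
  congr 1
  have hcls : cls (sg i j k l) x = {x, flip i j k l x} := by
    ext y
    rw [mem_cls, mem_insert, mem_singleton]
    rfl
  unfold Pj Ex
  rw [hcls]
  by_cases hx : flip i j k l x = x
  · rw [hx]
    simp
  · rw [sum_pair (fun e => hx e.symm), card_pair (fun e => hx e.symm)]
    push_cast
    ring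

/-- the inequality for two disjoint pairs -/
theorem disjoint_ineq {i j k l : V} (h : D4 i j k l) (f : Gr V d → ℝ) :
    F i j k l f - (1 / 2) * (T i j k l f + T k l i j f) ≤
      ip (Pj (rel i j) f) (Pj (rel k l) f) := by
  rw [F_eq, T_eq h, T_eq' h]
  exact abstract_disjoint (rel_equivalence i j) (rel_equivalence k l) (ph_equivalence h)
    (ph_equivalence h.swap) (sg_equivalence h) (fun _ _ hxy => hxy.1) (fun _ _ hxy => hxy.1)
    (fun _ _ => sg_ph h) (fun x y hxy => sg_ph h.swap ((sg_swap i j k l x y).2 hxy))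
    (comm_ph_ph h) (comm_ph_rel h) (comm_ph_rel h.swap) (alt i j k l)
    (fun _ _ hxy => ph_alt h hxy)
    (fun x y hxy => by rw [← alt_swap, ← alt_swap i j k l y]; exact ph_alt h.swap hxy)
    (fun x hx => ph_case h hx) f

end Concrete

end Vale.P335
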