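import Vale.Agent.P335.Avg

/-!
# P335 — spectral decomposition of an operator which is symmetric for `ip`
-/

namespace Vale.P335

open Finset

section
variable {X : Type*} [Fintype X]

/-- a symmetric operator has an orthonormal eigenbasis (Parseval form) -/
theorem exists_eigenbasis (L : (X → ℝ) →ₗ[ℝ] (X → ℝ)) (hL : ∀ f g, ip (L f) g = ip f (L g)) :
    ∃ (n : ℕ) (b : Fin n → X → ℝ) (μ : Fin n → ℝ), (∀ i, L (b i) = μ i • b i) ∧
      (∀ i, ip (b i) (b i) = 1) ∧ ∀ f g, ip f g = ∑ i, ip f (b i) * ip (b i) g := by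
  classical
  let e := WithLp.linearEquiv 2 ℝ (X → ℝ)
  let T : EuclideanSpace ℝ X →ₗ[ℝ] EuclideanSpace ℝ X :=
    (e.symm : (X → ℝ) →ₗ[ℝ] EuclideanSpace ℝ X) ∘ₗ L ∘ₗ
      (e : EuclideanSpace ℝ X →ₗ[ℝ] (X → ℝ))
  have hin : ∀ u v : EuclideanSpace ℝ X, inner ℝ u v = ip (e u) (e v) := by
    intro u v
    rw [PiLp.inner_apply]
    unfold ip
    refine sum_congr rfl fun x _ => ?_
    simp only [RCLike.inner_apply, conj_trivial]
    exact mul_comm _ _
  have hT : T.IsSymmetric := by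
    intro u v
    rw [hin, hin]
    exact hL (e u) (e v)
  have hn : Module.finrank ℝ (EuclideanSpace ℝ X) = Fintype.card X := finrank_euclideanSpace
  let B := hT.eigenvectorBasis hn
  refine ⟨Fintype.card X, fun i => e (B i), fun i => hT.eigenvalues hn i, ?_, ?_, ?_⟩
  · intro i
    have h := hT.apply_eigenvectorBasis hn i
    have h2 : e (T (B i)) = L (e (B i)) := e.apply_symm_apply _
    rw [← h2, h, map_smul]
    rfl
  · intro i
    rw [← hin, real_inner_self_eq_norm_sq, B.orthonormal.1 i, one_pow]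
  · intro f g
    have h := B.sum_inner_mul_inner (e.symm f) (e.symm g)
    have h0 : ip f g = inner ℝ (e.symm f) (e.symm g) := by
      rw [hin, e.apply_symm_apply, e.apply_symm_apply]
    rw [h0, ← h]
    refine sum_congr rfl fun i _ => ?_
    rw [hin, hin, e.apply_symm_apply, e.apply_symm_apply]

/-- if every eigenvalue `μ` of the symmetric operator `L` satisfies `μ ≤ μ²` then `L ≤ L²` -/
theorem le_sq_of_eigenvalues (L : (X → ℝ) →ₗ[ℝ] (X → ℝ)) (hL : ∀ f g, ip (L f) g = ip f (L g))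
    (h : ∀ (μ : ℝ) (g : X → ℝ), g ≠ 0 → L g = μ • g → μ ≤ μ ^ 2) (f : X → ℝ) :
    ip (L f) f ≤ ip (L f) (L f) := by
  obtain ⟨n, b, μ, hb, h1, hP⟩ := exists_eigenbasis L hL
  have hb' : ∀ g i, ip (L g) (b i) = μ i * ip g (b i) := by
    intro g i
    rw [hL, hb, ip_smul_right]
  rw [hP (L f) f, hP (L f) (L f)]
  refine sum_le_sum fun i _ => ?_
  rw [ip_comm (b i) f, ip_comm (b i) (L f), hb']
  have hμ : μ i ≤ μ i ^ 2 := h (μ i) (b i) (fun h0 => by
    have := h1 i
    rw [h0] at this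
    simp [ip] at this) (hb i)
  nlinarith [sq_nonneg (ip f (b i)), mul_le_mul_of_nonneg_right hμ (sq_nonneg (ip f (b i)))]

/-- if `0 ≤ L ≤ L²` then `L ≥ 1` on the orthogonal complement of the kernel -/
theorem gap_of_le_sq (L : (X → ℝ) →ₗ[ℝ] (X → ℝ)) (hL : ∀ f g, ip (L f) g = ip f (L g))
    (hpos : ∀ f, 0 ≤ ip (L f) f) (hsq : ∀ f, ip (L f) f ≤ ip (L f) (L f))
    (f : X → ℝ) (hf : ∀ g, L g = 0 → ip g f = 0) :
    ip f f ≤ ip (L f) f := by
  obtain ⟨n, b, μ, hb, h1, hP⟩ := exists_eigenbasis L hL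
  rw [hP (L f) f, hP f f]
  refine sum_le_sum fun i _ => ?_
  have hb' : ip (L f) (b i) = μ i * ip f (b i) := by
    rw [hL, hb, ip_smul_right]
  rw [hb', ip_comm (b i) f]
  by_cases h0 : μ i = 0
  · have : ip (b i) f = 0 := hf _ (by rw [hb, h0, zero_smul])
    rw [ip_comm f, this]
    simp
  · have e1 := hpos (b i)
    have e2 := hsq (b i)
    rw [hb, ip_smul_left, h1, mul_one] at e1
    rw [hb, ip_smul_left, ip_smul_left, ip_smul_right, h1, mul_one] at e2
    have hμ : 1 ≤ μ i := by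
      have hp : 0 < μ i := lt_of_le_of_ne e1 (Ne.symm h0)
      by_contra hlt
      push Not at hlt
      nlinarith
    nlinarith [mul_self_nonneg (ip f (b i)),
      mul_le_mul_of_nonneg_right hμ (mul_self_nonneg (ip f (b i)))]

/-- `E_r` as a linear map -/
noncomputable def ExL (r : X → X → Prop) : (X → ℝ) →ₗ[ℝ] (X → ℝ) where
  toFun := Ex r
  map_add' := Ex_add
  map_smul' := Ex_smul

/-- `1 - E_r` as a linear map -/
noncomputable def PjL (r : X → X → Prop) : (X → ℝ) →ₗ[ℝ] (X → ℝ) where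
  toFun := Pj r
  map_add' := Pj_add
  map_smul' := Pj_smul

theorem ExL_apply (r : X → X → Prop) (f : X → ℝ) : ExL r f = Ex r f := rfl

theorem PjL_apply (r : X → X → Prop) (f : X → ℝ) : PjL r f = Pj r f := rfl

end

end Vale.P335
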