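import Vale.Agent.P335.Avg

/-!
# P335 — M3: exchanging two columns with the same column sum
-/

namespace Vale.P335

open Finset

section ThreeRow

variable {Γ : Type*} [Fintype Γ] [DecidableEq Γ] {r : Fin 3 → ℕ} {s : Γ → ℕ}

theorem swapCol_mem (c c' : Γ) (h : s c = s c') (x : M3 Γ r s) :
    (∀ a, ∑ b, (x.1 a (Equiv.swap c c' b)).toNat = r a) ∧
    ∀ b, ∑ a, (x.1 a (Equiv.swap c c' b)).toNat = s b := by
  constructor
  · intro a
    rw [← x.2.1 a]
    exact Equiv.sum_comp (Equiv.swap c c') (fun b => (x.1 a b).toNat)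
  · intro b
    rw [x.2.2]
    by_cases h1 : b = c
    · subst h1; rw [Equiv.swap_apply_left, h]
    · by_cases h2 : b = c'
      · subst h2; rw [Equiv.swap_apply_right, h]
      · rw [Equiv.swap_apply_of_ne_of_ne h1 h2]

/-- exchange two columns with the same sum -/
def swapCol (c c' : Γ) (h : s c = s c') (x : M3 Γ r s) : M3 Γ r s :=
  ⟨fun a b => x.1 a (Equiv.swap c c' b), swapCol_mem c c' h x⟩

theorem swapCol_val (c c' : Γ) (h : s c = s c') (x : M3 Γ r s) (a : Fin 3) (b : Γ) :
    (swapCol c c' h x).1 a b = x.1 a (Equiv.swap c c' b) := rfl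

theorem swapCol_swapCol (c c' : Γ) (h : s c = s c') (x : M3 Γ r s) :
    swapCol c c' h (swapCol c c' h x) = x := by
  apply Subtype.ext
  funext a b
  rw [swapCol_val, swapCol_val, Equiv.swap_apply_self]

end ThreeRow

end Vale.P335
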