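import Vale.Agent.P335.ThreeRowC
import Vale.Agent.P335.ThreeRowSwap

/-!
# P335 — M3: functions invariant under exchanging equal-sum columns depend only on `alpha`
-/

namespace Vale.P335

open Finset

section ThreeRow

variable {Γ : Type*} [Fintype Γ] [DecidableEq Γ] {r : Fin 3 → ℕ} {s : Γ → ℕ}

theorem alpha_swapCol (c c' : Γ) (h : s c = s c') (x : M3 Γ r s) (a : Fin 3) :
    alpha (swapCol c c' h x) a = alpha x a := by
  unfold alpha
  refine card_bij' (fun b _ => Equiv.swap c c' b) (fun b _ => Equiv.swap c c' b) ?_ ?_ ?_ ?_
  · intro b hb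
    rw [mem_filter] at hb ⊢
    refine ⟨mem_univ _, ?_, hb.2.2⟩
    rw [← hb.2.1]
    by_cases h1 : b = c
    · subst h1; rw [Equiv.swap_apply_left, h]
    · by_cases h2 : b = c'
      · subst h2; rw [Equiv.swap_apply_right, h]
      · rw [Equiv.swap_apply_of_ne_of_ne h1 h2]
  · intro b hb
    rw [mem_filter] at hb ⊢
    refine ⟨mem_univ _, ?_, ?_⟩
    · rw [← hb.2.1]
      by_cases h1 : b = c
      · subst h1; rw [Equiv.swap_apply_left, h]
      · by_cases h2 : b = c'
        · subst h2; rw [Equiv.swap_apply_right, h]
        · rw [Equiv.swap_apply_of_ne_of_ne h1 h2]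
    · rw [swapCol_val, Equiv.swap_apply_self]; exact hb.2.2
  · intro b _; exact Equiv.swap_apply_self _ _ _
  · intro b _; exact Equiv.swap_apply_self _ _ _

/-- columns on which `x` and `y` differ -/
def diffc (x y : M3 Γ r s) : Finset Γ := univ.filter fun c => ∃ a, x.1 a c ≠ y.1 a c

omit [DecidableEq Γ] in
theorem col_of_one {x : M3 Γ r s} {c : Γ} (hs : s c = 1) {i : Fin 3} (hi : x.1 i c = true)
    (a : Fin 3) : x.1 a c = decide (a = i) := by
  have h := col3 x c
  rw [hs] at h
  revert h
  fin_cases i <;> fin_cases a <;>
    simp only [Fin.zero_eta, Fin.mk_one, Fin.reduceFinMk] at hi ⊢ <;> rw [hi] <;>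
    cases h0 : x.1 0 c <;> cases h1 : x.1 1 c <;> cases h2 : x.1 2 c <;> simp_all

omit [DecidableEq Γ] in
theorem exists_one {x : M3 Γ r s} {c : Γ} (hs : s c = 1) : ∃ i, x.1 i c = true := by
  have h := col3 x c
  by_contra hcon
  push Not at hcon
  have h0 := hcon 0
  have h1 := hcon 1
  have h2 := hcon 2
  simp_all

omit [DecidableEq Γ] in
theorem col_of_two {x : M3 Γ r s} {c : Γ} (hs : s c = 2) {i : Fin 3} (hi : x.1 i c = false)
    (a : Fin 3) : x.1 a c = !decide (a = i) := by
  have h := col3 x c
  rw [hs] at h
  revert h
  fin_cases i <;> fin_cases a <;>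
    simp only [Fin.zero_eta, Fin.mk_one, Fin.reduceFinMk] at hi ⊢ <;> rw [hi] <;>
    cases h0 : x.1 0 c <;> cases h1 : x.1 1 c <;> cases h2 : x.1 2 c <;> simp_all

omit [DecidableEq Γ] in
theorem exists_two {x : M3 Γ r s} {c : Γ} (hs : s c = 2) : ∃ i, x.1 i c = false := by
  have h := col3 x c
  by_contra hcon
  push Not at hcon
  have h0 := hcon 0
  have h1 := hcon 1
  have h2 := hcon 2
  simp_all

omit [DecidableEq Γ] in
theorem s_cases {x y : M3 Γ r s} {c : Γ} {a : Fin 3} (h : x.1 a c ≠ y.1 a c) :
    s c = 1 ∨ s c = 2 := by
  have hx := col3 x c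
  have hy := col3 y c
  have b : ∀ (z : M3 Γ r s) (a : Fin 3), (z.1 a c).toNat ≤ 1 := fun z a => Bool.toNat_le _
  have hx0 := b x 0
  have hx1 := b x 1
  have hx2 := b x 2
  have hy0 := b y 0
  have hy1 := b y 1
  have hy2 := b y 2
  have hne : (x.1 a c).toNat ≠ (y.1 a c).toNat := by
    cases h1 : x.1 a c <;> cases h2 : y.1 a c <;> simp_all
  fin_cases a <;> simp only [Fin.zero_eta, Fin.mk_one, Fin.reduceFinMk] at hne <;> omega

/-- if the target column of `x` can be found elsewhere in `x`, an exchange decreases the number of
differing columns -/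
theorem diffc_swap {x y : M3 Γ r s} {c c' : Γ} (h : s c = s c')
    (hc : c ∈ diffc x y) (hc' : c' ∈ diffc x y) (heq : ∀ a, x.1 a c' = y.1 a c) :
    (diffc (swapCol c c' h x) y).card < (diffc x y).card := by
  apply card_lt_card
  rw [ssubset_iff_of_subset]
  · refine ⟨c, hc, ?_⟩
    unfold diffc
    rw [mem_filter]
    push Not
    intro _ a
    rw [swapCol_val, Equiv.swap_apply_left, heq]
  · intro b hb
    by_cases h1 : b = c
    · rw [h1]; exact hc
    · by_cases h2 : b = c'
      · rw [h2]; exact hc'
      · unfold diffc at hb ⊢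
        rw [mem_filter] at hb ⊢
        obtain ⟨_, a, ha⟩ := hb
        rw [swapCol_val, Equiv.swap_apply_of_ne_of_ne h1 h2] at ha
        exact ⟨mem_univ _, a, ha⟩

/-- two filters with the same cardinality, one element in the second but not in the first -/
theorem exists_diff {A B : Finset Γ} (h : A.card = B.card) {c : Γ} (hB : c ∈ B) (hA : c ∉ A) :
    ∃ c', c' ∈ A ∧ c' ∉ B := by
  by_contra hcon
  push Not at hcon
  have hsub : A ⊆ B.erase c := fun b hb => mem_erase.2 ⟨fun e => hA (e ▸ hb), hcon b hb⟩
  have := card_le_card hsub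
  rw [card_erase_of_mem hB] at this
  have := card_pos.2 ⟨c, hB⟩
  omega

theorem eq_of_alpha_eq (g : M3 Γ r s → ℝ)
    (hg : ∀ (c c' : Γ) (h : s c = s c') x, g (swapCol c c' h x) = g x)
    {x y : M3 Γ r s} (h : ∀ a, alpha x a = alpha y a) : g x = g y := by
  have main : ∀ (n : ℕ) (x y : M3 Γ r s), (diffc x y).card = n →
      (∀ a, alpha x a = alpha y a) → g x = g y := by
    intro n
    induction n using Nat.strong_induction_on with
    | _ n ih =>
      intro x y hn h
      rcases (diffc x y).eq_empty_or_nonempty with he | ⟨c, hc⟩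
      · congr 1
        apply Subtype.ext
        funext a b
        by_contra hne
        have : b ∈ diffc x y := by
          unfold diffc
          rw [mem_filter]
          exact ⟨mem_univ _, a, hne⟩
        rw [he] at this
        exact absurd this (notMem_empty b)
      · have step : ∀ c', s c = s c' → c' ∈ diffc x y → (∀ a, x.1 a c' = y.1 a c) →
            g x = g y := by
          intro c' hs hc' heq
          rw [← hg c c' hs x]
          refine ih _ ?_ _ y rfl ?_
          · rw [← hn]
            exact diffc_swap hs hc hc' heq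
          · intro a
            rw [alpha_swapCol, h]
        have hc0 := hc
        unfold diffc at hc0
        rw [mem_filter] at hc0
        obtain ⟨_, a, ha⟩ := hc0
        rcases s_cases ha with hs | hs
        · obtain ⟨j, hj⟩ := exists_one (x := y) hs
          have hxj : x.1 j c = false := by
            cases hx : x.1 j c
            · rfl
            · exact absurd (by rw [col_of_one hs hx a, col_of_one hs hj a]) ha
          obtain ⟨c', h1, h2⟩ := exists_diff (h j)
            (c := c) (by rw [mem_filter]; exact ⟨mem_univ _, hs, hj⟩)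
            (by rw [mem_filter]; rintro ⟨-, -, h3⟩; rw [hxj] at h3; exact Bool.noConfusion h3)
          rw [mem_filter] at h1 h2
          have hs' : s c' = 1 := h1.2.1
          have hyj : y.1 j c' = false := by
            cases hy : y.1 j c'
            · rfl
            · exact absurd ⟨mem_univ _, hs', hy⟩ h2
          refine step c' (by rw [hs, hs']) ?_ ?_
          · unfold diffc
            rw [mem_filter]
            exact ⟨mem_univ _, j, by rw [h1.2.2, hyj]; exact Bool.noConfusion⟩
          · intro b
            rw [col_of_one hs' h1.2.2, col_of_one hs hj]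
        · obtain ⟨j, hj⟩ := exists_two (x := y) hs
          have hxj : x.1 j c = true := by
            cases hx : x.1 j c
            · exact absurd (by rw [col_of_two hs hx a, col_of_two hs hj a]) ha
            · rfl
          have hβ : beta x j = beta y j := by
            have := alpha_beta x y j
            have := h j
            omega
          obtain ⟨c', h1, h2⟩ := exists_diff hβ
            (c := c) (by rw [mem_filter]; exact ⟨mem_univ _, hs, hj⟩)
            (by rw [mem_filter]; rintro ⟨-, -, h3⟩; rw [hxj] at h3; exact Bool.noConfusion h3)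
          rw [mem_filter] at h1 h2
          have hs' : s c' = 2 := h1.2.1
          have hyj : y.1 j c' = true := by
            cases hy : y.1 j c'
            · exact absurd ⟨mem_univ _, hs', hy⟩ h2
            · rfl
          refine step c' (by rw [hs, hs']) ?_ ?_
          · unfold diffc
            rw [mem_filter]
            exact ⟨mem_univ _, j, by rw [h1.2.2, hyj]; exact Bool.noConfusion⟩
          · intro b
            rw [col_of_two hs' h1.2.2, col_of_two hs hj]
  exact main _ x y rfl h

end ThreeRow

end Vale.P335
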