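import Vale.Agent.P335.ThreeRowSlice

/-!
# P335 — M3: eigenfunctions that depend only on `alpha`
-/

namespace Vale.P335

open Finset

section ThreeRow

variable {Γ : Type*} [Fintype Γ] [DecidableEq Γ] {r : Fin 3 → ℕ} {s : Γ → ℕ}

/-- number of sum-two columns with their zero in row `a` -/
def beta (x : M3 Γ r s) (a : Fin 3) : ℕ :=
  (univ.filter fun c => s c = 2 ∧ x.1 a c = false).card

omit [DecidableEq Γ] in
theorem col3 (x : M3 Γ r s) (c : Γ) :
    (x.1 0 c).toNat + (x.1 1 c).toNat + (x.1 2 c).toNat = s c :=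
  col_sum x (by decide) (by decide) (by decide) c

omit [DecidableEq Γ] in
theorem alpha_beta (x y : M3 Γ r s) (a : Fin 3) :
    alpha x a + beta y a = alpha y a + beta x a := by
  have key : ∀ x : M3 Γ r s, r a + beta x a =
      alpha x a + ∑ c, ((if s c = 2 then 1 else 0) + (if s c = 3 then 1 else 0)) := by
    intro x
    rw [← x.2.1 a]
    unfold alpha beta
    rw [card_filter, card_filter, ← sum_add_distrib, ← sum_add_distrib]
    refine sum_congr rfl fun c _ => ?_
    have h := col3 x c
    have h0 : (x.1 0 c).toNat ≤ 1 := Bool.toNat_le _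
    have h1 : (x.1 1 c).toNat ≤ 1 := Bool.toNat_le _
    have h2 : (x.1 2 c).toNat ≤ 1 := Bool.toNat_le _
    have ha : (x.1 a c).toNat ≤ s c ∧ s c ≤ (x.1 a c).toNat + 2 := by
      fin_cases a <;> simp only [Fin.zero_eta, Fin.mk_one, Fin.reduceFinMk] <;>
        constructor <;> omega
    cases hx : x.1 a c
    · rw [hx] at ha
      simp only [Bool.toNat_false] at ha
      have h3 : s c ≠ 3 := by omega
      by_cases h2 : s c = 2 <;> simp [h2, h3]
    · rw [hx] at ha
      simp only [Bool.toNat_true] at ha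
      have h4 : s c = 1 ∨ s c = 2 ∨ s c = 3 := by omega
      rcases h4 with h4 | h4 | h4 <;> simp [h4]
  have h1 := key x
  have h2 := key y
  omega

omit [DecidableEq Γ] in
theorem sum_alpha (x y : M3 Γ r s) :
    alpha x 0 + alpha x 1 + alpha x 2 = alpha y 0 + alpha y 1 + alpha y 2 := by
  have key : ∀ x : M3 Γ r s, alpha x 0 + alpha x 1 + alpha x 2 =
      ∑ c, if s c = 1 then 1 else 0 := by
    intro x
    unfold alpha
    rw [card_filter, card_filter, card_filter, ← sum_add_distrib, ← sum_add_distrib]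
    refine sum_congr rfl fun c _ => ?_
    have h := col3 x c
    by_cases hs : s c = 1
    · simp only [hs, true_and, if_true]
      rw [hs] at h
      cases h0 : x.1 0 c <;> cases h1 : x.1 1 c <;> cases h2 : x.1 2 c <;>
        rw [h0, h1, h2] at h <;> simp_all
    · simp [hs]
  rw [key x, key y]

/-- from `x` one can move towards `y` in the rows `i`, `j` -/
theorem move_towards {x y : M3 Γ r s} {i j : Fin 3} (hij : i ≠ j)
    (hi : alpha y i < alpha x i) :
    ∃ c c' x', Move i j c c' x x' := by
  have hb := alpha_beta x y i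
  have h1 : 0 < alpha x i := by omega
  have h2 : 0 < beta x i := by omega
  obtain ⟨c, hc⟩ := card_pos.1 h1
  obtain ⟨c', hc'⟩ := card_pos.1 h2
  rw [mem_filter] at hc hc'
  obtain ⟨x', hx'⟩ := exists_move hij hc.2.1 hc'.2.1 hc.2.2 hc'.2.2
  exact ⟨c, c', x', hx'⟩

/-- an adjacent pair of `alpha`-vectors is realised by an elementary move -/
theorem Adj.exists_move {x y : M3 Γ r s} {i j : Fin 3} (h : Adj x y i j) :
    ∃ c c' x', Move i j c c' x x' ∧ ∀ a, alpha x' a = alpha y a := by
  obtain ⟨hij, h1, h2, h3⟩ := h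
  obtain ⟨c, c', x', hx'⟩ := move_towards (x := x) (y := y) hij (by omega)
  refine ⟨c, c', x', hx', fun a => ?_⟩
  obtain ⟨-, e1, e2, e3⟩ := hx'.adj
  by_cases hai : a = i
  · subst hai; omega
  · by_cases haj : a = j
    · subst haj; omega
    · rw [e3 a hai haj, h3 a hai haj]

/-- a function of `alpha` which is unchanged under elementary moves is constant -/
theorem const_of_moves (g : M3 Γ r s → ℝ)
    (hα : ∀ x y : M3 Γ r s, (∀ a, alpha x a = alpha y a) → g x = g y)
    (hmv : ∀ (i j : Fin 3) (c c' : Γ) (x x' : M3 Γ r s), Move i j c c' x x' → g x = g x') :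
    ∀ x y, g x = g y := by
  have main : ∀ (n : ℕ) (x y : M3 Γ r s), ∑ a, (alpha x a - alpha y a) = n → g x = g y := by
    intro n
    induction n using Nat.strong_induction_on with
    | _ n ih =>
      intro x y hn
      by_cases hne : ∀ a, alpha x a = alpha y a
      · exact hα x y hne
      · push Not at hne
        have hs := sum_alpha x y
        have hi : ∃ i, alpha y i < alpha x i := by
          by_contra hcon
          push Not at hcon
          obtain ⟨a, ha⟩ := hne
          have h0 := hcon 0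
          have h1 := hcon 1
          have h2 := hcon 2
          fin_cases a <;> simp only [Fin.zero_eta, Fin.mk_one, Fin.reduceFinMk] at ha <;> omega
        have hj : ∃ j, alpha x j < alpha y j := by
          by_contra hcon
          push Not at hcon
          obtain ⟨a, ha⟩ := hne
          have h0 := hcon 0
          have h1 := hcon 1
          have h2 := hcon 2
          fin_cases a <;> simp only [Fin.zero_eta, Fin.mk_one, Fin.reduceFinMk] at ha <;> omega
        obtain ⟨i, hi⟩ := hi
        obtain ⟨j, hj⟩ := hj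
        have hij : i ≠ j := by rintro rfl; omega
        obtain ⟨c, c', x', hx'⟩ := move_towards (x := x) (y := y) hij hi
        rw [hmv _ _ _ _ _ _ hx']
        obtain ⟨-, e1, e2, e3⟩ := hx'.adj
        obtain ⟨m, him, hjm, hm⟩ := exists_third i j hij
        refine ih (∑ a, (alpha x' a - alpha y a)) ?_ x' y rfl
        rw [← hn, sum3 hij him hjm, sum3 hij him hjm, e3 m him.symm hjm.symm]
        omega
  intro x y
  exact main _ x y rfl

/-- an eigenfunction of `E_0 + E_1 + E_2` with eigenvalue larger than `2` which depends only on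
`alpha` is constant -/
theorem eigen_const {κ : ℝ} (hκ : 2 < κ) (g : M3 Γ r s → ℝ)
    (hg : ∀ x, Ex (rowRel 0) g x + Ex (rowRel 1) g x + Ex (rowRel 2) g x = κ * g x)
    (hα : ∀ x y : M3 Γ r s, (∀ a, alpha x a = alpha y a) → g x = g y) :
    ∀ x y, g x = g y := by
  classical
  refine const_of_moves g hα ?_
  intro i₀ j₀ c₀ c₀' x₀ x₀' h₀
  by_contra hne
  let S : Finset (M3 Γ r s × M3 Γ r s) :=
    univ.filter fun p => ∃ i j, Adj p.1 p.2 i j
  have hS : (x₀, x₀') ∈ S := by
    rw [mem_filter]
    exact ⟨mem_univ _, i₀, j₀, h₀.adj⟩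
  obtain ⟨p, hp, hmax⟩ := exists_max_image S (fun p => |g p.1 - g p.2|) ⟨_, hS⟩
  obtain ⟨x, y⟩ := p
  rw [mem_filter] at hp
  obtain ⟨-, i, j, hadj⟩ := hp
  simp only at hadj hmax
  have hpos : 0 < |g x - g y| :=
    lt_of_lt_of_le (abs_pos.2 (sub_ne_zero.2 hne)) (hmax _ hS)
  have hlip : ∀ y₁ y₂ : M3 Γ r s, ∀ i j, Adj y₁ y₂ i j → |g y₁ - g y₂| ≤ |g x - g y| :=
    fun y₁ y₂ i j h => hmax (y₁, y₂) (by rw [mem_filter]; exact ⟨mem_univ _, i, j, h⟩)
  obtain ⟨c, c', x', hmv, hx'⟩ := hadj.exists_move
  have key := sum_Ex_move g _ hpos.le hlip hmv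
  rw [hg, hg, hα x' y hx', ← mul_sub, abs_mul, abs_of_pos (by linarith : (0 : ℝ) < κ)] at key
  nlinarith

end ThreeRow

end Vale.P335
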