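import Vale.Agent.P335.ThreeRowA
import Vale.Agent.P335.ThreeRowB
import Vale.Agent.P335.ThreeRowC
import Vale.Agent.P335.Spectral

/-!
# P335 — M3: the three-row inequality
-/

namespace Vale.P335

open Finset

section ThreeRow

variable {Γ : Type*} [Fintype Γ] [DecidableEq Γ] {r : Fin 3 → ℕ} {s : Γ → ℕ}

/-- the three-row inequality -/
theorem three_row (f : M3 Γ r s → ℝ) :
    0 ≤ ip (Pj (rowRel 0) f) (Pj (rowRel 1) f) + ip (Pj (rowRel 0) f) (Pj (rowRel 2) f)
      + ip (Pj (rowRel 1) f) (Pj (rowRel 2) f) := by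
  have hr := rowRel_equivalence (Γ := Γ) (r := r) (s := s)
  let L : (M3 Γ r s → ℝ) →ₗ[ℝ] (M3 Γ r s → ℝ) :=
    PjL (rowRel 0) + PjL (rowRel 1) + PjL (rowRel 2)
  have hLa : ∀ f, L f = Pj (rowRel 0) f + Pj (rowRel 1) f + Pj (rowRel 2) f := fun f => rfl
  have hL : ∀ f g, ip (L f) g = ip f (L g) := by
    intro f g
    rw [hLa, hLa, ip_add_left, ip_add_left, ip_add_right, ip_add_right,
      ip_Pj_left (hr 0), ip_Pj_left (hr 1), ip_Pj_left (hr 2)]
  have hμ : ∀ (μ : ℝ) (g : M3 Γ r s → ℝ), g ≠ 0 → L g = μ • g → μ ≤ μ ^ 2 := by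
    intro μ g hg0 hg
    by_contra hlt
    push Not at hlt
    have h0 : 0 < μ := by nlinarith [sq_nonneg μ]
    have h1 : μ < 1 := by
      by_contra h1
      push Not at h1
      nlinarith
    have hE : ∀ x, Ex (rowRel 0) g x + Ex (rowRel 1) g x + Ex (rowRel 2) g x
        = (3 - μ) * g x := by
      intro x
      have := congrFun hg x
      rw [hLa] at this
      simp only [Pi.add_apply, Pj, Pi.smul_apply, smul_eq_mul] at this
      linarith
    have hc := eigen_const (by linarith) g hE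
      (fun x y h => eq_of_alpha_eq g (fun c c' h x => eigen_swap (by linarith) g hE h x) h)
    apply hg0
    funext x
    have e : ∀ a, Ex (rowRel a) g x = g x := fun a =>
      Ex_eq_of_const (hr a) fun y _ => hc y x
    have := hE x
    rw [e, e, e] at this
    have : μ * g x = 0 := by linarith
    rcases mul_eq_zero.1 this with h | h
    · exact absurd h h0.ne'
    · simpa using h
  have key := le_sq_of_eigenvalues L hL hμ f
  rw [hLa] at key
  simp only [ip_add_left, ip_add_right] at key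
  have p0 := ip_Pj_self (hr 0) f
  have p1 := ip_Pj_self (hr 1) f
  have p2 := ip_Pj_self (hr 2) f
  rw [ip_comm f] at p0 p1 p2
  rw [ip_comm (Pj (rowRel 1) f) (Pj (rowRel 0) f), ip_comm (Pj (rowRel 2) f) (Pj (rowRel 0) f),
    ip_comm (Pj (rowRel 2) f) (Pj (rowRel 1) f)] at key
  linarith

end ThreeRow

end Vale.P335
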