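import Vale.Agent.P335.ThreeRowSwap

/-!
# P335 — M3, step A: eigenfunctions of `E_0 + E_1 + E_2` with eigenvalue `> 2` are invariant under
the exchange of two columns with the same sum
-/

namespace Vale.P335

open Finset

section
variable {X : Type*} [Fintype X] {r : X → X → Prop}

theorem Ex_comp_equiv (e : X ≃ X) (he : ∀ x y, r x y ↔ r (e x) (e y)) (f : X → ℝ) (x : X) :
    Ex r (fun y => f (e y)) x = Ex r f (e x) := by
  classical
  have hcls : cls r (e x) = (cls r x).map e.toEmbedding := by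
    ext y
    rw [mem_cls, mem_map]
    constructor
    · intro h
      refine ⟨e.symm y, ?_, e.apply_symm_apply y⟩
      rw [mem_cls, he, e.apply_symm_apply]
      exact h
    · rintro ⟨z, hz, rfl⟩
      exact (he x z).1 (mem_cls.1 hz)
  unfold Ex
  rw [hcls, sum_map, card_map]
  rfl

end

section ThreeRow

variable {Γ : Type*} [Fintype Γ] [DecidableEq Γ] {r : Fin 3 → ℕ} {s : Γ → ℕ}

/-- `swapCol` as an equivalence -/
def swapColEquiv (c c' : Γ) (h : s c = s c') : M3 Γ r s ≃ M3 Γ r s where
  toFun := swapCol c c' h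
  invFun := swapCol c c' h
  left_inv := swapCol_swapCol c c' h
  right_inv := swapCol_swapCol c c' h

theorem rowRel_swapCol (c c' : Γ) (h : s c = s c') (a : Fin 3) (x y : M3 Γ r s) :
    rowRel a x y ↔ rowRel a (swapCol c c' h x) (swapCol c c' h y) := by
  unfold rowRel
  constructor
  · intro e
    funext b
    rw [swapCol_val, swapCol_val, e]
  · intro e
    funext b
    have := congrFun e (Equiv.swap c c' b)
    rwa [swapCol_val, swapCol_val, Equiv.swap_apply_self] at this

theorem rowRel_swapCol_of_eq {c c' : Γ} (h : s c = s c') {a : Fin 3} {x : M3 Γ r s}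
    (hx : x.1 a c = x.1 a c') : rowRel a x (swapCol c c' h x) := by
  funext b
  rw [swapCol_val]
  by_cases h1 : b = c
  · subst h1; rw [Equiv.swap_apply_left, hx]
  · by_cases h2 : b = c'
    · subst h2; rw [Equiv.swap_apply_right, hx]
    · rw [Equiv.swap_apply_of_ne_of_ne h1 h2]

/-- the antisymmetric part -/
private theorem phi_zero {c c' : Γ} (h : s c = s c') (f : M3 Γ r s → ℝ)
    (hf : ∀ x, f (swapCol c c' h x) = -f x) {a : Fin 3} {x : M3 Γ r s}
    (hx : x.1 a c = x.1 a c') : Ex (rowRel a) f x = 0 := by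
  have h1 : Ex (rowRel a) f (swapCol c c' h x) = Ex (rowRel a) f x :=
    (Ex_congr (rowRel_equivalence a) f (rowRel_swapCol_of_eq h hx)).symm
  have h2 : Ex (rowRel a) (fun y => f (swapCol c c' h y)) x
      = Ex (rowRel a) f (swapCol c c' h x) :=
    Ex_comp_equiv (swapColEquiv c c' h) (rowRel_swapCol c c' h a) f x
  have h3 : (fun y => f (swapCol c c' h y)) = -f := by
    funext y
    exact hf y
  rw [h3, Ex_neg, Pi.neg_apply, h1] at h2
  linarith

/-- one of the three rows has equal entries in two columns with the same sum -/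
private theorem exists_eq {c c' : Γ} (h : s c = s c') (x : M3 Γ r s) :
    x.1 0 c = x.1 0 c' ∨ x.1 1 c = x.1 1 c' ∨ x.1 2 c = x.1 2 c' := by
  have h1 := x.2.2 c
  have h2 := x.2.2 c'
  rw [Fin.sum_univ_three] at h1 h2
  rw [h] at h1
  have h3 := h1.trans h2.symm
  revert h3
  generalize x.1 0 c = p
  generalize x.1 1 c = q
  generalize x.1 2 c = t
  generalize x.1 0 c' = p'
  generalize x.1 1 c' = q'
  generalize x.1 2 c' = t'
  revert p q t p' q' t'
  decide

theorem anti_zero {κ : ℝ} (hκ : 2 < κ) {c c' : Γ} (h : s c = s c') (f : M3 Γ r s → ℝ)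
    (hf : ∀ x, f (swapCol c c' h x) = -f x)
    (hK : ∀ x, Ex (rowRel 0) f x + Ex (rowRel 1) f x + Ex (rowRel 2) f x = κ * f x) :
    f = 0 := by
  have hpt : ∀ x, (κ * f x) ^ 2 ≤ 2 * (Ex (rowRel 0) f x ^ 2 + Ex (rowRel 1) f x ^ 2
      + Ex (rowRel 2) f x ^ 2) := by
    intro x
    rw [← hK x]
    rcases exists_eq h x with h0 | h0 | h0
    · rw [phi_zero h f hf h0]
      nlinarith [sq_nonneg (Ex (rowRel 1) f x - Ex (rowRel 2) f x)]
    · rw [phi_zero h f hf h0]
      nlinarith [sq_nonneg (Ex (rowRel 0) f x - Ex (rowRel 2) f x)]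
    · rw [phi_zero h f hf h0]
      nlinarith [sq_nonneg (Ex (rowRel 0) f x - Ex (rowRel 1) f x)]
  have hsum := sum_le_sum fun x (_ : x ∈ (univ : Finset (M3 Γ r s))) => hpt x
  rw [← mul_sum, sum_add_distrib, sum_add_distrib, ← ip_self_eq (Ex (rowRel 0) f),
    ← ip_self_eq (Ex (rowRel 1) f), ← ip_self_eq (Ex (rowRel 2) f),
    ip_Ex_self (rowRel_equivalence 0), ip_Ex_self (rowRel_equivalence 1),
    ip_Ex_self (rowRel_equivalence 2), ← ip_add_right, ← ip_add_right] at hsum
  have e1 : ∑ x, (κ * f x) ^ 2 = κ ^ 2 * ip f f := by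
    rw [ip_self_eq, mul_sum]
    exact sum_congr rfl fun x _ => by ring
  have e2 : ip f (Ex (rowRel 0) f + Ex (rowRel 1) f + Ex (rowRel 2) f) = κ * ip f f := by
    rw [← ip_smul_right]
    congr 1
    funext x
    exact hK x
  rw [e1, e2] at hsum
  have hpos := ip_self_nonneg f
  have hz : ip f f = 0 := by
    by_contra hne
    have hp : 0 < ip f f := lt_of_le_of_ne hpos (Ne.symm hne)
    have : κ ^ 2 ≤ 2 * κ := by
      by_contra hlt
      push Not at hlt
      nlinarith
    nlinarith
  exact ip_self_eq_zero.1 hz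

theorem eigen_swap {κ : ℝ} (hκ : 2 < κ) (g : M3 Γ r s → ℝ)
    (hg : ∀ x, Ex (rowRel 0) g x + Ex (rowRel 1) g x + Ex (rowRel 2) g x = κ * g x)
    {c c' : Γ} (h : s c = s c') (x : M3 Γ r s) : g (swapCol c c' h x) = g x := by
  have hcomp : ∀ (a : Fin 3) (x : M3 Γ r s),
      Ex (rowRel a) (fun y => g (swapCol c c' h y)) x
        = Ex (rowRel a) g (swapCol c c' h x) := fun a x =>
    Ex_comp_equiv (swapColEquiv c c' h) (rowRel_swapCol c c' h a) g x
  have hf0 := anti_zero hκ h (g - fun y => g (swapCol c c' h y)) (fun x => by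
      simp only [Pi.sub_apply, swapCol_swapCol]
      ring) (fun x => by
      simp only [Ex_sub, Pi.sub_apply, hcomp]
      have h1 := hg x
      have h2 := hg (swapCol c c' h x)
      linarith)
  have := congrFun hf0 x
  simp only [Pi.sub_apply, Pi.zero_apply] at this
  linarith

end ThreeRow

end Vale.P335
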