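import Vale.Agent.P335.Defs
import Vale.Agent.P335.Avg

/-!
# P335 — slice comparison and the parametrisation of the row classes (part of M3)
-/

namespace Vale.P335

open Finset

section Slices

variable {Γ : Type*} [DecidableEq Γ]

theorem sum_powersetCard_insert (R : Finset Γ) (x : Γ) (hx : x ∉ R) (n : ℕ)
    (F : Finset Γ → ℝ) : ∑ U ∈ powersetCard (n + 1) (insert x R), F U =
      ∑ U ∈ powersetCard (n + 1) R, F U + ∑ U ∈ powersetCard n R, F (insert x U) := by
  rw [powersetCard_succ_insert hx, sum_union, sum_image]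
  · intro U hU U' hU' h
    have h1 : x ∉ U := fun h' => hx ((mem_powersetCard.1 hU).1 h')
    have h2 : x ∉ U' := fun h' => hx ((mem_powersetCard.1 hU').1 h')
    have : (insert x U).erase x = (insert x U').erase x := by rw [h]
    rwa [erase_insert h1, erase_insert h2] at this
  · rw [disjoint_left]
    intro U hU hU'
    rw [mem_image] at hU'
    obtain ⟨W, -, rfl⟩ := hU'
    exact hx ((mem_powersetCard.1 hU).1 (mem_insert_self x W))

/-- pairs (`U` of size `k`, `w ∉ U`) correspond to pairs (`U'` of size `k + 1`, `w ∈ U'`) -/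
theorem sum_pairs (R : Finset Γ) (k : ℕ) (φ : Finset Γ → Γ → ℝ) :
    ∑ U ∈ powersetCard k R, ∑ w ∈ R \ U, φ U w =
      ∑ U' ∈ powersetCard (k + 1) R, ∑ w ∈ U', φ (U'.erase w) w := by
  rw [sum_sigma', sum_sigma']
  refine sum_bij' (fun p _ => ⟨insert p.2 p.1, p.2⟩) (fun p _ => ⟨p.1.erase p.2, p.2⟩)
    ?_ ?_ ?_ ?_ ?_
  · rintro ⟨U, w⟩ h
    simp only [mem_sigma, mem_powersetCard, mem_sdiff] at h ⊢
    refine ⟨⟨insert_subset h.2.1 h.1.1, ?_⟩, mem_insert_self _ _⟩
    rw [card_insert_of_notMem h.2.2, h.1.2]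
  · rintro ⟨U, w⟩ h
    simp only [mem_sigma, mem_powersetCard, mem_sdiff] at h ⊢
    refine ⟨⟨(erase_subset _ _).trans h.1.1, ?_⟩, h.1.1 h.2, notMem_erase _ _⟩
    rw [card_erase_of_mem h.2, h.1.2]
    rfl
  · rintro ⟨U, w⟩ h
    simp only [mem_sigma, mem_powersetCard, mem_sdiff] at h
    simp only [erase_insert h.2.2]
  · rintro ⟨U, w⟩ h
    simp only [mem_sigma, mem_powersetCard] at h
    simp only [insert_erase h.2]
  · rintro ⟨U, w⟩ h
    simp only [mem_sigma, mem_powersetCard, mem_sdiff] at h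
    simp only [erase_insert h.2.2]

theorem sum_insert_pairs (R : Finset Γ) (k : ℕ) (F : Finset Γ → ℝ) :
    ∑ U ∈ powersetCard k R, ∑ w ∈ R \ U, F (insert w U) =
      ((k : ℝ) + 1) * ∑ U ∈ powersetCard (k + 1) R, F U := by
  rw [sum_pairs R k (fun U w => F (insert w U)), mul_sum]
  refine sum_congr rfl fun U hU => ?_
  have h1 : ∑ w ∈ U, F (insert w (U.erase w)) = ∑ w ∈ U, F U :=
    sum_congr rfl fun w hw => by rw [insert_erase hw]
  rw [h1, sum_const, (mem_powersetCard.1 hU).2, nsmul_eq_mul]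
  push_cast
  ring

theorem sum_erase_pairs (R : Finset Γ) (k : ℕ) (hk : k ≤ R.card) (F : Finset Γ → ℝ) :
    ∑ U ∈ powersetCard (k + 1) R, ∑ w ∈ U, F (U.erase w) =
      ((R.card : ℝ) - k) * ∑ U ∈ powersetCard k R, F U := by
  rw [← sum_pairs R k (fun U _ => F U), mul_sum]
  refine sum_congr rfl fun U hU => ?_
  have h := mem_powersetCard.1 hU
  rw [sum_const, card_sdiff_of_subset h.1, h.2, nsmul_eq_mul, Nat.cast_sub hk]

/-- decomposition of a sum over the bigger slice -/
theorem slice_decomp (R : Finset Γ) (c c' : Γ) (hc : c ∉ R) (hc' : c' ∉ R) (hcc : c ≠ c')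
    (k : ℕ) (hk : k ≤ R.card) (F : Finset Γ → ℝ) :
    ∑ U ∈ powersetCard (k + 1) (insert c (insert c' R)), F U =
      ∑ U ∈ powersetCard k R, (F (insert c U) + F (insert c' U) +
        (1 / ((R.card : ℝ) - k + 1)) * ∑ w ∈ U, F (insert c (insert c' (U.erase w))) +
        (1 / ((k : ℝ) + 1)) * ∑ w ∈ R \ U, F (insert w U)) := by
  have hcR : c ∉ insert c' R := by
    rw [mem_insert]; push Not; exact ⟨hcc, hc⟩
  have hpos : (0 : ℝ) < (R.card : ℝ) - k + 1 := by
    have : (k : ℝ) ≤ R.card := by exact_mod_cast hk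
    linarith
  have hpos' : (0 : ℝ) < (k : ℝ) + 1 := by positivity
  rw [sum_powersetCard_insert _ _ hcR, sum_powersetCard_insert _ _ hc']
  have e4 : ∑ U ∈ powersetCard k R, (1 / ((k : ℝ) + 1)) * ∑ w ∈ R \ U, F (insert w U) =
      ∑ U ∈ powersetCard (k + 1) R, F U := by
    rw [← mul_sum, sum_insert_pairs, ← mul_assoc, one_div_mul_cancel hpos'.ne', one_mul]
  have e3 : ∑ U ∈ powersetCard k (insert c' R), F (insert c U) =
      ∑ U ∈ powersetCard k R, F (insert c U) + ∑ U ∈ powersetCard k R,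
        (1 / ((R.card : ℝ) - k + 1)) * ∑ w ∈ U, F (insert c (insert c' (U.erase w))) := by
    rcases Nat.eq_zero_or_pos k with h0 | h0
    · subst h0
      simp
    · obtain ⟨n, rfl⟩ : ∃ n, k = n + 1 := Nat.exists_eq_succ_of_ne_zero h0.ne'
      rw [sum_powersetCard_insert _ _ hc', ← mul_sum,
        sum_erase_pairs R n (by omega) (fun W => F (insert c (insert c' W))), ← mul_assoc]
      have e : 1 / ((R.card : ℝ) - ((n + 1 : ℕ) : ℝ) + 1) * ((R.card : ℝ) - n) = 1 := by
        have h1 : (R.card : ℝ) - ((n + 1 : ℕ) : ℝ) + 1 = (R.card : ℝ) - n := by push_cast; ring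
        rw [h1]
        rw [h1] at hpos
        exact one_div_mul_cancel hpos.ne'
      rw [e, one_mul]
  rw [e3, sum_add_distrib, sum_add_distrib, sum_add_distrib, e4]
  ring

/-- SLICE COMPARISON -/
theorem slice_compare (R : Finset Γ) (c c' : Γ) (hc : c ∉ R) (hc' : c' ∉ R) (hcc : c ≠ c')
    (k : ℕ) (hk : k ≤ R.card) (f f' : Finset Γ → ℝ) (ℓ : ℝ)
    (h1 : ∀ U ∈ powersetCard k R, |f U - f' (insert c U)| ≤ ℓ)
    (h2 : ∀ U ∈ powersetCard k R, |f U - f' (insert c' U)| ≤ ℓ)
    (h3 : ∀ U ∈ powersetCard k R, ∀ w ∈ U, |f U - f' (insert c (insert c' (U.erase w)))| ≤ ℓ)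
    (h4 : ∀ U ∈ powersetCard k R, ∀ w ∈ R \ U, |f U - f' (insert w U)| ≤ ℓ) :
    |(∑ U ∈ powersetCard k R, f U) / (powersetCard k R).card -
      (∑ U ∈ powersetCard (k + 1) (insert c (insert c' R)), f' U) /
        (powersetCard (k + 1) (insert c (insert c' R))).card| ≤ ℓ := by
  have hpos : (0 : ℝ) < (R.card : ℝ) - k + 1 := by
    have : (k : ℝ) ≤ R.card := by exact_mod_cast hk
    linarith
  have hpos' : (0 : ℝ) < (k : ℝ) + 1 := by positivity
  obtain ⟨ω, hω⟩ : ∃ ω : ℝ, ω = 2 + k / ((R.card : ℝ) - k + 1) +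
    ((R.card : ℝ) - k) / ((k : ℝ) + 1) := ⟨_, rfl⟩
  have hkm : (0 : ℝ) ≤ (R.card : ℝ) - k := by
    have : (k : ℝ) ≤ R.card := by exact_mod_cast hk
    linarith
  have hωpos : 0 < ω := by
    rw [hω]
    have := div_nonneg (Nat.cast_nonneg k : (0 : ℝ) ≤ k) hpos.le
    have := div_nonneg hkm hpos'.le
    linarith
  have hN : (0 : ℝ) < (powersetCard k R).card := by
    rw [card_powersetCard]
    exact_mod_cast Nat.choose_pos hk
  have hN' : ((powersetCard (k + 1) (insert c (insert c' R))).card : ℝ) =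
      ω * (powersetCard k R).card := by
    have h := slice_decomp R c c' hc hc' hcc k hk (fun _ => 1)
    have e1 : ∑ U ∈ powersetCard (k + 1) (insert c (insert c' R)), (1 : ℝ) =
        (powersetCard (k + 1) (insert c (insert c' R))).card := by
      rw [sum_const, nsmul_eq_mul, mul_one]
    rw [← e1, h]
    have e2 : ∀ U ∈ powersetCard k R, ((1 : ℝ) + 1 +
        (1 / ((R.card : ℝ) - k + 1)) * ∑ w ∈ U, (1 : ℝ) +
        (1 / ((k : ℝ) + 1)) * ∑ w ∈ R \ U, (1 : ℝ)) = ω := by
      intro U hU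
      have hU' := mem_powersetCard.1 hU
      rw [sum_const, sum_const, nsmul_eq_mul, nsmul_eq_mul, hU'.2,
        card_sdiff_of_subset hU'.1, hU'.2, Nat.cast_sub hk, hω]
      ring
    rw [sum_congr rfl e2, sum_const, nsmul_eq_mul, mul_comm]
  have hS := slice_decomp R c c' hc hc' hcc k hk f'
  have hdiff : |ω * ∑ U ∈ powersetCard k R, f U -
      ∑ U ∈ powersetCard (k + 1) (insert c (insert c' R)), f' U| ≤
      ω * ℓ * (powersetCard k R).card := by
    rw [hS, mul_sum, ← sum_sub_distrib]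
    refine (abs_sum_le_sum_abs _ _).trans ?_
    have : ω * ℓ * ((powersetCard k R).card : ℝ) = ∑ U ∈ powersetCard k R, ω * ℓ := by
      rw [sum_const, nsmul_eq_mul, mul_comm]
    rw [this]
    refine sum_le_sum fun U hU => ?_
    have hU' := mem_powersetCard.1 hU
    have s3 : |(k : ℝ) * f U - ∑ w ∈ U, f' (insert c (insert c' (U.erase w)))| ≤ k * ℓ := by
      have e : (k : ℝ) * f U = ∑ w ∈ U, f U := by
        rw [sum_const, nsmul_eq_mul, hU'.2]
      rw [e, ← sum_sub_distrib]
      refine (abs_sum_le_sum_abs _ _).trans ?_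
      refine (sum_le_sum fun w hw => h3 U hU w hw).trans ?_
      rw [sum_const, nsmul_eq_mul, hU'.2]
    have s4 : |((R.card : ℝ) - k) * f U - ∑ w ∈ R \ U, f' (insert w U)| ≤
        ((R.card : ℝ) - k) * ℓ := by
      have e : ((R.card : ℝ) - k) * f U = ∑ w ∈ R \ U, f U := by
        rw [sum_const, nsmul_eq_mul, card_sdiff_of_subset hU'.1, hU'.2, Nat.cast_sub hk]
      rw [e, ← sum_sub_distrib]
      refine (abs_sum_le_sum_abs _ _).trans ?_
      refine (sum_le_sum fun w hw => h4 U hU w hw).trans ?_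
      rw [sum_const, nsmul_eq_mul, card_sdiff_of_subset hU'.1, hU'.2, Nat.cast_sub hk]
    have e : ω * f U - (f' (insert c U) + f' (insert c' U) +
        (1 / ((R.card : ℝ) - k + 1)) * ∑ w ∈ U, f' (insert c (insert c' (U.erase w))) +
        (1 / ((k : ℝ) + 1)) * ∑ w ∈ R \ U, f' (insert w U)) =
        (f U - f' (insert c U)) + (f U - f' (insert c' U)) +
        (1 / ((R.card : ℝ) - k + 1)) *
          ((k : ℝ) * f U - ∑ w ∈ U, f' (insert c (insert c' (U.erase w)))) +
        (1 / ((k : ℝ) + 1)) *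
          (((R.card : ℝ) - k) * f U - ∑ w ∈ R \ U, f' (insert w U)) := by
      rw [hω]; ring
    rw [e]
    have b1 := h1 U hU
    have b2 := h2 U hU
    have b3 : |(1 / ((R.card : ℝ) - k + 1)) *
        ((k : ℝ) * f U - ∑ w ∈ U, f' (insert c (insert c' (U.erase w))))| ≤
        (1 / ((R.card : ℝ) - k + 1)) * (k * ℓ) := by
      rw [abs_mul, abs_of_pos (one_div_pos.2 hpos)]
      exact mul_le_mul_of_nonneg_left s3 (one_div_pos.2 hpos).le
    have b4 : |(1 / ((k : ℝ) + 1)) *
        (((R.card : ℝ) - k) * f U - ∑ w ∈ R \ U, f' (insert w U))| ≤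
        (1 / ((k : ℝ) + 1)) * (((R.card : ℝ) - k) * ℓ) := by
      rw [abs_mul, abs_of_pos (one_div_pos.2 hpos')]
      exact mul_le_mul_of_nonneg_left s4 (one_div_pos.2 hpos').le
    have t1 := abs_add_le ((f U - f' (insert c U)) + (f U - f' (insert c' U)) +
        (1 / ((R.card : ℝ) - k + 1)) *
          ((k : ℝ) * f U - ∑ w ∈ U, f' (insert c (insert c' (U.erase w)))))
        ((1 / ((k : ℝ) + 1)) *
          (((R.card : ℝ) - k) * f U - ∑ w ∈ R \ U, f' (insert w U)))
    have t2 := abs_add_le ((f U - f' (insert c U)) + (f U - f' (insert c' U)))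
        ((1 / ((R.card : ℝ) - k + 1)) *
          ((k : ℝ) * f U - ∑ w ∈ U, f' (insert c (insert c' (U.erase w)))))
    have t3 := abs_add_le (f U - f' (insert c U)) (f U - f' (insert c' U))
    have eω : ω * ℓ = ℓ + ℓ + (1 / ((R.card : ℝ) - k + 1)) * (k * ℓ) +
        (1 / ((k : ℝ) + 1)) * (((R.card : ℝ) - k) * ℓ) := by
      rw [hω]; ring
    rw [eω]
    linarith
  rw [hN']
  have e : (∑ U ∈ powersetCard k R, f U) / ((powersetCard k R).card : ℝ) -
      (∑ U ∈ powersetCard (k + 1) (insert c (insert c' R)), f' U) /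
        (ω * (powersetCard k R).card) =
      (ω * ∑ U ∈ powersetCard k R, f U -
        ∑ U ∈ powersetCard (k + 1) (insert c (insert c' R)), f' U) /
        (ω * (powersetCard k R).card) := by
    rw [div_sub_div _ _ hN.ne' (mul_pos hωpos hN).ne', div_eq_div_iff]
    · ring
    · exact (mul_pos hN (mul_pos hωpos hN)).ne'
    · exact (mul_pos hωpos hN).ne'
  rw [e, abs_div, abs_of_pos (mul_pos hωpos hN), div_le_iff₀ (mul_pos hωpos hN)]
  linarith

end Slices

section Rows

variable {Γ : Type*} [Fintype Γ] [DecidableEq Γ] {r : Fin 3 → ℕ} {s : Γ → ℕ}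

theorem exists_third (i j : Fin 3) (h : i ≠ j) :
    ∃ m : Fin 3, i ≠ m ∧ j ≠ m ∧ ∀ a, a = i ∨ a = j ∨ a = m := by
  revert i j; decide

theorem third_all : ∀ {i j m : Fin 3}, i ≠ j → i ≠ m → j ≠ m → ∀ a, a = i ∨ a = j ∨ a = m := by
  decide

theorem exists_ne3 (i : Fin 3) : ∃ j : Fin 3, i ≠ j := by
  revert i; decide

theorem sum3 {i j m : Fin 3} (hij : i ≠ j) (him : i ≠ m) (hjm : j ≠ m) (f : Fin 3 → ℕ) :
    ∑ a, f a = f i + f j + f m := by
  have h : (univ : Finset (Fin 3)) = {i, j, m} := by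
    revert i j m; decide
  rw [h, sum_insert, sum_insert, sum_singleton, add_assoc]
  · simpa using hjm
  · simp [hij, him]

omit [Fintype Γ] [DecidableEq Γ] in
theorem sum_toNat_eq_card (R : Finset Γ) (p : Γ → Bool) :
    ∑ c ∈ R, (p c).toNat = (R.filter (fun c => p c = true)).card := by
  rw [card_filter]
  refine sum_congr rfl fun c _ => ?_
  cases p c <;> simp

/-- columns in which exactly one entry outside row `i` is a one -/
def Rset (x : M3 Γ r s) (i : Fin 3) : Finset Γ :=
  univ.filter (fun c => s c = (x.1 i c).toNat + 1)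

/-- those of them whose one is in row `j` -/
def Uset (x : M3 Γ r s) (i j : Fin 3) : Finset Γ := (Rset x i).filter (fun c => x.1 j c = true)

omit [DecidableEq Γ] in
theorem mem_Rset {x : M3 Γ r s} {i : Fin 3} {c : Γ} :
    c ∈ Rset x i ↔ s c = (x.1 i c).toNat + 1 := by
  simp [Rset]

theorem mem_Uset {x : M3 Γ r s} {i j : Fin 3} {c : Γ} :
    c ∈ Uset x i j ↔ s c = (x.1 i c).toNat + 1 ∧ x.1 j c = true := by
  simp [Uset, mem_Rset]

omit [DecidableEq Γ] in
theorem Uset_subset (x : M3 Γ r s) (i j : Fin 3) : Uset x i j ⊆ Rset x i := filter_subset _ _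

omit [DecidableEq Γ] in
theorem col_sum (x : M3 Γ r s) {i j m : Fin 3} (hij : i ≠ j) (him : i ≠ m) (hjm : j ≠ m)
    (c : Γ) : (x.1 i c).toNat + (x.1 j c).toNat + (x.1 m c).toNat = s c := by
  rw [← x.2.2 c, sum3 hij him hjm (fun a => (x.1 a c).toNat)]

/-- rebuild a matrix from row `i` and the set `U` -/
def bld (x : Fin 3 → Γ → Bool) (R : Finset Γ) (i j : Fin 3) (U : Finset Γ) (a : Fin 3) (c : Γ) :
    Bool :=
  if a = i then x a c else if c ∈ R then (if a = j then decide (c ∈ U) else !decide (c ∈ U))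
  else x a c

omit [Fintype Γ] in
theorem bld_i (x : Fin 3 → Γ → Bool) (R : Finset Γ) (i j : Fin 3) (U : Finset Γ) (c : Γ) :
    bld x R i j U i c = x i c := by
  simp [bld]

omit [Fintype Γ] in
theorem bld_off (x : Fin 3 → Γ → Bool) (R : Finset Γ) (i j : Fin 3) (U : Finset Γ) (a : Fin 3)
    {c : Γ} (hc : c ∉ R) : bld x R i j U a c = x a c := by
  simp [bld, hc]

omit [Fintype Γ] in
theorem bld_j (x : Fin 3 → Γ → Bool) (R : Finset Γ) {i j : Fin 3} (hij : i ≠ j) (U : Finset Γ)
    {c : Γ} (hc : c ∈ R) : bld x R i j U j c = decide (c ∈ U) := by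
  simp [bld, hij.symm, hc]

omit [Fintype Γ] in
theorem bld_m (x : Fin 3 → Γ → Bool) (R : Finset Γ) {i j m : Fin 3} (him : i ≠ m)
    (hjm : j ≠ m) (U : Finset Γ) {c : Γ} (hc : c ∈ R) : bld x R i j U m c = !decide (c ∈ U) := by
  simp [bld, him.symm, hjm.symm, hc]

theorem bld_mem (x : M3 Γ r s) {i j : Fin 3} (hij : i ≠ j) {U : Finset Γ}
    (hU : U ∈ powersetCard (Uset x i j).card (Rset x i)) :
    (∀ a, ∑ c, (bld x.1 (Rset x i) i j U a c).toNat = r a) ∧
      ∀ c, ∑ a, (bld x.1 (Rset x i) i j U a c).toNat = s c := by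
  obtain ⟨m, him, hjm, hall⟩ := exists_third i j hij
  obtain ⟨hUR, hUc⟩ := mem_powersetCard.1 hU
  have hfil : (Rset x i).filter (fun c => c ∈ U) = U := by
    ext c; simp only [mem_filter]; exact ⟨fun h => h.2, fun h => ⟨hUR h, h⟩⟩
  constructor
  · intro a
    rw [← x.2.1 a, ← sum_add_sum_compl (Rset x i),
      ← sum_add_sum_compl (Rset x i) (fun c => (x.1 a c).toNat)]
    have hoff : ∑ c ∈ (Rset x i)ᶜ, (bld x.1 (Rset x i) i j U a c).toNat =
        ∑ c ∈ (Rset x i)ᶜ, (x.1 a c).toNat := by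
      refine sum_congr rfl fun c hc => ?_
      rw [bld_off _ _ _ _ _ _ (by simpa using hc)]
    rw [hoff]
    congr 1
    rcases hall a with rfl | rfl | rfl
    · refine sum_congr rfl fun c _ => ?_
      rw [bld_i]
    · have h1 : ∑ c ∈ Rset x i, (bld x.1 (Rset x i) i a U a c).toNat =
          ∑ c ∈ Rset x i, (decide (c ∈ U)).toNat :=
        sum_congr rfl fun c hc => by rw [bld_j _ _ hij _ hc]
      rw [h1, sum_toNat_eq_card, sum_toNat_eq_card]
      simp only [decide_eq_true_eq]
      rw [hfil, hUc]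
      rfl
    · have h1 : ∑ c ∈ Rset x i, (bld x.1 (Rset x i) i j U a c).toNat +
          ∑ c ∈ Rset x i, (decide (c ∈ U)).toNat = (Rset x i).card := by
        rw [← sum_add_distrib, card_eq_sum_ones]
        refine sum_congr rfl fun c hc => ?_
        rw [bld_m _ _ him hjm _ hc]
        cases decide (c ∈ U) <;> rfl
      have h2 : ∑ c ∈ Rset x i, (x.1 a c).toNat +
          ∑ c ∈ Rset x i, (x.1 j c).toNat = (Rset x i).card := by
        rw [← sum_add_distrib, card_eq_sum_ones]
        refine sum_congr rfl fun c hc => ?_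
        have := col_sum x hij him hjm c
        have := mem_Rset.1 hc
        omega
      have h3 : ∑ c ∈ Rset x i, (decide (c ∈ U)).toNat =
          ∑ c ∈ Rset x i, (x.1 j c).toNat := by
        rw [sum_toNat_eq_card, sum_toNat_eq_card]
        simp only [decide_eq_true_eq]
        rw [hfil, hUc]
        rfl
      omega
  · intro c
    rw [sum3 hij him hjm (fun a => (bld x.1 (Rset x i) i j U a c).toNat)]
    by_cases hc : c ∈ Rset x i
    · rw [bld_i, bld_j _ _ hij _ hc, bld_m _ _ him hjm _ hc, mem_Rset.1 hc]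
      cases decide (c ∈ U) <;> rfl
    · rw [bld_off _ _ _ _ _ _ hc, bld_off _ _ _ _ _ _ hc, bld_off _ _ _ _ _ _ hc]
      exact col_sum x hij him hjm c

/-- the member of the `rowRel i`-class of `x` with parameter `U` -/
def mk3 (x : M3 Γ r s) {i j : Fin 3} (hij : i ≠ j) (U : Finset Γ) : M3 Γ r s :=
  if hU : U ∈ powersetCard (Uset x i j).card (Rset x i) then
    ⟨bld x.1 (Rset x i) i j U, bld_mem x hij hU⟩ else x

theorem mk3_val (x : M3 Γ r s) {i j : Fin 3} (hij : i ≠ j) {U : Finset Γ}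
    (hU : U ∈ powersetCard (Uset x i j).card (Rset x i)) :
    (mk3 x hij U).1 = bld x.1 (Rset x i) i j U := by
  have h : mk3 x hij U = ⟨bld x.1 (Rset x i) i j U, bld_mem x hij hU⟩ := dif_pos hU
  rw [h]

omit [DecidableEq Γ] in
theorem Rset_congr {x y : M3 Γ r s} {i : Fin 3} (h : rowRel i x y) : Rset x i = Rset y i := by
  unfold Rset
  have h' : x.1 i = y.1 i := h
  rw [h']

theorem off_class {x y : M3 Γ r s} {i : Fin 3} (h : rowRel i x y) {c : Γ}
    (hc : c ∉ Rset x i) (a : Fin 3) : x.1 a c = y.1 a c := by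
  have h' : x.1 i c = y.1 i c := congrFun h c
  obtain ⟨j, hj⟩ := exists_ne3 i
  obtain ⟨m, him, hjm, hall⟩ := exists_third i j hj
  have e1 := col_sum x hj him hjm c
  have e2 := col_sum y hj him hjm c
  rw [mem_Rset] at hc
  have key : x.1 j c = y.1 j c ∧ x.1 m c = y.1 m c := by
    rw [← h'] at e2
    cases h1 : x.1 j c <;> cases h2 : x.1 m c <;> cases h3 : y.1 j c <;> cases h4 : y.1 m c <;>
      rw [h1, h2] at e1 <;> rw [h3, h4] at e2 <;>
      simp only [Bool.toNat_true, Bool.toNat_false] at e1 e2 <;>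
      first
      | exact ⟨rfl, rfl⟩
      | (exfalso; omega)
  rcases hall a with rfl | rfl | rfl
  · exact h'
  · exact key.1
  · exact key.2

theorem Uset_card_congr {x y : M3 Γ r s} {i j : Fin 3} (h : rowRel i x y) :
    (Uset y i j).card = (Uset x i j).card := by
  have hR := Rset_congr h
  have e1 : ∑ c ∈ Rset x i, (x.1 j c).toNat + ∑ c ∈ (Rset x i)ᶜ, (x.1 j c).toNat = r j := by
    rw [sum_add_sum_compl]; exact x.2.1 j
  have e2 : ∑ c ∈ Rset x i, (y.1 j c).toNat + ∑ c ∈ (Rset x i)ᶜ, (y.1 j c).toNat = r j := by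
    rw [sum_add_sum_compl]; exact y.2.1 j
  have e3 : ∑ c ∈ (Rset x i)ᶜ, (x.1 j c).toNat = ∑ c ∈ (Rset x i)ᶜ, (y.1 j c).toNat :=
    sum_congr rfl fun c hc => by rw [off_class h (by simpa using hc)]
  have e4 : ∑ c ∈ Rset x i, (x.1 j c).toNat = (Uset x i j).card := sum_toNat_eq_card _ _
  have e5 : ∑ c ∈ Rset x i, (y.1 j c).toNat = (Uset y i j).card := by
    rw [sum_toNat_eq_card, hR]; rfl
  omega

theorem Uset_mem {x y : M3 Γ r s} {i j : Fin 3} (h : rowRel i x y) :
    Uset y i j ∈ powersetCard (Uset x i j).card (Rset x i) := by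
  rw [mem_powersetCard]
  refine ⟨?_, Uset_card_congr h⟩
  rw [Rset_congr h]
  exact Uset_subset y i j

theorem mk3_rowRel (x : M3 Γ r s) {i j : Fin 3} (hij : i ≠ j) (U : Finset Γ) :
    rowRel i x (mk3 x hij U) := by
  by_cases hU : U ∈ powersetCard (Uset x i j).card (Rset x i)
  · unfold rowRel
    rw [mk3_val x hij hU]
    funext c
    rw [bld_i]
  · have h : mk3 x hij U = x := dif_neg hU
    rw [h]
    rfl

theorem mk3_Uset {x y : M3 Γ r s} {i j : Fin 3} (hij : i ≠ j) (h : rowRel i x y) :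
    mk3 x hij (Uset y i j) = y := by
  obtain ⟨m, him, hjm, hall⟩ := exists_third i j hij
  apply Subtype.ext
  rw [mk3_val x hij (Uset_mem h)]
  funext a c
  by_cases hc : c ∈ Rset x i
  · have hcy : c ∈ Rset y i := by rw [← Rset_congr h]; exact hc
    have hs := mem_Rset.1 hcy
    have e := col_sum y hij him hjm c
    have hdec : decide (c ∈ Uset y i j) = y.1 j c := by
      have : c ∈ Uset y i j ↔ y.1 j c = true := by
        rw [mem_Uset]; exact ⟨fun h => h.2, fun h => ⟨hs, h⟩⟩
      simp only [this, Bool.decide_eq_true]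
    rcases hall a with rfl | rfl | rfl
    · rw [bld_i]; exact congrFun h c
    · rw [bld_j _ _ hij _ hc, hdec]
    · rw [bld_m _ _ him hjm _ hc, hdec]
      cases h1 : y.1 j c <;> cases h2 : y.1 a c <;>
        rw [h1, h2] at e <;> simp only [Bool.toNat_true, Bool.toNat_false] at e <;>
        first
        | rfl
        | (exfalso; omega)
  · rw [bld_off _ _ _ _ _ _ hc]
    exact off_class h hc a

theorem Uset_mk3 (x : M3 Γ r s) {i j : Fin 3} (hij : i ≠ j) {U : Finset Γ}
    (hU : U ∈ powersetCard (Uset x i j).card (Rset x i)) : Uset (mk3 x hij U) i j = U := by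
  ext c
  rw [mem_Uset, mk3_val x hij hU, bld_i]
  constructor
  · rintro ⟨h1, h2⟩
    rw [bld_j _ _ hij _ (mem_Rset.2 h1)] at h2
    simpa using h2
  · intro h
    have hc := (mem_powersetCard.1 hU).1 h
    refine ⟨mem_Rset.1 hc, ?_⟩
    rw [bld_j _ _ hij _ hc]
    simpa using h

theorem sum_class (g : M3 Γ r s → ℝ) (x : M3 Γ r s) {i j : Fin 3} (hij : i ≠ j) :
    ∑ y ∈ cls (rowRel i) x, g y =
      ∑ U ∈ powersetCard (Uset x i j).card (Rset x i), g (mk3 x hij U) := by
  refine sum_bij' (fun y _ => Uset y i j) (fun U _ => mk3 x hij U) ?_ ?_ ?_ ?_ ?_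
  · intro y hy
    exact Uset_mem (mem_cls.1 hy)
  · intro U _
    exact mem_cls.2 (mk3_rowRel x hij U)
  · intro y hy
    exact mk3_Uset hij (mem_cls.1 hy)
  · intro U hU
    exact Uset_mk3 x hij hU
  · intro y hy
    rw [mk3_Uset hij (mem_cls.1 hy)]

/-- `Ex (rowRel i) g x` as an average over a slice -/
theorem Ex_row_eq (g : M3 Γ r s → ℝ) (x : M3 Γ r s) {i j : Fin 3} (hij : i ≠ j) :
    Ex (rowRel i) g x =
      (∑ U ∈ powersetCard (Uset x i j).card (Rset x i), g (mk3 x hij U)) /
        (powersetCard (Uset x i j).card (Rset x i)).card := by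
  have h := sum_class (fun _ => (1 : ℝ)) x hij
  rw [sum_const, sum_const, nsmul_eq_mul, nsmul_eq_mul, mul_one, mul_one] at h
  unfold Ex
  rw [sum_class g x hij, h]

/-- number of sum-one columns with their one in row `a` -/
def alpha (x : M3 Γ r s) (a : Fin 3) : ℕ :=
  (univ.filter fun c => s c = 1 ∧ x.1 a c = true).card

/-- elementary move: in column `c` (sum 1) the one moves from row `i` to row `j`, in column `c'`
(sum 2) the zero moves from row `i` to row `j` -/
structure Move (i j : Fin 3) (c c' : Γ) (x x' : M3 Γ r s) : Prop where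
  ij : i ≠ j
  sc : s c = 1
  sc' : s c' = 2
  xi : x.1 i c = true
  xi' : x.1 i c' = false
  y1 : x'.1 i c = false
  y2 : x'.1 j c = true
  y3 : x'.1 i c' = true
  y4 : x'.1 j c' = false
  off : ∀ a b, b ≠ c → b ≠ c' → x'.1 a b = x.1 a b

/-- contribution of column `b` to `alpha` -/
def ind (x : M3 Γ r s) (a : Fin 3) (b : Γ) : ℕ := if s b = 1 ∧ x.1 a b = true then 1 else 0

omit [DecidableEq Γ] in
theorem alpha_eq_sum (x : M3 Γ r s) (a : Fin 3) : alpha x a = ∑ b, ind x a b := by
  unfold alpha ind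
  rw [card_filter]

theorem alpha_diff {y y' : M3 Γ r s} (S : Finset Γ)
    (h : ∀ b, b ∉ S → s b = 1 → ∀ a, y.1 a b = y'.1 a b) (a : Fin 3) :
    alpha y a + ∑ b ∈ S, ind y' a b = alpha y' a + ∑ b ∈ S, ind y a b := by
  rw [alpha_eq_sum, alpha_eq_sum, ← sum_add_sum_compl S (ind y a),
    ← sum_add_sum_compl S (ind y' a)]
  have : ∑ b ∈ Sᶜ, ind y a b = ∑ b ∈ Sᶜ, ind y' a b := by
    refine sum_congr rfl fun b hb => ?_
    unfold ind
    by_cases hs : s b = 1
    · rw [h b (by simpa using hb) hs a]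
    · rw [if_neg (fun h => hs h.1), if_neg (fun h => hs h.1)]
  omega

omit [DecidableEq Γ] in
theorem ind_true {x : M3 Γ r s} {a : Fin 3} {b : Γ} (hs : s b = 1) (h : x.1 a b = true) :
    ind x a b = 1 := if_pos ⟨hs, h⟩

omit [DecidableEq Γ] in
theorem ind_false {x : M3 Γ r s} {a : Fin 3} {b : Γ} (h : x.1 a b = false) :
    ind x a b = 0 := if_neg (by rintro ⟨-, h'⟩; rw [h] at h'; exact Bool.noConfusion h')

omit [DecidableEq Γ] in
theorem ind_sum {x : M3 Γ r s} {a : Fin 3} {b : Γ} (hs : s b ≠ 1) : ind x a b = 0 :=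
  if_neg (fun h => hs h.1)

/-- `alpha` changes by `- e_i + e_j` -/
def Adj (y y' : M3 Γ r s) (i j : Fin 3) : Prop :=
  i ≠ j ∧ alpha y i = alpha y' i + 1 ∧ alpha y' j = alpha y j + 1 ∧
    ∀ a, a ≠ i → a ≠ j → alpha y' a = alpha y a

theorem ind_single (x : M3 Γ r s) (a : Fin 3) (c : Γ) :
    ∑ b ∈ ({c} : Finset Γ), ind x a b = ind x a c := sum_singleton _ _

theorem ind_pair (x : M3 Γ r s) (a : Fin 3) {c w : Γ} (h : c ≠ w) :
    ∑ b ∈ ({c, w} : Finset Γ), ind x a b = ind x a c + ind x a w := by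
  rw [sum_insert (by simpa using h), sum_singleton]

namespace Move

variable {i j m : Fin 3} {c c' : Γ} {x x' : M3 Γ r s}

omit [DecidableEq Γ] in
theorem cc (h : Move i j c c' x x') : c ≠ c' := by
  intro e
  have h1 := h.sc
  rw [e, h.sc'] at h1
  omega

omit [DecidableEq Γ] in
theorem symm (h : Move i j c c' x x') (hx : x.1 j c = false) (hx' : x.1 j c' = true) :
    Move j i c c' x' x :=
  ⟨h.ij.symm, h.sc, h.sc', h.y2, h.y4, hx, h.xi, hx', h.xi', fun a b hb hb' => (h.off a b hb hb').symm⟩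

omit [DecidableEq Γ] in
theorem x_c (h : Move i j c c' x x') (him : i ≠ m) (hjm : j ≠ m) :
    x.1 j c = false ∧ x.1 m c = false := by
  have e := col_sum x h.ij him hjm c
  rw [h.xi, h.sc] at e
  cases h1 : x.1 j c <;> cases h2 : x.1 m c <;> rw [h1, h2] at e <;>
    simp only [Bool.toNat_true, Bool.toNat_false] at e <;>
    first
    | exact ⟨rfl, rfl⟩
    | (exfalso; omega)

omit [DecidableEq Γ] in
theorem x_c' (h : Move i j c c' x x') (him : i ≠ m) (hjm : j ≠ m) :
    x.1 j c' = true ∧ x.1 m c' = true := by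
  have e := col_sum x h.ij him hjm c'
  rw [h.xi', h.sc'] at e
  cases h1 : x.1 j c' <;> cases h2 : x.1 m c' <;> rw [h1, h2] at e <;>
    simp only [Bool.toNat_true, Bool.toNat_false] at e <;>
    first
    | exact ⟨rfl, rfl⟩
    | (exfalso; omega)

theorem symm' (h : Move i j c c' x x') : Move j i c c' x' x := by
  obtain ⟨m, him, hjm, -⟩ := exists_third i j h.ij
  exact h.symm (h.x_c him hjm).1 (h.x_c' him hjm).1

theorem x'_m (h : Move i j c c' x x') (him : i ≠ m) (hjm : j ≠ m) :
    x'.1 m c = false ∧ x'.1 m c' = true :=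
  ⟨(h.symm'.x_c hjm him).2, (h.symm'.x_c' hjm him).2⟩

/-- the third row does not change -/
theorem row_m (h : Move i j c c' x x') (him : i ≠ m) (hjm : j ≠ m) : rowRel m x x' := by
  unfold rowRel
  funext b
  by_cases hb : b = c
  · subst hb
    rw [(h.x_c him hjm).2, (h.x'_m him hjm).1]
  · by_cases hb' : b = c'
    · subst hb'
      rw [(h.x_c' him hjm).2, (h.x'_m him hjm).2]
    · exact (h.off m b hb hb').symm

theorem c_notMem (h : Move i j c c' x x') : c ∉ Rset x i := by
  rw [mem_Rset, h.sc, h.xi]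
  decide

theorem c'_notMem (h : Move i j c c' x x') : c' ∉ Rset x i := by
  rw [mem_Rset, h.sc', h.xi']
  decide

theorem Rset_eq (h : Move i j c c' x x') : Rset x' i = insert c (insert c' (Rset x i)) := by
  ext b
  rw [mem_insert, mem_insert, mem_Rset, mem_Rset]
  by_cases hb : b = c
  · subst hb
    rw [h.sc, h.y1]
    simp
  · by_cases hb' : b = c'
    · subst hb'
      rw [h.sc', h.y3]
      simp
    · rw [h.off i b hb hb']
      simp [hb, hb']

theorem Uset_eq (h : Move i j c c' x x') : Uset x' i j = insert c (Uset x i j) := by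
  ext b
  rw [mem_insert, mem_Uset, mem_Uset]
  by_cases hb : b = c
  · subst hb
    rw [h.sc, h.y1, h.y2]
    simp
  · by_cases hb' : b = c'
    · subst hb'
      rw [h.y4, h.sc', h.xi']
      simp [hb]
    · rw [h.off i b hb hb', h.off j b hb hb']
      simp [hb]

theorem Uset_card (h : Move i j c c' x x') : (Uset x' i j).card = (Uset x i j).card + 1 := by
  rw [h.Uset_eq, card_insert_of_notMem]
  intro hc
  exact h.c_notMem (Uset_subset x i j hc)

/-- entries of the class members of `x` -/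
theorem mk_x (h : Move i j c c' x x') (him : i ≠ m) (hjm : j ≠ m) {U : Finset Γ}
    (hU : U ∈ powersetCard (Uset x i j).card (Rset x i)) :
    (mk3 x h.ij U).1 i c = true ∧ (mk3 x h.ij U).1 j c = false ∧
      (mk3 x h.ij U).1 m c = false := by
  rw [mk3_val x h.ij hU]
  rw [bld_off _ _ _ _ _ _ h.c_notMem, bld_off _ _ _ _ _ _ h.c_notMem,
    bld_off _ _ _ _ _ _ h.c_notMem]
  exact ⟨h.xi, (h.x_c him hjm).1, (h.x_c him hjm).2⟩

/-- entries in columns outside `c, c'` -/
theorem agree (h : Move i j c c' x x') (him : i ≠ m) (hjm : j ≠ m) {U U' : Finset Γ}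
    (hU : U ∈ powersetCard (Uset x i j).card (Rset x i))
    (hU' : U' ∈ powersetCard (Uset x' i j).card (Rset x' i)) {b : Γ}
    (hb : b ≠ c) (hb' : b ≠ c') (hbU : b ∈ U ↔ b ∈ U') (a : Fin 3) :
    (mk3 x h.ij U).1 a b = (mk3 x' h.ij U').1 a b := by
  rw [mk3_val x h.ij hU, mk3_val x' h.ij hU']
  by_cases hR : b ∈ Rset x i
  · have hR' : b ∈ Rset x' i := by rw [h.Rset_eq]; simp [hR]
    have hall := third_all h.ij him hjm a
    rcases hall with rfl | rfl | rfl
    · rw [bld_i, bld_i, h.off a b hb hb']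
    · rw [bld_j _ _ h.ij _ hR, bld_j _ _ h.ij _ hR']
      simp only [hbU]
    · rw [bld_m _ _ him hjm _ hR, bld_m _ _ him hjm _ hR']
      simp only [hbU]
  · have hR' : b ∉ Rset x' i := by rw [h.Rset_eq]; simp [hR, hb, hb']
    rw [bld_off _ _ _ _ _ _ hR, bld_off _ _ _ _ _ _ hR', h.off a b hb hb']

/-- column `c` of the class members of `x'` -/
theorem mk_x' (h : Move i j c c' x x') (him : i ≠ m) (hjm : j ≠ m) {U' : Finset Γ}
    (hU' : U' ∈ powersetCard (Uset x' i j).card (Rset x' i)) :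
    (mk3 x' h.ij U').1 i c = false ∧ (mk3 x' h.ij U').1 j c = decide (c ∈ U') ∧
      (mk3 x' h.ij U').1 m c = !decide (c ∈ U') := by
  have hc : c ∈ Rset x' i := by rw [h.Rset_eq]; simp
  rw [mk3_val x' h.ij hU', bld_i, bld_j _ _ h.ij _ hc, bld_m _ _ him hjm _ hc]
  exact ⟨h.y1, rfl, rfl⟩

/-- column `w ∈ Rset x i` of the class members -/
theorem mk_w (h : Move i j c c' x x') (him : i ≠ m) (hjm : j ≠ m) {U U' : Finset Γ}
    (hU : U ∈ powersetCard (Uset x i j).card (Rset x i))
    (hU' : U' ∈ powersetCard (Uset x' i j).card (Rset x' i)) {w : Γ} (hw : w ∈ Rset x i) :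
    (mk3 x h.ij U).1 i w = (mk3 x' h.ij U').1 i w ∧
    (mk3 x h.ij U).1 j w = decide (w ∈ U) ∧ (mk3 x h.ij U).1 m w = !decide (w ∈ U) ∧
    (mk3 x' h.ij U').1 j w = decide (w ∈ U') ∧ (mk3 x' h.ij U').1 m w = !decide (w ∈ U') := by
  have hw' : w ∈ Rset x' i := by rw [h.Rset_eq]; simp [hw]
  have hwc : w ≠ c := fun e => h.c_notMem (e ▸ hw)
  have hwc' : w ≠ c' := fun e => h.c'_notMem (e ▸ hw)
  rw [mk3_val x h.ij hU, mk3_val x' h.ij hU', bld_i, bld_i, bld_j _ _ h.ij _ hw,
    bld_m _ _ him hjm _ hw, bld_j _ _ h.ij _ hw', bld_m _ _ him hjm _ hw']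
  exact ⟨(h.off i w hwc hwc').symm, rfl, rfl, rfl, rfl⟩

theorem mem1 (h : Move i j c c' x x') {U : Finset Γ}
    (hU : U ∈ powersetCard (Uset x i j).card (Rset x i)) :
    insert c U ∈ powersetCard (Uset x' i j).card (Rset x' i) := by
  obtain ⟨h1, h2⟩ := mem_powersetCard.1 hU
  rw [mem_powersetCard, h.Rset_eq, h.Uset_card, card_insert_of_notMem (fun hc => h.c_notMem (h1 hc)),
    h2]
  exact ⟨insert_subset_insert _ (h1.trans (subset_insert _ _)), rfl⟩

theorem mem2 (h : Move i j c c' x x') {U : Finset Γ}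
    (hU : U ∈ powersetCard (Uset x i j).card (Rset x i)) :
    insert c' U ∈ powersetCard (Uset x' i j).card (Rset x' i) := by
  obtain ⟨h1, h2⟩ := mem_powersetCard.1 hU
  rw [mem_powersetCard, h.Rset_eq, h.Uset_card,
    card_insert_of_notMem (fun hc => h.c'_notMem (h1 hc)), h2]
  exact ⟨(insert_subset_insert _ h1).trans (subset_insert _ _), rfl⟩

theorem mem3 (h : Move i j c c' x x') {U : Finset Γ}
    (hU : U ∈ powersetCard (Uset x i j).card (Rset x i)) {w : Γ} (hw : w ∈ U) :
    insert c (insert c' (U.erase w)) ∈ powersetCard (Uset x' i j).card (Rset x' i) := by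
  obtain ⟨h1, h2⟩ := mem_powersetCard.1 hU
  have hc' : c' ∉ U.erase w := fun hc => h.c'_notMem (h1 (mem_of_mem_erase hc))
  have hc : c ∉ insert c' (U.erase w) := by
    rw [mem_insert]
    rintro (e | e)
    · exact h.cc e
    · exact h.c_notMem (h1 (mem_of_mem_erase e))
  rw [mem_powersetCard, h.Rset_eq, h.Uset_card, card_insert_of_notMem hc,
    card_insert_of_notMem hc', card_erase_of_mem hw, h2]
  refine ⟨insert_subset_insert _ (insert_subset_insert _ ((erase_subset _ _).trans h1)), ?_⟩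
  have : 0 < U.card := card_pos.2 ⟨w, hw⟩
  omega

theorem mem4 (h : Move i j c c' x x') {U : Finset Γ}
    (hU : U ∈ powersetCard (Uset x i j).card (Rset x i)) {w : Γ} (hw : w ∈ Rset x i \ U) :
    insert w U ∈ powersetCard (Uset x' i j).card (Rset x' i) := by
  obtain ⟨h1, h2⟩ := mem_powersetCard.1 hU
  obtain ⟨hw1, hw2⟩ := mem_sdiff.1 hw
  rw [mem_powersetCard, h.Rset_eq, h.Uset_card, card_insert_of_notMem hw2, h2]
  exact ⟨(insert_subset hw1 h1).trans ((subset_insert _ _).trans (subset_insert _ _)), rfl⟩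

theorem adj1 (h : Move i j c c' x x') (him : i ≠ m) (hjm : j ≠ m) {U : Finset Γ}
    (hU : U ∈ powersetCard (Uset x i j).card (Rset x i)) :
    Adj (mk3 x h.ij U) (mk3 x' h.ij (insert c U)) i j := by
  have hU' := h.mem1 hU
  obtain ⟨a1, a2, a3⟩ := h.mk_x him hjm hU
  obtain ⟨b1, b2, b3⟩ := h.mk_x' him hjm hU'
  rw [decide_eq_true (mem_insert_self c U)] at b2 b3
  have hd : ∀ a, alpha (mk3 x h.ij U) a + ind (mk3 x' h.ij (insert c U)) a c =
      alpha (mk3 x' h.ij (insert c U)) a + ind (mk3 x h.ij U) a c := by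
    intro a
    have := alpha_diff (y := mk3 x h.ij U) (y' := mk3 x' h.ij (insert c U)) {c} (by
      intro b hb hs a
      have hbc : b ≠ c := by simpa using hb
      have hbc' : b ≠ c' := by
        intro e; rw [e, h.sc'] at hs; omega
      exact h.agree him hjm hU hU' hbc hbc' (by simp [hbc]) a) a
    rwa [ind_single, ind_single] at this
  refine ⟨h.ij, ?_, ?_, ?_⟩
  · have := hd i
    rw [ind_false b1, ind_true h.sc a1] at this
    omega
  · have := hd j
    rw [ind_true h.sc b2, ind_false a2] at this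
    omega
  · intro a hai haj
    have ham : a = m := by
      rcases third_all h.ij him hjm a with e | e | e
      · exact absurd e hai
      · exact absurd e haj
      · exact e
    subst ham
    have := hd a
    rw [ind_false (by simpa using b3), ind_false a3] at this
    omega

theorem adj2 (h : Move i j c c' x x') (him : i ≠ m) (hjm : j ≠ m) {U : Finset Γ}
    (hU : U ∈ powersetCard (Uset x i j).card (Rset x i)) :
    Adj (mk3 x h.ij U) (mk3 x' h.ij (insert c' U)) i m := by
  have hU' := h.mem2 hU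
  obtain ⟨a1, a2, a3⟩ := h.mk_x him hjm hU
  obtain ⟨b1, b2, b3⟩ := h.mk_x' him hjm hU'
  have hcU : c ∉ insert c' U := by
    rw [mem_insert]
    rintro (e | e)
    · exact h.cc e
    · exact h.c_notMem ((mem_powersetCard.1 hU).1 e)
  rw [decide_eq_false hcU] at b2 b3
  have hd : ∀ a, alpha (mk3 x h.ij U) a + ind (mk3 x' h.ij (insert c' U)) a c =
      alpha (mk3 x' h.ij (insert c' U)) a + ind (mk3 x h.ij U) a c := by
    intro a
    have := alpha_diff (y := mk3 x h.ij U) (y' := mk3 x' h.ij (insert c' U)) {c} (by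
      intro b hb hs a
      have hbc : b ≠ c := by simpa using hb
      have hbc' : b ≠ c' := by
        intro e; rw [e, h.sc'] at hs; omega
      exact h.agree him hjm hU hU' hbc hbc' (by simp [hbc']) a) a
    rwa [ind_single, ind_single] at this
  refine ⟨him, ?_, ?_, ?_⟩
  · have := hd i
    rw [ind_false b1, ind_true h.sc a1] at this
    omega
  · have := hd m
    rw [ind_true h.sc (by simpa using b3), ind_false a3] at this
    omega
  · intro a hai ham
    have haj : a = j := by
      rcases third_all h.ij him hjm a with e | e | e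
      · exact absurd e hai
      · exact e
      · exact absurd e ham
    subst haj
    have := hd a
    rw [ind_false b2, ind_false a2] at this
    omega

theorem adj3 (h : Move i j c c' x x') (him : i ≠ m) (hjm : j ≠ m) {U : Finset Γ}
    (hU : U ∈ powersetCard (Uset x i j).card (Rset x i)) {w : Γ} (hw : w ∈ U) :
    (s w = 1 → Adj (mk3 x h.ij U) (mk3 x' h.ij (insert c (insert c' (U.erase w)))) i m) ∧
    (s w ≠ 1 → Adj (mk3 x h.ij U) (mk3 x' h.ij (insert c (insert c' (U.erase w)))) i j) := by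
  have hU' := h.mem3 hU hw
  have hwR : w ∈ Rset x i := (mem_powersetCard.1 hU).1 hw
  have hcw : c ≠ w := fun e => h.c_notMem (e ▸ hwR)
  have hcw' : c' ≠ w := fun e => h.c'_notMem (e ▸ hwR)
  have hwU' : w ∉ insert c (insert c' (U.erase w)) := by
    rw [mem_insert, mem_insert]
    rintro (e | e | e)
    · exact hcw e.symm
    · exact hcw' e.symm
    · exact notMem_erase w U e
  obtain ⟨a1, a2, a3⟩ := h.mk_x him hjm hU
  obtain ⟨b1, b2, b3⟩ := h.mk_x' him hjm hU'
  obtain ⟨w1, w2, w3, w4, w5⟩ := h.mk_w him hjm hU hU' hwR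
  rw [decide_eq_true (mem_insert_self c _)] at b2 b3
  rw [decide_eq_true hw] at w2 w3
  rw [decide_eq_false hwU'] at w4 w5
  generalize hy : mk3 x h.ij U = y at *
  generalize hy' : mk3 x' h.ij (insert c (insert c' (U.erase w))) = y' at *
  have hd : ∀ a, alpha y a + (ind y' a c + ind y' a w) = alpha y' a + (ind y a c + ind y a w) := by
    intro a
    have := alpha_diff (y := y) (y' := y') {c, w} (by
      intro b hb hs a
      rw [mem_insert, mem_singleton] at hb
      push Not at hb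
      have hbc' : b ≠ c' := by
        intro e; rw [e, h.sc'] at hs; omega
      rw [← hy, ← hy']
      exact h.agree him hjm hU hU' hb.1 hbc' (by simp [hb.1, hb.2, hbc']) a) a
    rwa [ind_pair _ _ hcw, ind_pair _ _ hcw] at this
  have ei : ind y' i w = ind y i w := by unfold ind; rw [w1]
  have hdi := hd i
  have hdj := hd j
  have hdm := hd m
  rw [ei, ind_false b1, ind_true h.sc a1] at hdi
  rw [ind_true h.sc b2, ind_false w4, ind_false a2] at hdj
  rw [ind_false (by simpa using b3), ind_false a3, ind_false (x := y) (by simpa using w3)] at hdm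
  constructor
  · intro hsw
    rw [ind_true hsw w2] at hdj
    rw [ind_true hsw (by simpa using w5)] at hdm
    refine ⟨him, by omega, by omega, ?_⟩
    intro a hai ham
    have haj : a = j := by
      rcases third_all h.ij him hjm a with e | e | e
      · exact absurd e hai
      · exact e
      · exact absurd e ham
    subst haj
    omega
  · intro hsw
    rw [ind_sum hsw] at hdj hdm
    refine ⟨h.ij, by omega, by omega, ?_⟩
    intro a hai haj
    have ham : a = m := by
      rcases third_all h.ij him hjm a with e | e | e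
      · exact absurd e hai
      · exact absurd e haj
      · exact e
    subst ham
    omega

theorem adj4 (h : Move i j c c' x x') (him : i ≠ m) (hjm : j ≠ m) {U : Finset Γ}
    (hU : U ∈ powersetCard (Uset x i j).card (Rset x i)) {w : Γ} (hw : w ∈ Rset x i \ U) :
    (s w = 1 → Adj (mk3 x h.ij U) (mk3 x' h.ij (insert w U)) i j) ∧
    (s w ≠ 1 → Adj (mk3 x h.ij U) (mk3 x' h.ij (insert w U)) i m) := by
  have hU' := h.mem4 hU hw
  obtain ⟨hwR, hwU⟩ := mem_sdiff.1 hw
  have hcw : c ≠ w := fun e => h.c_notMem (e ▸ hwR)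
  have hcw' : c' ≠ w := fun e => h.c'_notMem (e ▸ hwR)
  have hcU' : c ∉ insert w U := by
    rw [mem_insert]
    rintro (e | e)
    · exact hcw e
    · exact h.c_notMem ((mem_powersetCard.1 hU).1 e)
  obtain ⟨a1, a2, a3⟩ := h.mk_x him hjm hU
  obtain ⟨b1, b2, b3⟩ := h.mk_x' him hjm hU'
  obtain ⟨w1, w2, w3, w4, w5⟩ := h.mk_w him hjm hU hU' hwR
  rw [decide_eq_false hcU'] at b2 b3
  rw [decide_eq_false hwU] at w2 w3
  rw [decide_eq_true (mem_insert_self w U)] at w4 w5
  generalize hy : mk3 x h.ij U = y at *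
  generalize hy' : mk3 x' h.ij (insert w U) = y' at *
  have hd : ∀ a, alpha y a + (ind y' a c + ind y' a w) = alpha y' a + (ind y a c + ind y a w) := by
    intro a
    have := alpha_diff (y := y) (y' := y') {c, w} (by
      intro b hb hs a
      rw [mem_insert, mem_singleton] at hb
      push Not at hb
      have hbc' : b ≠ c' := by
        intro e; rw [e, h.sc'] at hs; omega
      rw [← hy, ← hy']
      exact h.agree him hjm hU hU' hb.1 hbc' (by simp [hb.2]) a) a
    rwa [ind_pair _ _ hcw, ind_pair _ _ hcw] at this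
  have ei : ind y' i w = ind y i w := by unfold ind; rw [w1]
  have hdi := hd i
  have hdj := hd j
  have hdm := hd m
  rw [ei, ind_false b1, ind_true h.sc a1] at hdi
  rw [ind_false b2, ind_false a2, ind_false (x := y) w2] at hdj
  rw [ind_true h.sc (by simpa using b3), ind_false a3, ind_false (x := y') (by simpa using w5)] at hdm
  constructor
  · intro hsw
    rw [ind_true hsw w4] at hdj
    rw [ind_true hsw (by simpa using w3)] at hdm
    refine ⟨h.ij, by omega, by omega, ?_⟩
    intro a hai haj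
    have ham : a = m := by
      rcases third_all h.ij him hjm a with e | e | e
      · exact absurd e hai
      · exact absurd e haj
      · exact e
    subst ham
    omega
  · intro hsw
    rw [ind_sum hsw] at hdj hdm
    refine ⟨him, by omega, by omega, ?_⟩
    intro a hai ham
    have haj : a = j := by
      rcases third_all h.ij him hjm a with e | e | e
      · exact absurd e hai
      · exact e
      · exact absurd e ham
    subst haj
    omega

theorem Ex_i (g : M3 Γ r s → ℝ) (ℓ : ℝ)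
    (hg : ∀ y y' : M3 Γ r s, ∀ i j, Adj y y' i j → |g y - g y'| ≤ ℓ)
    (h : Move i j c c' x x') :
    |Ex (rowRel i) g x - Ex (rowRel i) g x'| ≤ ℓ := by
  obtain ⟨m, him, hjm, -⟩ := exists_third i j h.ij
  rw [Ex_row_eq g x h.ij, Ex_row_eq g x' h.ij, h.Uset_card]
  have hk : (Uset x i j).card ≤ (Rset x i).card := card_le_card (Uset_subset x i j)
  have hR := h.Rset_eq
  have key := slice_compare (Rset x i) c c' h.c_notMem h.c'_notMem h.cc (Uset x i j).card hk
    (fun U => g (mk3 x h.ij U)) (fun U' => g (mk3 x' h.ij U')) ℓ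
    (fun U hU => hg _ _ _ _ (h.adj1 him hjm hU))
    (fun U hU => hg _ _ _ _ (h.adj2 him hjm hU))
    (fun U hU w hw => by
      by_cases hs : s w = 1
      · exact hg _ _ _ _ ((h.adj3 him hjm hU hw).1 hs)
      · exact hg _ _ _ _ ((h.adj3 him hjm hU hw).2 hs))
    (fun U hU w hw => by
      by_cases hs : s w = 1
      · exact hg _ _ _ _ ((h.adj4 him hjm hU hw).1 hs)
      · exact hg _ _ _ _ ((h.adj4 him hjm hU hw).2 hs))
  rw [← hR] at key
  exact key

theorem Ex_j (g : M3 Γ r s → ℝ) (ℓ : ℝ)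
    (hg : ∀ y y' : M3 Γ r s, ∀ i j, Adj y y' i j → |g y - g y'| ≤ ℓ)
    (h : Move i j c c' x x') :
    |Ex (rowRel j) g x - Ex (rowRel j) g x'| ≤ ℓ := by
  have := h.symm'.Ex_i g ℓ hg
  rwa [abs_sub_comm] at this

theorem Ex_m (g : M3 Γ r s → ℝ) (h : Move i j c c' x x') (a : Fin 3) (hai : a ≠ i) (haj : a ≠ j) :
    Ex (rowRel a) g x = Ex (rowRel a) g x' :=
  Ex_congr (rowRel_equivalence a) g (h.row_m hai.symm haj.symm)

/-- the effect of a move on `alpha` -/
theorem adj (h : Move i j c c' x x') : Adj x x' i j := by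
  obtain ⟨m, him, hjm, -⟩ := exists_third i j h.ij
  have hd : ∀ a, alpha x a + ind x' a c = alpha x' a + ind x a c := by
    intro a
    have := alpha_diff (y := x) (y' := x') {c} (by
      intro b hb hs a
      have hbc : b ≠ c := by simpa using hb
      have hbc' : b ≠ c' := by
        intro e; rw [e, h.sc'] at hs; omega
      exact (h.off a b hbc hbc').symm) a
    rwa [ind_single, ind_single] at this
  have hdi := hd i
  have hdj := hd j
  have hdm := hd m
  rw [ind_false h.y1, ind_true h.sc h.xi] at hdi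
  rw [ind_true h.sc h.y2, ind_false (h.x_c him hjm).1] at hdj
  rw [ind_false (h.x'_m him hjm).1, ind_false (h.x_c him hjm).2] at hdm
  refine ⟨h.ij, by omega, by omega, ?_⟩
  intro a hai haj
  have ham : a = m := by
    rcases third_all h.ij him hjm a with e | e | e
    · exact absurd e hai
    · exact absurd e haj
    · exact e
  subst ham
  omega

end Move

/-- the three averages across an elementary move -/
theorem Ex_move (g : M3 Γ r s → ℝ) (ℓ : ℝ)
    (hg : ∀ y y' : M3 Γ r s, ∀ i j, Adj y y' i j → |g y - g y'| ≤ ℓ)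
    {i j : Fin 3} {c c' : Γ} {x x' : M3 Γ r s} (h : Move i j c c' x x') :
    |Ex (rowRel i) g x - Ex (rowRel i) g x'| ≤ ℓ ∧
      |Ex (rowRel j) g x - Ex (rowRel j) g x'| ≤ ℓ ∧
      ∀ a, a ≠ i → a ≠ j → Ex (rowRel a) g x = Ex (rowRel a) g x' :=
  ⟨h.Ex_i g ℓ hg, h.Ex_j g ℓ hg, h.Ex_m g⟩

/-- the three averages together -/
theorem sum_Ex_move (g : M3 Γ r s → ℝ) (ℓ : ℝ) (hℓ : 0 ≤ ℓ)
    (hg : ∀ y y' : M3 Γ r s, ∀ i j, Adj y y' i j → |g y - g y'| ≤ ℓ)
    {i j : Fin 3} {c c' : Γ} {x x' : M3 Γ r s} (h : Move i j c c' x x') :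
    |(Ex (rowRel 0) g x + Ex (rowRel 1) g x + Ex (rowRel 2) g x) -
      (Ex (rowRel 0) g x' + Ex (rowRel 1) g x' + Ex (rowRel 2) g x')| ≤ 2 * ℓ := by
  obtain ⟨m, him, hjm, -⟩ := exists_third i j h.ij
  obtain ⟨h1, h2, h3⟩ := Ex_move g ℓ hg h
  have h4 := h3 m him.symm hjm.symm
  have e : ∀ f : Fin 3 → ℝ, f 0 + f 1 + f 2 = f i + f j + f m := by
    intro f
    have hij := h.ij
    have : ∀ i j m : Fin 3, i ≠ j → i ≠ m → j ≠ m →
        (i, j, m) = (0, 1, 2) ∨ (i, j, m) = (0, 2, 1) ∨ (i, j, m) = (1, 0, 2) ∨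
        (i, j, m) = (1, 2, 0) ∨ (i, j, m) = (2, 0, 1) ∨ (i, j, m) = (2, 1, 0) := by
      decide
    rcases this i j m hij him hjm with e | e | e | e | e | e <;>
      (simp only [Prod.mk.injEq] at e; obtain ⟨rfl, rfl, rfl⟩ := e; ring)
  rw [e (fun a => Ex (rowRel a) g x), e (fun a => Ex (rowRel a) g x'), h4]
  have h5 := abs_add_le (Ex (rowRel i) g x - Ex (rowRel i) g x')
    (Ex (rowRel j) g x - Ex (rowRel j) g x')
  have e2 : (Ex (rowRel i) g x + Ex (rowRel j) g x + Ex (rowRel m) g x') -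
      (Ex (rowRel i) g x' + Ex (rowRel j) g x' + Ex (rowRel m) g x') =
      (Ex (rowRel i) g x - Ex (rowRel i) g x') + (Ex (rowRel j) g x - Ex (rowRel j) g x') := by
    ring
  rw [e2]
  linarith

/-- the matrix after an elementary move -/
def mvM (x : Fin 3 → Γ → Bool) (i j : Fin 3) (c c' : Γ) (a : Fin 3) (b : Γ) : Bool :=
  if a = i then (if b = c then false else if b = c' then true else x a b)
  else if a = j then (if b = c then true else if b = c' then false else x a b)
  else x a b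

theorem exists_move {i j : Fin 3} (hij : i ≠ j) {c c' : Γ} {x : M3 Γ r s} (hsc : s c = 1)
    (hsc' : s c' = 2) (hc : x.1 i c = true) (hc' : x.1 i c' = false) :
    ∃ x', Move i j c c' x x' := by
  obtain ⟨m, him, hjm, -⟩ := exists_third i j hij
  have hcc : c ≠ c' := by
    intro e; rw [e, hsc'] at hsc; omega
  have e1 : x.1 j c = false ∧ x.1 m c = false := by
    have e := col_sum x hij him hjm c
    rw [hc, hsc] at e
    cases h1 : x.1 j c <;> cases h2 : x.1 m c <;> rw [h1, h2] at e <;>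
      simp only [Bool.toNat_true, Bool.toNat_false] at e <;>
      first
      | exact ⟨rfl, rfl⟩
      | (exfalso; omega)
  have e2 : x.1 j c' = true ∧ x.1 m c' = true := by
    have e := col_sum x hij him hjm c'
    rw [hc', hsc'] at e
    cases h1 : x.1 j c' <;> cases h2 : x.1 m c' <;> rw [h1, h2] at e <;>
      simp only [Bool.toNat_true, Bool.toNat_false] at e <;>
      first
      | exact ⟨rfl, rfl⟩
      | (exfalso; omega)
  have hmem : (∀ a, ∑ b, (mvM x.1 i j c c' a b).toNat = r a) ∧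
      ∀ b, ∑ a, (mvM x.1 i j c c' a b).toNat = s b := by
    constructor
    · intro a
      rw [← x.2.1 a, ← add_sum_erase _ _ (mem_univ c),
        ← add_sum_erase (univ.erase c) _ (mem_erase.2 ⟨hcc.symm, mem_univ c'⟩),
        ← add_sum_erase univ (fun b => (x.1 a b).toNat) (mem_univ c),
        ← add_sum_erase (univ.erase c) (fun b => (x.1 a b).toNat)
          (mem_erase.2 ⟨hcc.symm, mem_univ c'⟩)]
      have hrest : ∑ b ∈ (univ.erase c).erase c', (mvM x.1 i j c c' a b).toNat =
          ∑ b ∈ (univ.erase c).erase c', (x.1 a b).toNat := by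
        refine sum_congr rfl fun b hb => ?_
        have hb1 := (mem_erase.1 hb).1
        have hb2 := (mem_erase.1 (mem_erase.1 hb).2).1
        unfold mvM
        simp only [if_neg hb1, if_neg hb2, ite_self]
      rw [hrest]
      rcases third_all hij him hjm a with rfl | rfl | rfl
      · unfold mvM
        simp [hc, hc', hcc.symm]
      · unfold mvM
        simp [e1.1, e2.1, hcc.symm, hij.symm]
      · unfold mvM
        simp [him.symm, hjm.symm]
    · intro b
      rw [sum3 hij him hjm (fun a => (mvM x.1 i j c c' a b).toNat), ← col_sum x hij him hjm b]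
      unfold mvM
      simp only [if_true, if_neg hij.symm, if_neg him.symm, if_neg hjm.symm]
      by_cases hb : b = c
      · subst hb
        simp [hc, e1.1, e1.2]
      · by_cases hb' : b = c'
        · subst hb'
          simp [hb, hc', e2.1, e2.2]
        · simp [hb, hb']
  refine ⟨⟨mvM x.1 i j c c', hmem⟩, ⟨hij, hsc, hsc', hc, hc', ?_, ?_, ?_, ?_, ?_⟩⟩
  · simp [mvM]
  · simp [mvM, hij.symm]
  · simp [mvM, hcc.symm]
  · simp [mvM, hij.symm, hcc.symm]
  · intro a b hb hb'
    simp [mvM, hb, hb']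

end Rows

end Vale.P335
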