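import Vale.Agent.P335.Avg
import Vale.Agent.P335.ThreeRow

/-!
# P335 M4: transfer of the three-row inequality to graphs
-/

namespace Vale.P335

open Finset

variable {V : Type*} [Fintype V] [DecidableEq V] {d : V → ℕ}

/-! ## Transport of averages along an injection with saturated range -/

theorem Ex_transport {X Y : Type*} [Fintype X] [Fintype Y] {r : X → X → Prop} {s : Y → Y → Prop}
    (φ : Y → X) (hinj : Function.Injective φ) (hrs : ∀ y y', r (φ y) (φ y') ↔ s y y')
    (hsat : ∀ y x, r (φ y) x → ∃ y', φ y' = x) (f : X → ℝ) (y : Y) :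
    Ex r f (φ y) = Ex s (fun z => f (φ z)) y := by
  classical
  have h : cls r (φ y) = (cls s y).image φ := by
    ext x
    rw [mem_cls, mem_image]
    constructor
    · intro hx
      obtain ⟨y', rfl⟩ := hsat y x hx
      exact ⟨y', mem_cls.2 ((hrs y y').1 hx), rfl⟩
    · rintro ⟨y', hy', rfl⟩
      exact (hrs y y').2 (mem_cls.1 hy')
  unfold Ex
  rw [h, sum_image (fun a _ b _ hab => hinj hab), card_image_of_injective _ hinj]

theorem Pj_transport {X Y : Type*} [Fintype X] [Fintype Y] {r : X → X → Prop} {s : Y → Y → Prop}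
    (φ : Y → X) (hinj : Function.Injective φ) (hrs : ∀ y y', r (φ y) (φ y') ↔ s y y')
    (hsat : ∀ y x, r (φ y) x → ∃ y', φ y' = x) (f : X → ℝ) (y : Y) :
    Pj r f (φ y) = Pj s (fun z => f (φ z)) y := by
  unfold Pj
  rw [Ex_transport φ hinj hrs hsat]

/-! ## The fibers -/

/-- agreement outside the rows and columns `i, j, k` -/
def fib (i j k : V) (x y : Gr V d) : Prop :=
  ∀ u v, u ≠ i → u ≠ j → u ≠ k → v ≠ i → v ≠ j → v ≠ k → x.1 u v = y.1 u v

theorem fib_equivalence (i j k : V) : Equivalence (fib (d := d) i j k) where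
  refl := fun _ _ _ _ _ _ _ _ _ => rfl
  symm := fun h u v h1 h2 h3 h4 h5 h6 => (h u v h1 h2 h3 h4 h5 h6).symm
  trans := fun h h' u v h1 h2 h3 h4 h5 h6 =>
    (h u v h1 h2 h3 h4 h5 h6).trans (h' u v h1 h2 h3 h4 h5 h6)

/-- the other vertices -/
def oth (i j k : V) : Finset V := univ.filter fun v => v ≠ i ∧ v ≠ j ∧ v ≠ k

theorem mem_oth {i j k v : V} : v ∈ oth i j k ↔ v ≠ i ∧ v ≠ j ∧ v ≠ k := by
  simp [oth]

theorem sum_split {i j k : V} (hij : i ≠ j) (hik : i ≠ k) (hjk : j ≠ k) (g : V → ℕ) :
    ∑ v, g v = g i + g j + g k + ∑ v ∈ oth i j k, g v := by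
  have h : (univ : Finset V) = insert i (insert j (insert k (oth i j k))) := by
    ext v
    simp only [mem_univ, mem_insert, mem_oth, true_iff]
    tauto
  rw [h, sum_insert, sum_insert, sum_insert]
  · ring
  · simp [mem_oth]
  · simp [mem_oth, hjk]
  · simp [mem_oth, hij, hik]

/-- the `3 × Option V` matrix of a graph -/
def enc (i j k : V) (y : V → V → Bool) (a : Fin 3) (c : Option V) : Bool :=
  match c with
  | none => match a with
    | 0 => !y j k
    | 1 => !y i k
    | 2 => !y i j
  | some v => if v = i ∨ v = j ∨ v = k then false else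
    match a with
    | 0 => y i v
    | 1 => y j v
    | 2 => y k v

/-- the graph of a `3 × Option V` matrix -/
def dec (i j k : V) (x : V → V → Bool) (z : Fin 3 → Option V → Bool) (u v : V) : Bool :=
  if u = i then
    (if v = i then false else if v = j then !z 2 none else if v = k then !z 1 none
      else z 0 (some v))
  else if u = j then
    (if v = i then !z 2 none else if v = j then false else if v = k then !z 0 none
      else z 1 (some v))
  else if u = k then
    (if v = i then !z 1 none else if v = j then !z 0 none else if v = k then false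
      else z 2 (some v))
  else
    (if v = i then z 0 (some u) else if v = j then z 1 (some u) else if v = k then z 2 (some u)
      else x u v)

/-- row sums -/
def rsum (i j k : V) (x : V → V → Bool) (a : Fin 3) : ℕ := ∑ c, (enc i j k x a c).toNat

/-- column sums -/
def csum (i j k : V) (x : V → V → Bool) (c : Option V) : ℕ := ∑ a, (enc i j k x a c).toNat

theorem toNat_not (b : Bool) : (!b).toNat + b.toNat = 1 := by cases b <;> rfl

section

variable {i j k : V} (hij : i ≠ j) (hik : i ≠ k) (hjk : j ≠ k)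

theorem enc_some_of_mem {y : V → V → Bool} {a : Fin 3} {v : V} (h : v = i ∨ v = j ∨ v = k) :
    enc i j k y a (some v) = false := by
  simp only [enc]
  rw [if_pos h]

theorem enc_some_zero {y : V → V → Bool} {v : V} (h : v ∈ oth i j k) :
    enc i j k y 0 (some v) = y i v := by
  rw [mem_oth] at h
  simp only [enc]
  rw [if_neg (by tauto)]

theorem enc_some_one {y : V → V → Bool} {v : V} (h : v ∈ oth i j k) :
    enc i j k y 1 (some v) = y j v := by
  rw [mem_oth] at h
  simp only [enc]
  rw [if_neg (by tauto)]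

theorem enc_some_two {y : V → V → Bool} {v : V} (h : v ∈ oth i j k) :
    enc i j k y 2 (some v) = y k v := by
  rw [mem_oth] at h
  simp only [enc]
  rw [if_neg (by tauto)]

include hij hik hjk in
theorem sum_row (w : Option V → Bool) (h : ∀ v, v = i ∨ v = j ∨ v = k → w (some v) = false) :
    ∑ c, (w c).toNat = (w none).toNat + ∑ v ∈ oth i j k, (w (some v)).toNat := by
  rw [Fintype.sum_option, sum_split hij hik hjk, h i (Or.inl rfl), h j (Or.inr (Or.inl rfl)),
    h k (Or.inr (Or.inr rfl))]
  simp

theorem sum_enc_zero (y : V → V → Bool) :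
    ∑ v ∈ oth i j k, (enc i j k y 0 (some v)).toNat = ∑ v ∈ oth i j k, (y i v).toNat :=
  sum_congr rfl fun v hv => by rw [enc_some_zero hv]

theorem sum_enc_one (y : V → V → Bool) :
    ∑ v ∈ oth i j k, (enc i j k y 1 (some v)).toNat = ∑ v ∈ oth i j k, (y j v).toNat :=
  sum_congr rfl fun v hv => by rw [enc_some_one hv]

theorem sum_enc_two (y : V → V → Bool) :
    ∑ v ∈ oth i j k, (enc i j k y 2 (some v)).toNat = ∑ v ∈ oth i j k, (y k v).toNat :=
  sum_congr rfl fun v hv => by rw [enc_some_two hv]

theorem col_zero {x : V → V → Bool} {z : Fin 3 → Option V → Bool}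
    (hz : ∀ c, ∑ a, (z a c).toNat = csum i j k x c) {v : V} (h : v = i ∨ v = j ∨ v = k)
    (a : Fin 3) : z a (some v) = false := by
  have h1 := hz (some v)
  have h2 : csum i j k x (some v) = 0 := by
    unfold csum
    refine sum_eq_zero fun a _ => ?_
    rw [enc_some_of_mem h]; rfl
  rw [h2, sum_eq_zero_iff] at h1
  have h3 := h1 a (mem_univ a)
  revert h3
  cases z a (some v) <;> simp

include hij hik hjk in
theorem dec_mem (x : Gr V d) (z : Fin 3 → Option V → Bool)
    (hr : ∀ a, ∑ c, (z a c).toNat = rsum i j k x.1 a)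
    (hc : ∀ c, ∑ a, (z a c).toNat = csum i j k x.1 c) :
    (∀ u v, dec i j k x.1 z u v = dec i j k x.1 z v u) ∧
    (∀ u, dec i j k x.1 z u u = false) ∧
    ∀ u, ∑ v, (dec i j k x.1 z u v).toNat = d u := by
  have hji := hij.symm
  have hki := hik.symm
  have hkj := hjk.symm
  have hz0 : ∀ a v, v = i ∨ v = j ∨ v = k → z a (some v) = false :=
    fun a v h => col_zero hc h a
  refine ⟨?_, ?_, ?_⟩
  · intro u v
    unfold dec
    by_cases hui : u = i <;> by_cases huj : u = j <;> by_cases huk : u = k <;>
      by_cases hvi : v = i <;> by_cases hvj : v = j <;> by_cases hvk : v = k <;>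
      simp_all [Gr.symm' x u v]
  · intro u
    unfold dec
    by_cases hui : u = i <;> by_cases huj : u = j <;> by_cases huk : u = k <;>
      simp_all [Gr.diag x u]
  · -- the relevant sums
    have hR0 := hr 0
    have hR1 := hr 1
    have hR2 := hr 2
    unfold rsum at hR0 hR1 hR2
    rw [sum_row hij hik hjk _ (hz0 0), sum_row hij hik hjk _ (fun v h => enc_some_of_mem h)] at hR0
    rw [sum_row hij hik hjk _ (hz0 1), sum_row hij hik hjk _ (fun v h => enc_some_of_mem h)] at hR1
    rw [sum_row hij hik hjk _ (hz0 2), sum_row hij hik hjk _ (fun v h => enc_some_of_mem h)] at hR2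
    rw [sum_enc_zero] at hR0
    rw [sum_enc_one] at hR1
    rw [sum_enc_two] at hR2
    have hN := hc none
    unfold csum at hN
    rw [Fin.sum_univ_three, Fin.sum_univ_three] at hN
    simp only [enc] at hR0 hR1 hR2 hN
    have e0 := toNat_not (z 0 none)
    have e1 := toNat_not (z 1 none)
    have e2 := toNat_not (z 2 none)
    have e3 := toNat_not (x.1 j k)
    have e4 := toNat_not (x.1 i k)
    have e5 := toNat_not (x.1 i j)
    have di := Gr.deg x i
    have dj := Gr.deg x j
    have dk := Gr.deg x k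
    rw [sum_split hij hik hjk] at di dj dk
    rw [Gr.diag x i] at di
    rw [Gr.diag x j, Gr.symm' x j i] at dj
    rw [Gr.diag x k, Gr.symm' x k i, Gr.symm' x k j] at dk
    simp only [Bool.toNat_false, zero_add, add_zero] at di dj dk
    intro u
    rw [sum_split hij hik hjk]
    by_cases hui : u = i
    · subst hui
      have h1 : ∑ v ∈ oth u j k, (dec u j k x.1 z u v).toNat =
          ∑ v ∈ oth u j k, (z 0 (some v)).toNat := by
        refine sum_congr rfl fun v hv => ?_
        rw [mem_oth] at hv
        simp only [dec, if_true]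
        rw [if_neg hv.1, if_neg hv.2.1, if_neg hv.2.2]
      have h2 : dec u j k x.1 z u u = false := by simp [dec]
      have h3 : dec u j k x.1 z u j = !z 2 none := by simp [dec, hji]
      have h4 : dec u j k x.1 z u k = !z 1 none := by simp [dec, hki, hkj]
      rw [h1, h2, h3, h4]
      simp only [Bool.toNat_false]
      omega
    by_cases huj : u = j
    · subst huj
      have h1 : ∑ v ∈ oth i u k, (dec i u k x.1 z u v).toNat =
          ∑ v ∈ oth i u k, (z 1 (some v)).toNat := by
        refine sum_congr rfl fun v hv => ?_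
        rw [mem_oth] at hv
        simp only [dec, if_true, if_neg hui]
        rw [if_neg hv.1, if_neg hv.2.1, if_neg hv.2.2]
      have h2 : dec i u k x.1 z u i = !z 2 none := by simp [dec, hui]
      have h3 : dec i u k x.1 z u u = false := by simp [dec, hui]
      have h4 : dec i u k x.1 z u k = !z 0 none := by simp [dec, hui, hki, hkj]
      rw [h1, h2, h3, h4]
      simp only [Bool.toNat_false]
      omega
    by_cases huk : u = k
    · subst huk
      have h1 : ∑ v ∈ oth i j u, (dec i j u x.1 z u v).toNat =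
          ∑ v ∈ oth i j u, (z 2 (some v)).toNat := by
        refine sum_congr rfl fun v hv => ?_
        rw [mem_oth] at hv
        simp only [dec, if_true, if_neg hui, if_neg huj]
        rw [if_neg hv.1, if_neg hv.2.1, if_neg hv.2.2]
      have h2 : dec i j u x.1 z u i = !z 1 none := by simp [dec, hui, huj]
      have h3 : dec i j u x.1 z u j = !z 0 none := by simp [dec, hui, huj, hji]
      have h4 : dec i j u x.1 z u u = false := by simp [dec, hui, huj]
      rw [h1, h2, h3, h4]
      simp only [Bool.toNat_false]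
      omega
    have hu : u ∈ oth i j k := mem_oth.2 ⟨hui, huj, huk⟩
    have h1 : ∑ v ∈ oth i j k, (dec i j k x.1 z u v).toNat =
        ∑ v ∈ oth i j k, (x.1 u v).toNat := by
      refine sum_congr rfl fun v hv => ?_
      rw [mem_oth] at hv
      simp only [dec, if_neg hui, if_neg huj, if_neg huk]
      rw [if_neg hv.1, if_neg hv.2.1, if_neg hv.2.2]
    have h2 : dec i j k x.1 z u i = z 0 (some u) := by simp [dec, hui, huj, huk]
    have h3 : dec i j k x.1 z u j = z 1 (some u) := by simp [dec, hui, huj, huk, hji]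
    have h4 : dec i j k x.1 z u k = z 2 (some u) := by simp [dec, hui, huj, huk, hki, hkj]
    rw [h1, h2, h3, h4]
    have hC := hc (some u)
    unfold csum at hC
    rw [Fin.sum_univ_three, Fin.sum_univ_three, enc_some_zero hu, enc_some_one hu,
      enc_some_two hu] at hC
    have du := Gr.deg x u
    rw [sum_split hij hik hjk, Gr.symm' x u i, Gr.symm' x u j, Gr.symm' x u k] at du
    omega

/-- the parametrisation of a fiber -/
def phi (x : Gr V d) (z : M3 (Option V) (rsum i j k x.1) (csum i j k x.1)) : Gr V d :=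
  ⟨dec i j k x.1 z.1, dec_mem hij hik hjk x z.1 z.2.1 z.2.2⟩

theorem enc_dec (x : Gr V d) (z : Fin 3 → Option V → Bool)
    (hc : ∀ c, ∑ a, (z a c).toNat = csum i j k x.1 c)
    (hij : i ≠ j) (hik : i ≠ k) (hjk : j ≠ k) :
    enc i j k (dec i j k x.1 z) = z := by
  have hji := hij.symm
  have hki := hik.symm
  have hkj := hjk.symm
  funext a c
  cases c with
  | none => fin_cases a <;> simp [enc, dec, hji, hki, hkj]
  | some v =>
    by_cases hv : v = i ∨ v = j ∨ v = k
    · rw [enc_some_of_mem hv, col_zero hc hv a]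
    · have hv' : v ∈ oth i j k := by rw [mem_oth]; tauto
      have hv'' := mem_oth.1 hv'
      fin_cases a
      · show enc i j k (dec i j k x.1 z) 0 (some v) = z 0 (some v)
        rw [enc_some_zero hv']
        simp [dec, hv''.1, hv''.2.1, hv''.2.2]
      · show enc i j k (dec i j k x.1 z) 1 (some v) = z 1 (some v)
        rw [enc_some_one hv']
        simp [dec, hv''.1, hv''.2.1, hv''.2.2, hji]
      · show enc i j k (dec i j k x.1 z) 2 (some v) = z 2 (some v)
        rw [enc_some_two hv']
        simp [dec, hv''.1, hv''.2.1, hv''.2.2, hki, hkj]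

theorem phi_injective (x : Gr V d) : Function.Injective (phi hij hik hjk x) := by
  intro z z' h
  have h1 : dec i j k x.1 z.1 = dec i j k x.1 z'.1 := congrArg Subtype.val h
  apply Subtype.ext
  rw [← enc_dec x z.1 z.2.2 hij hik hjk, ← enc_dec x z'.1 z'.2.2 hij hik hjk, h1]

theorem fib_phi (x : Gr V d) (z : M3 (Option V) (rsum i j k x.1) (csum i j k x.1)) :
    fib i j k x (phi hij hik hjk x z) := by
  intro u v h1 h2 h3 h4 h5 h6
  simp only [phi, dec]
  rw [if_neg h1, if_neg h2, if_neg h3, if_neg h4, if_neg h5, if_neg h6]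

include hij hik hjk in
theorem enc_sums {x y : Gr V d} (h : fib i j k x y) :
    (∀ a, ∑ c, (enc i j k y.1 a c).toNat = rsum i j k x.1 a) ∧
    (∀ c, ∑ a, (enc i j k y.1 a c).toNat = csum i j k x.1 c) := by
  -- columns of other vertices
  have hcol : ∀ v ∈ oth i j k, (y.1 i v).toNat + (y.1 j v).toNat + (y.1 k v).toNat =
      (x.1 i v).toNat + (x.1 j v).toNat + (x.1 k v).toNat := by
    intro v hv
    have hv' := mem_oth.1 hv
    have dx := Gr.deg x v
    have dy := Gr.deg y v
    rw [sum_split hij hik hjk, Gr.symm' x v i, Gr.symm' x v j, Gr.symm' x v k] at dx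
    rw [sum_split hij hik hjk, Gr.symm' y v i, Gr.symm' y v j, Gr.symm' y v k] at dy
    have e : ∑ w ∈ oth i j k, (y.1 v w).toNat = ∑ w ∈ oth i j k, (x.1 v w).toNat := by
      refine sum_congr rfl fun w hw => ?_
      have hw' := mem_oth.1 hw
      rw [h v w hv'.1 hv'.2.1 hv'.2.2 hw'.1 hw'.2.1 hw'.2.2]
    omega
  have hcolsum : ∑ v ∈ oth i j k, (y.1 i v).toNat + ∑ v ∈ oth i j k, (y.1 j v).toNat +
      ∑ v ∈ oth i j k, (y.1 k v).toNat = ∑ v ∈ oth i j k, (x.1 i v).toNat +
      ∑ v ∈ oth i j k, (x.1 j v).toNat + ∑ v ∈ oth i j k, (x.1 k v).toNat := by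
    rw [← sum_add_distrib, ← sum_add_distrib, ← sum_add_distrib, ← sum_add_distrib]
    exact sum_congr rfl hcol
  have dxi := Gr.deg x i
  have dxj := Gr.deg x j
  have dxk := Gr.deg x k
  have dyi := Gr.deg y i
  have dyj := Gr.deg y j
  have dyk := Gr.deg y k
  rw [sum_split hij hik hjk] at dxi dxj dxk dyi dyj dyk
  rw [Gr.diag x i] at dxi
  rw [Gr.diag x j, Gr.symm' x j i] at dxj
  rw [Gr.diag x k, Gr.symm' x k i, Gr.symm' x k j] at dxk
  rw [Gr.diag y i] at dyi
  rw [Gr.diag y j, Gr.symm' y j i] at dyj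
  rw [Gr.diag y k, Gr.symm' y k i, Gr.symm' y k j] at dyk
  simp only [Bool.toNat_false, zero_add, add_zero] at dxi dxj dxk dyi dyj dyk
  have e1 := toNat_not (x.1 j k)
  have e2 := toNat_not (x.1 i k)
  have e3 := toNat_not (x.1 i j)
  have e4 := toNat_not (y.1 j k)
  have e5 := toNat_not (y.1 i k)
  have e6 := toNat_not (y.1 i j)
  refine ⟨?_, ?_⟩
  · intro a
    unfold rsum
    rw [sum_row hij hik hjk _ (fun v h => enc_some_of_mem h),
      sum_row hij hik hjk _ (fun v h => enc_some_of_mem h)]
    fin_cases a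
    · show (enc i j k y.1 0 none).toNat + ∑ v ∈ oth i j k, (enc i j k y.1 0 (some v)).toNat =
        (enc i j k x.1 0 none).toNat + ∑ v ∈ oth i j k, (enc i j k x.1 0 (some v)).toNat
      rw [sum_enc_zero, sum_enc_zero]
      simp only [enc]
      omega
    · show (enc i j k y.1 1 none).toNat + ∑ v ∈ oth i j k, (enc i j k y.1 1 (some v)).toNat =
        (enc i j k x.1 1 none).toNat + ∑ v ∈ oth i j k, (enc i j k x.1 1 (some v)).toNat
      rw [sum_enc_one, sum_enc_one]
      simp only [enc]
      omega
    · show (enc i j k y.1 2 none).toNat + ∑ v ∈ oth i j k, (enc i j k y.1 2 (some v)).toNat =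
        (enc i j k x.1 2 none).toNat + ∑ v ∈ oth i j k, (enc i j k x.1 2 (some v)).toNat
      rw [sum_enc_two, sum_enc_two]
      simp only [enc]
      omega
  · intro c
    unfold csum
    rw [Fin.sum_univ_three, Fin.sum_univ_three]
    cases c with
    | none =>
      simp only [enc]
      omega
    | some v =>
      by_cases hv : v = i ∨ v = j ∨ v = k
      · simp only [enc_some_of_mem hv]
      · have hv' : v ∈ oth i j k := by rw [mem_oth]; tauto
        rw [enc_some_zero hv', enc_some_one hv', enc_some_two hv', enc_some_zero hv',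
          enc_some_one hv', enc_some_two hv']
        exact hcol v hv'

theorem exists_phi {x y : Gr V d} (h : fib i j k x y) : ∃ z, phi hij hik hjk x z = y := by
  obtain ⟨h1, h2⟩ := enc_sums hij hik hjk h
  refine ⟨⟨enc i j k y.1, h1, h2⟩, ?_⟩
  apply Gr.ext'
  intro u v
  have hji := hij.symm
  have hki := hik.symm
  have hkj := hjk.symm
  have hd := Gr.diag y
  have hs := Gr.symm' y
  simp only [phi]
  by_cases hui : u = i
  · by_cases hvi : v = i
    · subst hui; subst hvi; simp [dec, hd]
    by_cases hvj : v = j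
    · subst hui; subst hvj; simp [dec, enc, hji]
    by_cases hvk : v = k
    · subst hui; subst hvk; simp [dec, enc, hki, hkj]
    subst hui; simp [dec, enc, hvi, hvj, hvk]
  by_cases huj : u = j
  · by_cases hvi : v = i
    · subst huj; subst hvi; simp [dec, enc, hji, hs u v]
    by_cases hvj : v = j
    · subst huj; subst hvj; simp [dec, hji, hd]
    by_cases hvk : v = k
    · subst huj; subst hvk; simp [dec, enc, hki, hkj, hji]
    subst huj; simp [dec, enc, hvi, hvj, hvk, hji]
  by_cases huk : u = k
  · by_cases hvi : v = i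
    · subst huk; subst hvi; simp [dec, enc, hui, huj, hs u v]
    by_cases hvj : v = j
    · subst huk; subst hvj; simp [dec, enc, hui, huj, hji, hs u v]
    by_cases hvk : v = k
    · subst huk; subst hvk; simp [dec, hui, huj, hd]
    subst huk; simp [dec, enc, hvi, hvj, hvk, hui, huj]
  by_cases hvi : v = i
  · subst hvi; simp [dec, enc, hui, huj, huk, hs u v]
  by_cases hvj : v = j
  · subst hvj; simp [dec, enc, hui, huj, huk, hs u v, hji]
  by_cases hvk : v = k
  · subst hvk; simp [dec, enc, hui, huj, huk, hs u v, hki, hkj]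
  simp only [dec, if_neg hui, if_neg huj, if_neg huk, if_neg hvi, if_neg hvj, if_neg hvk]
  exact h u v hui huj huk hvi hvj hvk

/-- two adjacency matrices which agree on a row (apart from the diagonal) -/
theorem rel_iff_row {p q t : V} (hpq : p ≠ q) (hpt : p ≠ t) {x y : Gr V d}
    (h : ∀ u v, u ≠ p → u ≠ q → u ≠ t → v ≠ p → v ≠ q → v ≠ t → x.1 u v = y.1 u v) :
    rel q t x y ↔ x.1 q t = y.1 q t ∧ ∀ v, v ≠ p → v ≠ q → v ≠ t → x.1 p v = y.1 p v := by
  constructor
  · rintro ⟨h1, h2⟩
    exact ⟨h1, fun v _ h4 h5 => h2 p v hpq hpt h4 h5⟩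
  · rintro ⟨h1, h2⟩
    refine ⟨h1, fun u v h3 h4 h5 h6 => ?_⟩
    by_cases hu : u = p
    · subst hu
      by_cases hv : v = u
      · subst hv; rw [Gr.diag, Gr.diag]
      · exact h2 v hv h5 h6
    · by_cases hv : v = p
      · subst hv
        rw [Gr.symm' x, Gr.symm' y]
        exact h2 u hu h3 h4
      · exact h u v hu h3 h4 hv h5 h6

theorem enc_row_iff (a : Fin 3) (x y : V → V → Bool) :
    enc i j k x a = enc i j k y a ↔
      enc i j k x a none = enc i j k y a none ∧
        ∀ v ∈ oth i j k, enc i j k x a (some v) = enc i j k y a (some v) := by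
  constructor
  · intro h
    rw [h]
    exact ⟨rfl, fun _ _ => rfl⟩
  · rintro ⟨h1, h2⟩
    funext c
    cases c with
    | none => exact h1
    | some v =>
      by_cases hv : v = i ∨ v = j ∨ v = k
      · rw [enc_some_of_mem hv, enc_some_of_mem hv]
      · exact h2 v (by rw [mem_oth]; tauto)

include hij hik in
theorem rel_iff_zero {x y : Gr V d} (h : fib i j k x y) :
    rel j k x y ↔ enc i j k x.1 0 = enc i j k y.1 0 := by
  rw [rel_iff_row hij hik h, enc_row_iff]
  refine and_congr (by simp [enc]) ?_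
  constructor
  · intro h' v hv
    have := mem_oth.1 hv
    rw [enc_some_zero hv, enc_some_zero hv]
    exact h' v this.1 this.2.1 this.2.2
  · intro h' v h1 h2 h3
    have hv : v ∈ oth i j k := mem_oth.2 ⟨h1, h2, h3⟩
    have := h' v hv
    rwa [enc_some_zero hv, enc_some_zero hv] at this

include hij hjk in
theorem rel_iff_one {x y : Gr V d} (h : fib i j k x y) :
    rel i k x y ↔ enc i j k x.1 1 = enc i j k y.1 1 := by
  rw [rel_iff_row hij.symm hjk (fun u v h1 h2 h3 h4 h5 h6 => h u v h2 h1 h3 h5 h4 h6), enc_row_iff]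
  refine and_congr (by simp [enc]) ?_
  constructor
  · intro h' v hv
    have := mem_oth.1 hv
    rw [enc_some_one hv, enc_some_one hv]
    exact h' v this.2.1 this.1 this.2.2
  · intro h' v h1 h2 h3
    have hv : v ∈ oth i j k := mem_oth.2 ⟨h2, h1, h3⟩
    have := h' v hv
    rwa [enc_some_one hv, enc_some_one hv] at this

include hik hjk in
theorem rel_iff_two {x y : Gr V d} (h : fib i j k x y) :
    rel i j x y ↔ enc i j k x.1 2 = enc i j k y.1 2 := by
  rw [rel_iff_row hik.symm hjk.symm (fun u v h1 h2 h3 h4 h5 h6 => h u v h2 h3 h1 h5 h6 h4),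
    enc_row_iff]
  refine and_congr (by simp [enc]) ?_
  constructor
  · intro h' v hv
    have := mem_oth.1 hv
    rw [enc_some_two hv, enc_some_two hv]
    exact h' v this.2.2 this.1 this.2.1
  · intro h' v h1 h2 h3
    have hv : v ∈ oth i j k := mem_oth.2 ⟨h2, h3, h1⟩
    have := h' v hv
    rwa [enc_some_two hv, enc_some_two hv] at this

theorem fib_of_rel {p q : V} (hp : p = i ∨ p = j ∨ p = k) (hq : q = i ∨ q = j ∨ q = k)
    {x y : Gr V d} (h : rel p q x y) : fib i j k x y := by
  intro u v h1 h2 h3 h4 h5 h6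
  refine h.2 u v ?_ ?_ ?_ ?_
  · rcases hp with rfl | rfl | rfl <;> assumption
  · rcases hq with rfl | rfl | rfl <;> assumption
  · rcases hp with rfl | rfl | rfl <;> assumption
  · rcases hq with rfl | rfl | rfl <;> assumption

theorem fib_phi_phi (x : Gr V d) (z z' : M3 (Option V) (rsum i j k x.1) (csum i j k x.1)) :
    fib i j k (phi hij hik hjk x z) (phi hij hik hjk x z') :=
  (fib_equivalence i j k).trans ((fib_equivalence i j k).symm (fib_phi hij hik hjk x z))
    (fib_phi hij hik hjk x z')

theorem enc_phi (x : Gr V d) (z : M3 (Option V) (rsum i j k x.1) (csum i j k x.1)) :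
    enc i j k (phi hij hik hjk x z).1 = z.1 :=
  enc_dec x z.1 z.2.2 hij hik hjk

theorem Pj_phi_zero (x : Gr V d) (f : Gr V d → ℝ)
    (z : M3 (Option V) (rsum i j k x.1) (csum i j k x.1)) :
    Pj (rel j k) f (phi hij hik hjk x z) =
      Pj (rowRel 0) (fun z => f (phi hij hik hjk x z)) z := by
  refine Pj_transport _ (phi_injective hij hik hjk x) (fun y y' => ?_) (fun y x' h => ?_) f z
  · rw [rel_iff_zero hij hik (fib_phi_phi hij hik hjk x y y'), enc_phi, enc_phi]; rfl
  · exact exists_phi hij hik hjk ((fib_equivalence i j k).trans (fib_phi hij hik hjk x y)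
      (fib_of_rel (by tauto) (by tauto) h))

theorem Pj_phi_one (x : Gr V d) (f : Gr V d → ℝ)
    (z : M3 (Option V) (rsum i j k x.1) (csum i j k x.1)) :
    Pj (rel i k) f (phi hij hik hjk x z) =
      Pj (rowRel 1) (fun z => f (phi hij hik hjk x z)) z := by
  refine Pj_transport _ (phi_injective hij hik hjk x) (fun y y' => ?_) (fun y x' h => ?_) f z
  · rw [rel_iff_one hij hjk (fib_phi_phi hij hik hjk x y y'), enc_phi, enc_phi]; rfl
  · exact exists_phi hij hik hjk ((fib_equivalence i j k).trans (fib_phi hij hik hjk x y)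
      (fib_of_rel (by tauto) (by tauto) h))

theorem Pj_phi_two (x : Gr V d) (f : Gr V d → ℝ)
    (z : M3 (Option V) (rsum i j k x.1) (csum i j k x.1)) :
    Pj (rel i j) f (phi hij hik hjk x z) =
      Pj (rowRel 2) (fun z => f (phi hij hik hjk x z)) z := by
  refine Pj_transport _ (phi_injective hij hik hjk x) (fun y y' => ?_) (fun y x' h => ?_) f z
  · rw [rel_iff_two hik hjk (fib_phi_phi hij hik hjk x y y'), enc_phi, enc_phi]; rfl
  · exact exists_phi hij hik hjk ((fib_equivalence i j k).trans (fib_phi hij hik hjk x y)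
      (fib_of_rel (by tauto) (by tauto) h))

include hij hik hjk in
/-- the three-vertex inequality, from the three-row inequality -/
theorem three_vertex_of (f : Gr V d → ℝ)
    (H : ∀ (r : Fin 3 → ℕ) (s : Option V → ℕ) (g : M3 (Option V) r s → ℝ),
      0 ≤ ip (Pj (rowRel 0) g) (Pj (rowRel 1) g) + ip (Pj (rowRel 0) g) (Pj (rowRel 2) g)
        + ip (Pj (rowRel 1) g) (Pj (rowRel 2) g)) :
    0 ≤ ip (Pj (rel i j) f) (Pj (rel i k) f) + ip (Pj (rel i j) f) (Pj (rel j k) f)
      + ip (Pj (rel i k) f) (Pj (rel j k) f) := by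
  classical
  have hsum : ip (Pj (rel i j) f) (Pj (rel i k) f) + ip (Pj (rel i j) f) (Pj (rel j k) f)
      + ip (Pj (rel i k) f) (Pj (rel j k) f) =
      ∑ x, (Pj (rel i j) f x * Pj (rel i k) f x + Pj (rel i j) f x * Pj (rel j k) f x
        + Pj (rel i k) f x * Pj (rel j k) f x) := by
    unfold ip
    rw [sum_add_distrib, sum_add_distrib]
  rw [hsum, ← sum_Ex (fib_equivalence i j k)]
  refine sum_nonneg fun x _ => ?_
  unfold Ex
  refine div_nonneg ?_ (Nat.cast_nonneg _)
  have himg : cls (fib i j k) x = univ.image (phi hij hik hjk x) := by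
    ext y
    rw [mem_cls, mem_image]
    constructor
    · intro h
      obtain ⟨z, hz⟩ := exists_phi hij hik hjk h
      exact ⟨z, mem_univ z, hz⟩
    · rintro ⟨z, -, rfl⟩
      exact fib_phi hij hik hjk x z
  rw [himg, sum_image (fun a _ b _ hab => phi_injective hij hik hjk x hab)]
  have hH := H _ _ (fun z => f (phi hij hik hjk x z))
  refine hH.trans (le_of_eq ?_)
  unfold ip
  rw [← sum_add_distrib, ← sum_add_distrib]
  refine sum_congr rfl fun z _ => ?_
  rw [Pj_phi_zero, Pj_phi_one, Pj_phi_two]
  ring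

end

theorem three_vertex {i j k : V} (hij : i ≠ j) (hik : i ≠ k) (hjk : j ≠ k) (f : Gr V d → ℝ) :
    0 ≤ ip (Pj (rel i j) f) (Pj (rel i k) f) + ip (Pj (rel i j) f) (Pj (rel j k) f)
      + ip (Pj (rel i k) f) (Pj (rel j k) f) :=
  three_vertex_of hij hik hjk f fun _ _ g => three_row g

end Vale.P335
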